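import Vale.Agent.Lib.P202.TopLayer

namespace Vale.Agent.Lib.P202

open Module IsLocalRing

variable {S : Type*} [CommRing S] [IsLocalRing S]

/-- Prime avoidance for ideals between `n^2` and `n`, with infinite residue field. -/
lemma exists_avoid [Infinite (ResidueField S)] (F : Finset (Ideal S))
    (hF : ∀ w ∈ F, maximalIdeal S ^ 2 ≤ w ∧ w ≠ maximalIdeal S ∧ w ≤ maximalIdeal S) :
    ∃ y ∈ maximalIdeal S, ∀ w ∈ F, y ∉ w := by
  classical
  let E := (maximalIdeal S).Cotangent
  let k := ResidueField S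
  let p : Ideal S → Subspace k E := fun w =>
    { carrier := {x | ∃ u : ↥(maximalIdeal S), u.1 ∈ w ∧ (maximalIdeal S).toCotangent u = x}
      add_mem' := by
        rintro a b ⟨u, hu, rfl⟩ ⟨v, hv, rfl⟩
        exact ⟨u + v, w.add_mem hu hv, map_add _ _ _⟩
      zero_mem' := ⟨0, w.zero_mem, map_zero _⟩
      smul_mem' := by
        rintro c x ⟨u, hu, rfl⟩
        obtain ⟨s, rfl⟩ := residue_surjective c
        refine ⟨s • u, w.mul_mem_left s hu, ?_⟩
        rw [map_smul]
        rfl }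
  have hp : ∀ w ∈ F, p w ≠ ⊤ := by
    intro w hw htop
    obtain ⟨h1, h2, h3⟩ := hF w hw
    apply h2
    refine le_antisymm h3 ?_
    intro b hb
    have hmem : (maximalIdeal S).toCotangent ⟨b, hb⟩ ∈ p w := by
      rw [htop]; trivial
    obtain ⟨u, hu, huv⟩ := hmem
    have h4 : (maximalIdeal S).toCotangent (⟨b, hb⟩ - u) = 0 := by
      rw [map_sub, huv, sub_self]
    rw [Ideal.toCotangent_eq_zero] at h4
    have h5 : b - u.1 ∈ w := h1 h4
    have : b = (b - u.1) + u.1 := by ring
    rw [this]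
    exact w.add_mem h5 hu
  have htop : (⊤ : Subspace k E) ∉ F.image p := by
    intro h
    obtain ⟨w, hw, hpw⟩ := Finset.mem_image.mp h
    exact hp w hw hpw
  have hne := Subspace.biUnion_ne_univ_of_top_notMem htop
  obtain ⟨x, hx⟩ : ∃ x, x ∉ ⋃ q ∈ F.image p, (q : Set E) := by
    by_contra hcon
    push Not at hcon
    exact hne (Set.eq_univ_of_forall hcon)
  obtain ⟨u, rfl⟩ := (maximalIdeal S).toCotangent_surjective x
  refine ⟨u.1, u.2, ?_⟩
  intro w hw huw
  apply hx
  simp only [Set.mem_iUnion]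
  exact ⟨p w, Finset.mem_image_of_mem _ hw, ⟨u, huw, rfl⟩⟩

end Vale.Agent.Lib.P202
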