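import Mathlib

namespace Vale.Agent.Lib.P202

open Module IsLocalRing

variable {S : Type*} [CommRing S]

/-- The length of `S / I` as an `S`-module. -/
noncomputable def ilen (I : Ideal S) : ℕ∞ := Module.length S (S ⧸ I)

lemma ilen_anti {I J : Ideal S} (h : I ≤ J) : ilen J ≤ ilen I :=
  Module.length_le_of_surjective (Submodule.factor h) (Submodule.factor_surjective h)

lemma ilen_top : ilen (⊤ : Ideal S) = 0 := by
  unfold ilen
  have : Subsingleton (S ⧸ (⊤ : Ideal S)) := Ideal.Quotient.subsingleton_iff.mpr rfl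
  exact Module.length_eq_zero

lemma ilen_eq_zero_iff {I : Ideal S} : ilen I = 0 ↔ I = ⊤ := by
  unfold ilen
  rw [Module.length_eq_zero_iff]
  exact Ideal.Quotient.subsingleton_iff

/-- The colon ideal `(I : y)`. -/
def cln (I : Ideal S) (y : S) : Ideal S := Submodule.comap (LinearMap.mulLeft S y) I

@[simp] lemma mem_cln {I : Ideal S} {y u : S} : u ∈ cln I y ↔ y * u ∈ I := Iff.rfl

lemma le_cln (I : Ideal S) (y : S) : I ≤ cln I y := fun u hu => I.mul_mem_left y hu

lemma cln_cln (I : Ideal S) (y z : S) : cln (cln I y) z = cln I (y * z) := by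
  ext u; simp [mul_assoc]

lemma cln_one (I : Ideal S) : cln I 1 = I := by ext u; simp

lemma cln_mono {I J : Ideal S} (h : I ≤ J) (y : S) : cln I y ≤ cln J y := fun _ hu => h hu

lemma cln_eq_top_of_mem {I : Ideal S} {y : S} (h : y ∈ I) : cln I y = ⊤ := by
  rw [eq_top_iff]; intro u _; rw [mem_cln, mul_comm]; exact I.mul_mem_left u h

/-- The basic additivity: `ℓ(S/I) = ℓ(S/(I + y)) + ℓ(S/(I : y))`. -/
lemma ilen_eq_add_cln (I : Ideal S) (y : S) :
    ilen I = ilen (I ⊔ Ideal.span {y}) + ilen (cln I y) := by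
  unfold ilen
  rw [add_comm]
  refine Module.length_eq_add_of_exact
    (Submodule.mapQ (cln I y) I (LinearMap.mulLeft S y) le_rfl)
    (Submodule.factor (le_sup_left : I ≤ I ⊔ Ideal.span {y})) ?_
    (Submodule.factor_surjective _) ?_
  · rw [← LinearMap.ker_eq_bot, LinearMap.ker_eq_bot']
    intro a ha
    obtain ⟨u, rfl⟩ := Submodule.Quotient.mk_surjective _ a
    change Submodule.Quotient.mk (y * u) = 0 at ha
    rw [Submodule.Quotient.mk_eq_zero] at ha
    exact (Submodule.Quotient.mk_eq_zero _).mpr ha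
  · intro z
    obtain ⟨w, rfl⟩ := Submodule.Quotient.mk_surjective _ z
    constructor
    · intro h
      change Submodule.Quotient.mk w = 0 at h
      rw [Submodule.Quotient.mk_eq_zero, Submodule.mem_sup] at h
      obtain ⟨i, hi, t, ht, rfl⟩ := h
      obtain ⟨r, rfl⟩ := Ideal.mem_span_singleton'.mp ht
      refine ⟨Submodule.Quotient.mk r, ?_⟩
      change Submodule.Quotient.mk (y * r) = _
      rw [Submodule.Quotient.eq]
      have : y * r - (i + r * y) = - i := by ring
      rw [this]
      exact I.neg_mem hi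
    · rintro ⟨r, hr⟩
      obtain ⟨r, rfl⟩ := Submodule.Quotient.mk_surjective _ r
      change Submodule.Quotient.mk (y * r) = _ at hr
      rw [← hr]
      change Submodule.Quotient.mk (y * r) = 0
      rw [Submodule.Quotient.mk_eq_zero]
      exact Ideal.mem_sup_right (Ideal.mul_mem_right _ _ (Ideal.mem_span_singleton_self y))

/-- Iterated form: `ℓ(S/I) ≤ ν · ℓ(S/(I+y)) + ℓ(S/(I : y^ν))`. -/
lemma ilen_le_nsmul_add (I : Ideal S) (y : S) (ν : ℕ) :
    ilen I ≤ ν • ilen (I ⊔ Ideal.span {y}) + ilen (cln I (y ^ ν)) := by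
  induction ν with
  | zero => simp [cln_one]
  | succ ν ih =>
    have h1 : ilen (cln I (y ^ ν)) = ilen (cln I (y ^ ν) ⊔ Ideal.span {y})
        + ilen (cln (cln I (y ^ ν)) y) := ilen_eq_add_cln _ _
    have h2 : ilen (cln I (y ^ ν) ⊔ Ideal.span {y}) ≤ ilen (I ⊔ Ideal.span {y}) :=
      ilen_anti (sup_le_sup_right (le_trans (le_cln I (y ^ ν)) le_rfl) _)
    have h3 : cln (cln I (y ^ ν)) y = cln I (y ^ (ν + 1)) := by
      rw [cln_cln, pow_succ]
    calc ilen I ≤ ν • ilen (I ⊔ Ideal.span {y}) + ilen (cln I (y ^ ν)) := ih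
      _ = ν • ilen (I ⊔ Ideal.span {y}) + (ilen (cln I (y ^ ν) ⊔ Ideal.span {y})
            + ilen (cln I (y ^ (ν + 1)))) := by rw [h1, h3]
      _ ≤ ν • ilen (I ⊔ Ideal.span {y}) + (ilen (I ⊔ Ideal.span {y})
            + ilen (cln I (y ^ (ν + 1)))) := by gcongr
      _ = (ν + 1) • ilen (I ⊔ Ideal.span {y}) + ilen (cln I (y ^ (ν + 1))) := by
            rw [succ_nsmul, add_assoc]

/-- A general additivity: if `P ≤ U`, the kernel of `u ↦ y u : U → S/I` is `P`,
and `I' = I + yU`, then `ℓ(S/P) + ℓ(S/I') = ℓ(S/U) + ℓ(S/I)`. -/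
lemma ilen_add_eq_add {P U I I' : Ideal S} (y : S) (hPU : P ≤ U)
    (hP : ∀ u ∈ U, u ∈ P ↔ y * u ∈ I) (hI : I ≤ I')
    (hI' : ∀ w, w ∈ I' ↔ ∃ i ∈ I, ∃ u ∈ U, w = i + y * u) :
    ilen P + ilen I' = ilen U + ilen I := by
  -- the quotient `U / P`
  let Q := (↥U) ⧸ (Submodule.comap U.subtype P)
  have h1 : ilen P = Module.length S Q + ilen U := by
    unfold ilen
    refine Module.length_eq_add_of_exact
      (Submodule.mapQ (Submodule.comap U.subtype P) P U.subtype le_rfl)
      (Submodule.factor hPU) ?_ (Submodule.factor_surjective _) ?_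
    · rw [← LinearMap.ker_eq_bot, LinearMap.ker_eq_bot']
      intro a ha
      obtain ⟨u, rfl⟩ := Submodule.Quotient.mk_surjective _ a
      change Submodule.Quotient.mk (u.1) = 0 at ha
      rw [Submodule.Quotient.mk_eq_zero] at ha
      exact (Submodule.Quotient.mk_eq_zero _).mpr ha
    · intro z
      obtain ⟨w, rfl⟩ := Submodule.Quotient.mk_surjective _ z
      constructor
      · intro h
        change Submodule.Quotient.mk w = 0 at h
        rw [Submodule.Quotient.mk_eq_zero] at h
        exact ⟨Submodule.Quotient.mk ⟨w, h⟩, rfl⟩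
      · rintro ⟨r, hr⟩
        obtain ⟨r, rfl⟩ := Submodule.Quotient.mk_surjective _ r
        change Submodule.Quotient.mk (r.1) = _ at hr
        rw [← hr]
        change Submodule.Quotient.mk (r.1) = 0
        rw [Submodule.Quotient.mk_eq_zero]
        exact r.2
  have h2 : ilen I = Module.length S Q + ilen I' := by
    unfold ilen
    refine Module.length_eq_add_of_exact
      (Submodule.mapQ (Submodule.comap U.subtype P) I ((LinearMap.mulLeft S y) ∘ₗ U.subtype) ?_)
      (Submodule.factor hI) ?_ (Submodule.factor_surjective _) ?_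
    · intro u hu
      exact (hP u.1 u.2).mp (by simpa using hu)
    · rw [← LinearMap.ker_eq_bot, LinearMap.ker_eq_bot']
      intro a ha
      obtain ⟨u, rfl⟩ := Submodule.Quotient.mk_surjective _ a
      change Submodule.Quotient.mk (y * u.1) = 0 at ha
      rw [Submodule.Quotient.mk_eq_zero] at ha
      refine (Submodule.Quotient.mk_eq_zero _).mpr ?_
      simpa using (hP u.1 u.2).mpr ha
    · intro z
      obtain ⟨w, rfl⟩ := Submodule.Quotient.mk_surjective _ z
      constructor
      · intro h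
        change Submodule.Quotient.mk w = 0 at h
        rw [Submodule.Quotient.mk_eq_zero] at h
        obtain ⟨i, hi, u, hu, rfl⟩ := (hI' w).mp h
        refine ⟨Submodule.Quotient.mk ⟨u, hu⟩, ?_⟩
        change Submodule.Quotient.mk (y * u) = _
        rw [Submodule.Quotient.eq]
        have : y * u - (i + y * u) = - i := by ring
        rw [this]
        exact I.neg_mem hi
      · rintro ⟨r, hr⟩
        obtain ⟨r, rfl⟩ := Submodule.Quotient.mk_surjective _ r
        change Submodule.Quotient.mk (y * r.1) = _ at hr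
        rw [← hr]
        change Submodule.Quotient.mk (y * r.1) = 0
        rw [Submodule.Quotient.mk_eq_zero]
        exact (hI' _).mpr ⟨0, I.zero_mem, r.1, r.2, by simp⟩
  rw [h1, h2]
  ring

/-- Inequality version with multiplier `1`: if `P ≤ U ⊓ I`, then
`ℓ(S/U) + ℓ(S/I) ≤ ℓ(S/P) + ℓ(S/(I ⊔ U))`. -/
lemma ilen_add_le_add {P U I : Ideal S} (hPU : P ≤ U) (hPI : P ≤ I) :
    ilen U + ilen I ≤ ilen P + ilen (I ⊔ U) := by
  have := ilen_add_eq_add (P := U ⊓ I) (U := U) (I := I) (I' := I ⊔ U) 1 inf_le_left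
    (by
      intro u hu
      simp only [Submodule.mem_inf, hu, true_and, one_mul])
    le_sup_left
    (by
      intro w
      rw [Submodule.mem_sup]
      constructor
      · rintro ⟨i, hi, u, hu, rfl⟩
        exact ⟨i, hi, u, hu, by simp⟩
      · rintro ⟨i, hi, u, hu, rfl⟩
        exact ⟨i, hi, u, hu, by simp⟩)
  rw [← this]
  gcongr
  exact ilen_anti (le_inf hPU hPI)

/-- In a local ring, if `y ∈ n` then `y^K ∉ I` implies `K + 1 ≤ ℓ(S/I)`. -/
lemma pow_mem_of_ilen [IsLocalRing S] {I : Ideal S} {y : S} (hy : y ∈ maximalIdeal S) (K : ℕ)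
    (h : y ^ K ∉ I) : ((K : ℕ∞) + 1) ≤ ilen I := by
  induction K generalizing I with
  | zero =>
    simp only [Nat.cast_zero, zero_add]
    have : I ≠ ⊤ := by
      rintro rfl
      exact h (by simp)
    rw [Order.one_le_iff_ne_zero]
    intro h0
    exact this (ilen_eq_zero_iff.mp h0)
  | succ K ih =>
    have hy' : y ^ K ∉ cln I y := by
      rw [mem_cln, ← pow_succ']
      exact h
    have h1 := ih (I := cln I y) hy'
    have h2 := ilen_eq_add_cln I y
    have hne : I ⊔ Ideal.span {y} ≠ ⊤ := by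
      intro ht
      have hI : I ≤ maximalIdeal S := by
        apply IsLocalRing.le_maximalIdeal
        rintro rfl
        exact h (by simp)
      have : I ⊔ Ideal.span {y} ≤ maximalIdeal S :=
        sup_le hI ((Ideal.span_singleton_le_iff_mem _).mpr hy)
      rw [ht] at this
      exact (maximalIdeal.isMaximal S).ne_top (top_le_iff.mp this)
    have h3 : 1 ≤ ilen (I ⊔ Ideal.span {y}) := by
      rw [Order.one_le_iff_ne_zero]
      intro h0
      exact hne (ilen_eq_zero_iff.mp h0)
    rw [h2]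
    calc ((K + 1 : ℕ) : ℕ∞) + 1 = 1 + ((K : ℕ∞) + 1) := by push_cast; ring
      _ ≤ ilen (I ⊔ Ideal.span {y}) + ilen (cln I y) := by gcongr

/-- If `ℓ(S/I) = c` then `y^c ∈ I` for `y` in the maximal ideal. -/
lemma pow_ilen_mem [IsLocalRing S] {I : Ideal S} {y : S} (hy : y ∈ maximalIdeal S) {c : ℕ}
    (hc : ilen I = c) : y ^ c ∈ I := by
  by_contra h
  have := pow_mem_of_ilen hy c h
  rw [hc] at this
  have h2 : ((c : ℕ∞) + 1) ≤ c := this
  norm_cast at h2
  omega

end Vale.Agent.Lib.P202
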