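import Vale.Agent.Lib.P202.Outcome

namespace Vale.Agent.Lib.P202

open Module IsLocalRing

/-- Numeric: `x^(k+1) + (k+1) x^k ≤ (x+1)^(k+1)`. -/
lemma pow_add_le (x k : ℕ) : x ^ (k + 1) + (k + 1) * x ^ k ≤ (x + 1) ^ (k + 1) := by
  induction k with
  | zero => simp
  | succ k ih =>
    calc x ^ (k + 1 + 1) + (k + 1 + 1) * x ^ (k + 1)
        ≤ (x + 1) * (x ^ (k + 1) + (k + 1) * x ^ k) := by
          have : (x + 1) * (x ^ (k + 1) + (k + 1) * x ^ k)
              = x ^ (k + 1 + 1) + (k + 1 + 1) * x ^ (k + 1) + (k + 1) * x ^ k := by ring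
          omega
      _ ≤ (x + 1) * (x + 1) ^ (k + 1) := Nat.mul_le_mul_left _ ih
      _ = (x + 1) ^ (k + 1 + 1) := by ring

lemma sum_pow_le (k c N : ℕ) :
    (k + 1) * ∑ M ∈ Finset.range N, (M + c) ^ k ≤ (N + c) ^ (k + 1) := by
  induction N with
  | zero =>
    simp
  | succ N ih =>
    rw [Finset.sum_range_succ, mul_add]
    have h := pow_add_le (N + c) k
    have h2 : N + 1 + c = N + c + 1 := by ring
    rw [h2]
    omega

/-- The iterated sums. -/
def PP (E C : ℕ) : ℕ → ℕ → ℕ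
  | 0, N => E * N + C
  | k + 1, N => ∑ M ∈ Finset.range N, PP E C k (M + 1)

lemma PP_bound (E C : ℕ) (k N : ℕ) :
    (k + 1).factorial * PP E C k N ≤ E * (N + k) ^ (k + 1) + (k + 1) * (C * (N + k) ^ k) := by
  induction k generalizing N with
  | zero => simp [PP]
  | succ k ih =>
    have h1 : ∀ M, (k + 1).factorial * PP E C k (M + 1)
        ≤ E * (M + (k + 1)) ^ (k + 1) + (k + 1) * (C * (M + (k + 1)) ^ k) := by
      intro M
      have := ih (M + 1)
      have h2 : M + 1 + k = M + (k + 1) := by ring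
      rwa [h2] at this
    have h2 : (k + 1 + 1).factorial * PP E C (k + 1) N
        = (k + 2) * ∑ M ∈ Finset.range N, (k + 1).factorial * PP E C k (M + 1) := by
      rw [Nat.factorial_succ (k + 1), PP, Finset.mul_sum, Finset.mul_sum]
      refine Finset.sum_congr rfl fun M _ => ?_
      ring
    rw [h2]
    have h3 : ∑ M ∈ Finset.range N, (k + 1).factorial * PP E C k (M + 1)
        ≤ ∑ M ∈ Finset.range N, (E * (M + (k + 1)) ^ (k + 1) + (k + 1) * (C * (M + (k + 1)) ^ k)) :=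
      Finset.sum_le_sum fun M _ => h1 M
    have h4 := sum_pow_le (k + 1) (k + 1) N
    have h5 := sum_pow_le k (k + 1) N
    calc (k + 2) * ∑ M ∈ Finset.range N, (k + 1).factorial * PP E C k (M + 1)
        ≤ (k + 2) * ∑ M ∈ Finset.range N,
            (E * (M + (k + 1)) ^ (k + 1) + (k + 1) * (C * (M + (k + 1)) ^ k)) :=
          Nat.mul_le_mul_left _ h3
      _ = E * ((k + 1 + 1) * ∑ M ∈ Finset.range N, (M + (k + 1)) ^ (k + 1))
          + (k + 1 + 1) * (C * ((k + 1) * ∑ M ∈ Finset.range N, (M + (k + 1)) ^ k)) := by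
          rw [Finset.sum_add_distrib, mul_add]
          congr 1
          · rw [← Finset.mul_sum]; ring
          · rw [← Finset.mul_sum, ← Finset.mul_sum]; ring
      _ ≤ E * (N + (k + 1)) ^ (k + 1 + 1) + (k + 1 + 1) * (C * (N + (k + 1)) ^ (k + 1)) := by
          gcongr

variable {R S : Type*} [CommRing R] [CommRing S] [Algebra R S] [Module.Flat R S]
  [IsLocalRing R] [IsLocalRing S] [IsNoetherianRing R] [IsNoetherianRing S]
  [IsLocalHom (algebraMap R S)]

/-- Flatness in the form used: the numbers `H N` with top layer inequalities. -/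
lemma exists_H (hfin : ∀ N, ilen (((maximalIdeal R).map (algebraMap R S)) ^ N) ≠ ⊤) :
    ∃ H : ℕ → ℕ, (∀ N, LL (maximalIdeal R ^ N) = ∑ i ∈ Finset.range N, H i) ∧
      ∀ (y : S) (N : ℕ), (H N : ℕ∞) * ilen ((maximalIdeal R).map (algebraMap R S) ⊔ Ideal.span {y})
        ≤ ilen (((maximalIdeal R).map (algebraMap R S)) ^ (N + 1) ⊔ Ideal.span {y}) := by
  have hch : ∀ N : ℕ, ∃ (H : ℕ), ilen (maximalIdeal R ^ (N + 1)) = (H : ℕ∞) + ilen (maximalIdeal R ^ N) ∧
      ∀ y : S, (H : ℕ∞) * ilen ((maximalIdeal R).map (algebraMap R S) ⊔ Ideal.span {y})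
        ≤ ilen (((maximalIdeal R).map (algebraMap R S)) ^ (N + 1) ⊔ Ideal.span {y}) := by
    intro N
    obtain ⟨H, b, hbU, hb, hlen⟩ := exists_indep (U := maximalIdeal R ^ N) (V := maximalIdeal R ^ (N + 1))
      (Ideal.pow_le_pow_right (by omega)) (by rw [pow_succ'])
    refine ⟨H, hlen, fun y => ?_⟩
    have h := top_layer_aux (S := S) (maximalIdeal R) (maximalIdeal R ^ N) (maximalIdeal R ^ (N + 1))
      (by rw [pow_succ]) y hbU hb
      (by simpa using hfin 1)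
      (by rw [Ideal.map_pow]; exact hfin (N + 1))
    rwa [Ideal.map_pow] at h
  choose H hH1 hH2 using hch
  refine ⟨H, fun N => ?_, fun y N => hH2 N y⟩
  induction N with
  | zero => simp [LL, ilen_top]
  | succ N ih =>
    rw [Finset.sum_range_succ, ← ih]
    unfold LL
    rw [hH1 N, ENat.toNat_add (ENat.natCast_ne_top _) (ilen_pow_ne_top N)]
    simp only [ENat.toNat_natCast]
    omega

/-- Cancel the fibre length. -/
lemma cancel_aux {H B : ℕ} {c : ℕ∞} (hc0 : c ≠ 0) (hc : c ≠ ⊤) (h : (H : ℕ∞) * c ≤ (B : ℕ∞) * c) :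
    H ≤ B := by
  obtain ⟨c, rfl⟩ := ENat.ne_top_iff_exists.mp hc
  have hc0' : c ≠ 0 := by
    intro h0
    apply hc0
    simp [h0]
  norm_cast at h
  exact Nat.le_of_mul_le_mul_right h (Nat.pos_of_ne_zero hc0')

section

variable (hal : ((maximalIdeal R).map (algebraMap R S)) ≤ maximalIdeal S)
  (hfin1 : ilen ((maximalIdeal R).map (algebraMap R S)) ≠ ⊤)

include hal in
/-- The general bound: `H N ≤ (N+1)^(top-1) (E (N+1) + C)`. -/
lemma bound_general {H : ℕ → ℕ}
    (hH : ∀ (y : S) (N : ℕ), (H N : ℕ∞) * ilen ((maximalIdeal R).map (algebraMap R S) ⊔ Ideal.span {y})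
        ≤ ilen (((maximalIdeal R).map (algebraMap R S)) ^ (N + 1) ⊔ Ideal.span {y}))
    (hfin1 : ilen ((maximalIdeal R).map (algebraMap R S)) ≠ ⊤)
    (D : SeqData S) (k E C : ℕ)
    (hE : ∀ μ : ℕ, ilen (D.Y (k + 1) ⊔ Ideal.span {(D.y (k + 1)) ^ μ}) ≤ ((E * μ + C : ℕ) : ℕ∞)) (N : ℕ) :
    H N ≤ (N + 1) ^ k * (E * (N + 1) + C) := by
  set a := (maximalIdeal R).map (algebraMap R S) with ha
  set y := D.y 0 with hy
  have hY1 : D.Y 1 = Ideal.span {y} := by
    rw [D.Y_succ, D.Y_zero, bot_sup_eq]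
  let Q := a ⊔ Ideal.span {y}
  have hQfin : ilen Q ≠ ⊤ := ilen_ne_top_of_le le_sup_left hfin1
  have hQ0 : ilen Q ≠ 0 := by
    intro h
    have hQt := ilen_eq_zero_iff.mp h
    have : Q ≤ maximalIdeal S := sup_le hal ((Ideal.span_singleton_le_iff_mem _).mpr (D.y_mem 0))
    rw [hQt] at this
    exact (maximalIdeal.isMaximal S).ne_top (top_le_iff.mp this)
  have h1 := box_bound D (k + 1) E C hE k 1 (by omega) Q (by rw [hY1]; exact le_sup_right) hQfin
    (N + 1) (by omega)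
  have h2 : ilen (a ^ (N + 1) ⊔ Ideal.span {y}) ≤ ilen (Q ^ (N + 1) ⊔ D.Y 1) := by
    apply ilen_anti
    rw [hY1]
    exact sup_le (sup_pow_le _ _ _) le_sup_right
  exact cancel_aux hQ0 hQfin (le_trans (hH y N) (le_trans h2 h1))

lemma Y_mono (D : SeqData S) {i j : ℕ} (h : i ≤ j) : D.Y i ≤ D.Y j := by
  induction j, h using Nat.le_induction with
  | base => exact le_rfl
  | succ j _ ih =>
    rw [D.Y_succ]
    exact le_trans ih le_sup_left

include hal in
/-- The chain with all `ν = 1`. -/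
lemma chain_bound (D : SeqData S) (top E C : ℕ)
    (hgen : (maximalIdeal R).map (algebraMap R S) ⊔ D.Y 2 = maximalIdeal S)
    (hE : ∀ μ : ℕ, ilen (D.Y top ⊔ Ideal.span {(D.y top) ^ μ}) ≤ ((E * μ + C : ℕ) : ℕ∞)) :
    ∀ k i : ℕ, 2 ≤ i → i + k = top → ∀ N : ℕ,
      ilen (((maximalIdeal R).map (algebraMap R S)) ^ N ⊔ D.Y i) ≤ (PP E C k N : ℕ∞) := by
  set a := (maximalIdeal R).map (algebraMap R S) with ha
  have hmem : ∀ i, 2 ≤ i → D.y i ∈ a ⊔ D.Y i := by
    intro i hi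
    have h1 : D.y i ∈ a ⊔ D.Y 2 := by rw [hgen]; exact D.y_mem i
    exact (sup_le_sup_left (Y_mono D hi) a) h1
  intro k
  induction k with
  | zero =>
    intro i hi htop N
    simp only [add_zero] at htop
    subst htop
    have h1 : (D.y i) ^ N ∈ a ^ N ⊔ D.Y i := sup_pow_le _ _ _ (Ideal.pow_mem_pow (hmem i hi) N)
    have h2 : ilen (a ^ N ⊔ D.Y i) ≤ ilen (D.Y i ⊔ Ideal.span {(D.y i) ^ N}) := by
      apply ilen_anti
      exact sup_le le_sup_right ((Ideal.span_singleton_le_iff_mem _).mpr h1)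
    exact le_trans h2 (hE N)
  | succ k ih =>
    intro i hi htop N
    have h1 := nil_rec a (D.Y i) (D.y i) 1 (by simpa using hmem i hi) N
    refine le_trans h1 ?_
    rw [Nat.cast_one, one_mul]
    change _ ≤ ((∑ M ∈ Finset.range N, PP E C k (M + 1) : ℕ) : ℕ∞)
    push_cast
    refine Finset.sum_le_sum fun M _ => ?_
    rw [sup_assoc, ← D.Y_succ]
    exact ih (i + 1) (by omega) (by omega) (M + 1)

include hal hfin1 in
/-- The bound when the closed fibre has embedding dimension at most two. -/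
lemma bound_two {H : ℕ → ℕ}
    (hH : ∀ (y : S) (N : ℕ), (H N : ℕ∞) * ilen ((maximalIdeal R).map (algebraMap R S) ⊔ Ideal.span {y})
        ≤ ilen (((maximalIdeal R).map (algebraMap R S)) ^ (N + 1) ⊔ Ideal.span {y}))
    (D : SeqData S) (k E C : ℕ)
    (hgen : (maximalIdeal R).map (algebraMap R S) ⊔ D.Y 2 = maximalIdeal S)
    (hE : ∀ μ : ℕ, ilen (D.Y (k + 1) ⊔ Ideal.span {(D.y (k + 1)) ^ μ}) ≤ ((E * μ + C : ℕ) : ℕ∞)) (N : ℕ) :
    H N ≤ PP E C k (N + 1) := by
  set a := (maximalIdeal R).map (algebraMap R S) with ha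
  set y := D.y 0 with hy
  have hY1 : D.Y 1 = Ideal.span {y} := by
    rw [D.Y_succ, D.Y_zero, bot_sup_eq]
  let Q := a ⊔ Ideal.span {y}
  have hQfin : ilen Q ≠ ⊤ := ilen_ne_top_of_le le_sup_left hfin1
  have hQ0 : ilen Q ≠ 0 := by
    intro h
    have hQt := ilen_eq_zero_iff.mp h
    have : Q ≤ maximalIdeal S := sup_le hal ((Ideal.span_singleton_le_iff_mem _).mpr (D.y_mem 0))
    rw [hQt] at this
    exact (maximalIdeal.isMaximal S).ne_top (top_le_iff.mp this)
  obtain ⟨c, hc⟩ := ENat.ne_top_iff_exists.mp hQfin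
  have hc0 : 1 ≤ c := by
    rw [Nat.one_le_iff_ne_zero]
    rintro rfl
    apply hQ0
    rw [← hc]
    simp
  have hy1 : (D.y 1) ^ c ∈ a ⊔ D.Y 1 := by
    rw [hY1]
    exact pow_ilen_mem (D.y_mem 1) hc.symm
  have hmain : ilen (a ^ (N + 1) ⊔ D.Y 1) ≤ (c : ℕ∞) * (PP E C k (N + 1) : ℕ∞) := by
    rcases k with _ | k
    · -- the case `top = 1`
      have h1 : (D.y 1) ^ (c * (N + 1)) ∈ a ^ (N + 1) ⊔ D.Y 1 := by
        rw [pow_mul]
        exact sup_pow_le _ _ _ (Ideal.pow_mem_pow hy1 (N + 1))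
      have h2 : ilen (a ^ (N + 1) ⊔ D.Y 1) ≤ ilen (D.Y 1 ⊔ Ideal.span {(D.y 1) ^ (c * (N + 1))}) := by
        apply ilen_anti
        exact sup_le le_sup_right ((Ideal.span_singleton_le_iff_mem _).mpr h1)
      refine le_trans h2 (le_trans (hE _) ?_)
      have h3 : E * (c * (N + 1)) + C ≤ c * PP E C 0 (N + 1) := by
        simp only [PP]
        have : C ≤ c * C := Nat.le_mul_of_pos_left _ hc0
        calc E * (c * (N + 1)) + C ≤ E * (c * (N + 1)) + c * C := by omega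
          _ = c * (E * (N + 1) + C) := by ring
      exact_mod_cast h3
    · have h1 := nil_rec a (D.Y 1) (D.y 1) c hy1 (N + 1)
      refine le_trans h1 ?_
      gcongr
      change _ ≤ ((∑ M ∈ Finset.range (N + 1), PP E C k (M + 1) : ℕ) : ℕ∞)
      push_cast
      refine Finset.sum_le_sum fun M _ => ?_
      rw [sup_assoc, ← D.Y_succ]
      exact chain_bound hal D (k + 1 + 1) E C hgen hE k 2 le_rfl (by omega) (M + 1)
  have h3 := hH y N
  rw [hY1] at hmain
  have h4 : (H N : ℕ∞) * (c : ℕ∞) ≤ (PP E C k (N + 1) : ℕ∞) * (c : ℕ∞) := by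
    calc (H N : ℕ∞) * (c : ℕ∞) = (H N : ℕ∞) * ilen Q := by rw [hc]
      _ ≤ ilen (a ^ (N + 1) ⊔ Ideal.span {y}) := h3
      _ ≤ (c : ℕ∞) * (PP E C k (N + 1) : ℕ∞) := hmain
      _ = _ := by ring
  exact cancel_aux (by simpa using (by omega : c ≠ 0)) (ENat.natCast_ne_top _) h4

end

end Vale.Agent.Lib.P202
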