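import Vale.Agent.Lib.P202.Main

namespace Vale.Agent.Lib.P202

open Polynomial IsLocalRing Module Filter Topology

section Abstract

variable {S S' : Type*} [CommRing S] [CommRing S'] [IsLocalRing S] [IsLocalRing S']
  [Algebra S S']

omit [IsLocalRing S'] [Algebra S S'] [CommRing S'] in
lemma ilen_max : ilen (maximalIdeal S) = 1 := by
  unfold ilen
  rw [Module.length_eq_one_iff, isSimpleModule_iff_isCoatom]
  exact Ideal.isMaximal_def.mp (maximalIdeal.isMaximal S)

omit [IsLocalRing S'] [Algebra S S'] [CommRing S'] in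
lemma exists_socle [IsNoetherianRing S] {I : Ideal S} (hI : ilen I ≠ ⊤) (hne : I ≠ ⊤) :
    ∃ u, u ∉ I ∧ ∀ x ∈ maximalIdeal S, x * u ∈ I := by
  obtain ⟨c, hc⟩ := ENat.ne_top_iff_exists.mp hI
  have h1 : maximalIdeal S ≤ I.radical := by
    intro x hx
    exact ⟨c, pow_ilen_mem hx hc.symm⟩
  obtain ⟨k, hk⟩ := Ideal.exists_pow_le_of_le_radical_of_fg h1 (IsNoetherian.noetherian _)
  induction k with
  | zero =>
    exfalso
    apply hne
    rw [pow_zero] at hk
    exact top_le_iff.mp (by simpa using hk)
  | succ k ih =>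
    by_cases h : maximalIdeal S ^ k ≤ I
    · exact ih h
    · obtain ⟨u, hu, huI⟩ := SetLike.not_le_iff_exists.mp h
      refine ⟨u, huI, fun x hx => hk ?_⟩
      rw [pow_succ']
      exact Ideal.mul_mem_mul hx hu

lemma ilen_map_le [IsNoetherianRing S]
    (hn : (maximalIdeal S).map (algebraMap S S') = maximalIdeal S') (c : ℕ) :
    ∀ I : Ideal S, ilen I = c → ilen (I.map (algebraMap S S')) ≤ c := by
  induction c with
  | zero =>
    intro I hI
    have : I = ⊤ := ilen_eq_zero_iff.mp (by simpa using hI)
    subst this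
    rw [Ideal.map_top, ilen_top]
    simp
  | succ c ih =>
    intro I hI
    have hne : I ≠ ⊤ := by
      rintro rfl
      rw [ilen_top] at hI
      have : ((c + 1 : ℕ) : ℕ∞) = 0 := hI.symm
      norm_cast at this
    have hfin : ilen I ≠ ⊤ := by
      rw [hI]; exact ENat.natCast_ne_top _
    obtain ⟨u, hu, hmul⟩ := exists_socle hfin hne
    have hcln : cln I u = maximalIdeal S := by
      refine le_antisymm (IsLocalRing.le_maximalIdeal ?_) ?_
      · intro h
        apply hu
        have : (1 : S) ∈ cln I u := by rw [h]; trivial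
        simpa using this
      · intro x hx
        rw [mem_cln, mul_comm]
        exact hmul x hx
    have h1 := ilen_eq_add_cln I u
    rw [hcln, ilen_max, hI] at h1
    have h2 : ilen (I ⊔ Ideal.span {u}) = (c : ℕ∞) := by
      have h3 : ilen (I ⊔ Ideal.span {u}) ≠ ⊤ := ilen_ne_top_of_le le_sup_left hfin
      obtain ⟨c', hc'⟩ := ENat.ne_top_iff_exists.mp h3
      rw [← hc'] at h1 ⊢
      norm_cast at h1 ⊢
      omega
    have h3 := ih _ h2
    rw [Ideal.map_sup, Ideal.map_span, Set.image_singleton] at h3
    have h4 := ilen_eq_add_cln (I.map (algebraMap S S')) (algebraMap S S' u)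
    have h5 : ilen (cln (I.map (algebraMap S S')) (algebraMap S S' u)) ≤ 1 := by
      rw [← ilen_max (S := S')]
      apply ilen_anti
      rw [← hn, Ideal.map_le_iff_le_comap]
      intro x hx
      rw [Ideal.mem_comap, mem_cln, ← map_mul, mul_comm]
      exact Ideal.mem_map_of_mem _ (hmul x hx)
    rw [h4]
    push_cast
    exact add_le_add h3 h5

end Abstract

section Transfer

variable {R S S' : Type*} [CommRing R] [CommRing S] [CommRing S']
  [IsLocalRing R] [IsLocalRing S] [IsLocalRing S'] [IsNoetherianRing R] [IsNoetherianRing S]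
  [IsNoetherianRing S'] [Algebra R S] [Algebra S S'] [Algebra R S'] [IsScalarTower R S S']
  [Module.Flat R S'] [IsLocalHom (algebraMap R S')]

/-- Transfer of the main theorem along a local extension with infinite residue field. -/
theorem main_transfer [Infinite (ResidueField S')]
    (hn : (maximalIdeal S).map (algebraMap S S') = maximalIdeal S')
    (hfin1 : ilen ((maximalIdeal R).map (algebraMap R S)) ≠ ⊤)
    (d : ℕ) (hd : 2 ≤ d) {eR eS : ℝ}
    (hR : Tendsto (fun N : ℕ => ((d.factorial : ℝ) * (LL (maximalIdeal R ^ N) : ℝ)) / (N : ℝ) ^ d)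
      atTop (𝓝 eR))
    (hS : Tendsto (fun N : ℕ => ((d.factorial : ℝ) * (LL (maximalIdeal S ^ N) : ℝ)) / (N : ℝ) ^ d)
      atTop (𝓝 eS)) :
    eR ≤ ((d - 1).factorial : ℝ) * eS ∧
      ((∃ p q : S, maximalIdeal S = (maximalIdeal R).map (algebraMap R S) ⊔ Ideal.span {p, q}) →
        eR ≤ eS) := by
  have hmapa : (maximalIdeal R).map (algebraMap R S')
      = ((maximalIdeal R).map (algebraMap R S)).map (algebraMap S S') := by
    rw [Ideal.map_map, ← IsScalarTower.algebraMap_eq]
  have hfin1' : ilen ((maximalIdeal R).map (algebraMap R S')) ≠ ⊤ := by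
    rw [hmapa]
    obtain ⟨c, hc⟩ := ENat.ne_top_iff_exists.mp hfin1
    have := ilen_map_le hn c _ hc.symm
    intro h
    rw [h, top_le_iff] at this
    exact ENat.natCast_ne_top _ this
  have hlam : ∀ N, LL (maximalIdeal S' ^ N) ≤ LL (maximalIdeal S ^ N) := by
    intro N
    have h1 : maximalIdeal S' ^ N = (maximalIdeal S ^ N).map (algebraMap S S') := by
      rw [Ideal.map_pow, hn]
    have h2 := ilen_map_le hn (LL (maximalIdeal S ^ N)) _ (coe_LL (ilen_pow_ne_top N)).symm
    rw [← h1, ← coe_LL (ilen_pow_ne_top N)] at h2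
    exact_mod_cast h2
  obtain ⟨h1, h2⟩ := main_inf (R := R) (S := S') hfin1' (fun N => LL (maximalIdeal S ^ N)) hlam d hd
    hR hS
  refine ⟨h1, ?_⟩
  rintro ⟨p, q, hpq⟩
  refine h2 ⟨algebraMap S S' p, algebraMap S S' q, ?_⟩
  rw [hmapa, ← hn]
  conv_lhs => rw [hpq]
  rw [Ideal.map_sup, Ideal.map_span, Set.image_pair]

end Transfer

section Poly

variable (S : Type*) [CommRing S] [IsLocalRing S]

/-- The prime ideal of the polynomial ring generated by the maximal ideal. -/
noncomputable abbrev PC : Ideal S[X] := (maximalIdeal S).map (C : S →+* S[X])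

instance : (PC S).IsPrime := Ideal.isPrime_map_C_of_isPrime

/-- The local ring obtained by adjoining an indeterminate to the residue field. -/
abbrev SX := Localization.AtPrime (PC S)

lemma SX_map : (maximalIdeal S).map (algebraMap S (SX S)) = maximalIdeal (SX S) := by
  calc (maximalIdeal S).map (algebraMap S (SX S))
      = ((maximalIdeal S).map (C : S →+* S[X])).map (algebraMap S[X] (SX S)) := by
        rw [Ideal.map_map, IsScalarTower.algebraMap_eq S S[X] (SX S)]
        rfl
    _ = maximalIdeal (SX S) := Localization.AtPrime.map_eq_maximalIdeal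

instance : Infinite (ResidueField (SX S)) := by
  refine Infinite.of_injective (fun i : ℕ => residue (SX S) (algebraMap S[X] (SX S) (X ^ i))) ?_
  intro i j hij
  by_contra hne
  have h1 : residue (SX S) (algebraMap S[X] (SX S) (X ^ i - X ^ j)) = 0 := by
    rw [map_sub, map_sub, sub_eq_zero]
    exact hij
  rw [residue_eq_zero_iff] at h1
  have h2 := (IsLocalization.AtPrime.to_map_mem_maximal_iff (SX S) (PC S) _).mp h1
  rw [PC, Ideal.mem_map_C_iff] at h2
  have h3 := h2 i
  simp [coeff_X_pow, hne] at h3

end Poly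

section Final

variable {R S : Type*} [CommRing R] [CommRing S] [Algebra R S] [Module.Flat R S]
  [IsLocalRing R] [IsLocalRing S] [IsNoetherianRing R] [IsNoetherianRing S]
  [IsLocalHom (algebraMap R S)]

/-- The main theorem: no condition on the residue field. -/
theorem main_final
    (hfin1 : ilen ((maximalIdeal R).map (algebraMap R S)) ≠ ⊤)
    (d : ℕ) (hd : 2 ≤ d) {eR eS : ℝ}
    (hR : Tendsto (fun N : ℕ => ((d.factorial : ℝ) * (LL (maximalIdeal R ^ N) : ℝ)) / (N : ℝ) ^ d)
      atTop (𝓝 eR))
    (hS : Tendsto (fun N : ℕ => ((d.factorial : ℝ) * (LL (maximalIdeal S ^ N) : ℝ)) / (N : ℝ) ^ d)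
      atTop (𝓝 eS)) :
    eR ≤ ((d - 1).factorial : ℝ) * eS ∧
      ((∃ p q : S, maximalIdeal S = (maximalIdeal R).map (algebraMap R S) ⊔ Ideal.span {p, q}) →
        eR ≤ eS) := by
  have hnoeth : IsNoetherianRing (SX S) :=
    IsLocalization.isNoetherianRing (PC S).primeCompl _ inferInstance
  have hflat1 : Module.Flat R S[X] := Module.Flat.trans R S S[X]
  have hflat : Module.Flat R (SX S) := Module.Flat.trans R S[X] (SX S)
  have hloc : IsLocalHom (algebraMap R (SX S)) := by
    constructor
    intro x hx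
    have h1 : IsUnit (algebraMap R S x) := by
      by_contra h
      have h2 : algebraMap R S x ∈ maximalIdeal S := (mem_maximalIdeal _).mpr h
      have h3 : algebraMap S (SX S) (algebraMap R S x) ∈ maximalIdeal (SX S) := by
        rw [← SX_map S]
        exact Ideal.mem_map_of_mem _ h2
      rw [← IsScalarTower.algebraMap_apply R S (SX S) x] at h3
      exact ((mem_maximalIdeal _).mp h3) hx
    exact isUnit_of_map_unit (algebraMap R S) x h1
  exact main_transfer (R := R) (S := S) (S' := SX S) (SX_map S) hfin1 d hd hR hS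

end Final

end Vale.Agent.Lib.P202
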