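import Vale.Agent.Lib.P202.Ext

namespace Vale.Agent.Lib.P202

open Polynomial IsLocalRing Module Filter Topology

section Chain

variable {S : Type*} [CommRing S] [IsLocalRing S]

/-- The iterated nilpotent recursion with one uniform nilpotency exponent `t`. -/
lemma chain_bound_pow (a : Ideal S) (D : SeqData S) (top E C t : ℕ)
    (ht : maximalIdeal S ^ t ≤ a)
    (hE : ∀ μ : ℕ, ilen (D.Y top ⊔ Ideal.span {(D.y top) ^ μ}) ≤ ((E * μ + C : ℕ) : ℕ∞)) :
    ∀ k i : ℕ, i + k = top → ∀ N : ℕ,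
      ilen (a ^ N ⊔ D.Y i) ≤ ((t ^ k * PP (E * t) C k N : ℕ) : ℕ∞) := by
  have hmem : ∀ i, (D.y i) ^ t ∈ a := fun i => ht (Ideal.pow_mem_pow (D.y_mem i) t)
  intro k
  induction k with
  | zero =>
    intro i hi N
    simp only [add_zero] at hi
    subst hi
    have h1 : (D.y i) ^ (t * N) ∈ a ^ N ⊔ D.Y i := by
      rw [pow_mul]
      exact Ideal.mem_sup_left (Ideal.pow_mem_pow (hmem i) N)
    have h2 : ilen (a ^ N ⊔ D.Y i) ≤ ilen (D.Y i ⊔ Ideal.span {(D.y i) ^ (t * N)}) := by
      apply ilen_anti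
      exact sup_le le_sup_right ((Ideal.span_singleton_le_iff_mem _).mpr h1)
    refine le_trans h2 (le_trans (hE _) ?_)
    have h3 : E * (t * N) + C = t ^ 0 * PP (E * t) C 0 N := by
      simp only [PP]
      ring
    rw [h3]
  | succ k ih =>
    intro i hi N
    have h1 := nil_rec a (D.Y i) (D.y i) t (Ideal.mem_sup_left (hmem i)) N
    refine le_trans h1 ?_
    have h2 : ∑ M ∈ Finset.range N, ilen (a ^ (M + 1) ⊔ D.Y i ⊔ Ideal.span {D.y i})
        ≤ ∑ M ∈ Finset.range N, ((t ^ k * PP (E * t) C k (M + 1) : ℕ) : ℕ∞) := by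
      refine Finset.sum_le_sum fun M _ => ?_
      rw [sup_assoc, ← D.Y_succ]
      exact ih (i + 1) (by omega) (M + 1)
    have h3 : PP (E * t) C (k + 1) N = ∑ M ∈ Finset.range N, PP (E * t) C k (M + 1) := rfl
    calc (t : ℕ∞) * ∑ M ∈ Finset.range N, ilen (a ^ (M + 1) ⊔ D.Y i ⊔ Ideal.span {D.y i})
        ≤ (t : ℕ∞) * ∑ M ∈ Finset.range N, ((t ^ k * PP (E * t) C k (M + 1) : ℕ) : ℕ∞) := by
          gcongr
      _ = ((t ^ (k + 1) * PP (E * t) C (k + 1) N : ℕ) : ℕ∞) := by
          rw [h3, Finset.mul_sum]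
          push_cast
          rw [Finset.mul_sum]
          refine Finset.sum_congr rfl fun M _ => ?_
          ring

end Chain

section Infinite

variable {R S : Type*} [CommRing R] [CommRing S] [Algebra R S] [Module.Flat R S]
  [IsLocalRing R] [IsLocalRing S] [IsNoetherianRing R] [IsNoetherianRing S]
  [IsLocalHom (algebraMap R S)]

/-- The fibre bound for an infinite residue field. -/
theorem fat_inf [Infinite (ResidueField S)]
    (hfin1 : ilen ((maximalIdeal R).map (algebraMap R S)) ≠ ⊤)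
    (lam : ℕ → ℕ) (hlam : ∀ N, LL (maximalIdeal S ^ N) ≤ lam N) (d : ℕ) (hd : 2 ≤ d) {eR eS : ℝ}
    (hR : Tendsto (fun N : ℕ => ((d.factorial : ℝ) * (LL (maximalIdeal R ^ N) : ℝ)) / (N : ℝ) ^ d)
      atTop (𝓝 eR))
    (hS : Tendsto (fun N : ℕ => ((d.factorial : ℝ) * (lam N : ℝ)) / (N : ℝ) ^ d) atTop (𝓝 eS))
    (t : ℕ) (ht : maximalIdeal S ^ t ≤ (maximalIdeal R).map (algebraMap R S)) :
    (LL ((maximalIdeal R).map (algebraMap R S)) : ℝ) * eR ≤ (t : ℝ) ^ d * eS := by
  set a := (maximalIdeal R).map (algebraMap R S) with ha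
  have hal : a ≤ maximalIdeal S := map_max_le
  obtain ⟨H, hH1, hH2⟩ := exists_H (R := R) (S := S) (ilen_pow_fin hfin1)
  obtain ⟨D, hle, hav, _, hinj⟩ := exists_seq a hal
  obtain ⟨u, htfin, hout⟩ := superficial_outcome D hle hav hinj
  have heS : 0 ≤ eS := ge_of_tendsto' hS fun N => by positivity
  have heR : 0 ≤ eR := ge_of_tendsto' hR fun N => by positivity
  have hLsum : ∀ M, LL (maximalIdeal R ^ M) = ∑ N ∈ Finset.range M, H N := hH1
  have ht1 : 1 ≤ t := by
    rw [Nat.one_le_iff_ne_zero]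
    rintro rfl
    rw [pow_zero, Ideal.one_eq_top, top_le_iff] at ht
    rw [ht] at hal
    exact (maximalIdeal.isMaximal S).ne_top (top_le_iff.mp hal)
  have htR : (1 : ℝ) ≤ (t : ℝ) := by exact_mod_cast ht1
  set y := D.y 0 with hy
  have hY1 : D.Y 1 = Ideal.span {y} := by
    rw [D.Y_succ, D.Y_zero, bot_sup_eq]
  have hQfin : ilen (a ⊔ Ideal.span {y}) ≠ ⊤ := ilen_ne_top_of_le le_sup_left hfin1
  have hQ0 : ilen (a ⊔ Ideal.span {y}) ≠ 0 := by
    intro h
    have hQt := ilen_eq_zero_iff.mp h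
    have : a ⊔ Ideal.span {y} ≤ maximalIdeal S :=
      sup_le hal ((Ideal.span_singleton_le_iff_mem _).mpr (D.y_mem 0))
    rw [hQt] at this
    exact (maximalIdeal.isMaximal S).ne_top (top_le_iff.mp this)
  set c1 := LL (a ⊔ Ideal.span {y}) with hc1def
  have hc1 : ((c1 : ℕ) : ℕ∞) = ilen (a ⊔ Ideal.span {y}) := coe_LL hQfin
  have hc1pos : c1 ≠ 0 := by
    intro h0
    apply hQ0
    rw [← hc1, h0]
    simp
  -- the length of the fibre against the length of its quotient by `y`
  have hlamQ : LL a ≤ t * c1 := by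
    have h1 := ilen_le_nsmul_add a y t
    have h2 : y ^ t ∈ a := ht (Ideal.pow_mem_pow (D.y_mem 0) t)
    rw [cln_eq_top_of_mem h2, ilen_top, add_zero, nsmul_eq_mul, ← hc1, ← coe_LL hfin1] at h1
    exact_mod_cast h1
  have hlamR : (LL a : ℝ) ≤ (t : ℝ) * (c1 : ℝ) := by exact_mod_cast hlamQ
  rcases Nat.lt_or_ge u 2 with hu | hu
  · -- very small growth: the multiplicity of `R` vanishes
    have hfinY : ilen (D.Y 1) ≠ ⊤ :=
      ilen_ne_top_of_le (Y_mono D (by omega : u ≤ 1)) htfin
    have hb : ∀ N, H N ≤ LL (D.Y 1) := by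
      intro N
      have h1 := hH2 y N
      have h2 : ilen (a ^ (N + 1) ⊔ Ideal.span {y}) ≤ ilen (D.Y 1) := by
        rw [hY1]; exact ilen_anti le_sup_right
      have h3 : (H N : ℕ∞) * ilen (a ⊔ Ideal.span {y})
          ≤ (LL (D.Y 1) : ℕ∞) * ilen (a ⊔ Ideal.span {y}) := by
        rw [coe_LL hfinY]
        refine le_trans (le_trans h1 h2) ?_
        exact le_mul_of_one_le_right zero_le (Order.one_le_iff_ne_zero.mpr hQ0)
      exact cancel_aux hQ0 hQfin h3
    have hR0 : eR ≤ 0 := by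
      refine numeric_low _ d 1 (LL (D.Y 1)) hd hR ?_
      intro M hM
      rw [hLsum]
      calc ∑ N ∈ Finset.range M, H N ≤ ∑ _N ∈ Finset.range M, LL (D.Y 1) :=
            Finset.sum_le_sum fun N _ => hb N
        _ = LL (D.Y 1) * M := by simp [mul_comm]
        _ ≤ LL (D.Y 1) * (M + 1) ^ (d - 1) := by
            refine Nat.mul_le_mul_left _ ?_
            calc M ≤ (M + 1) ^ 1 := by simp
              _ ≤ (M + 1) ^ (d - 1) := Nat.pow_le_pow_right (by omega) (by omega)
    have h0 : eR = 0 := le_antisymm hR0 heR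
    rw [h0, mul_zero]
    positivity
  · obtain ⟨k, rfl⟩ : ∃ k, u = k + 2 := ⟨u - 2, by omega⟩
    obtain ⟨E, C, c, hE1, hup, hlow0⟩ := hout (k + 1) rfl
    have hlow : ∀ s, E * s ^ (k + 2) ≤ (k + 2).factorial * lam (c + s) := by
      intro s
      exact le_trans (hlow0 s) (Nat.mul_le_mul_left _ (hlam _))
    have hb : ∀ N, H N * c1 ≤ t ^ k * PP (E * t) C k (N + 1) := by
      intro N
      have h1 := hH2 y N
      have h2 := chain_bound_pow a D (k + 1) E C t ht hup k 1 (by omega) (N + 1)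
      rw [hY1] at h2
      have h3 := le_trans h1 h2
      rw [← hc1] at h3
      exact_mod_cast h3
    have hR' : Tendsto (fun N : ℕ => ((d.factorial : ℝ)
        * ((c1 * LL (maximalIdeal R ^ N) : ℕ) : ℝ)) / (N : ℝ) ^ d) atTop (𝓝 ((c1 : ℝ) * eR)) := by
      refine (hR.const_mul (c1 : ℝ)).congr fun N => ?_
      push_cast
      ring
    have hup' : ∀ M, (k + 2).factorial * (c1 * LL (maximalIdeal R ^ M))
        ≤ t ^ (k + 1) * E * (M + (k + 1)) ^ (k + 2)
          + (t ^ k * ((k + 2) * C)) * (M + (k + 1)) ^ (k + 2 - 1) := by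
      intro M
      rw [hLsum]
      have h1 : c1 * ∑ N ∈ Finset.range M, H N ≤ t ^ k * PP (E * t) C (k + 1) M := by
        have h2 : PP (E * t) C (k + 1) M = ∑ N ∈ Finset.range M, PP (E * t) C k (N + 1) := rfl
        rw [h2, Finset.mul_sum, Finset.mul_sum]
        refine Finset.sum_le_sum fun N _ => ?_
        rw [mul_comm]
        exact hb N
      have h3 := PP_bound (E * t) C (k + 1) M
      have h4 : k + 2 - 1 = k + 1 := by omega
      rw [h4]
      calc (k + 2).factorial * (c1 * ∑ N ∈ Finset.range M, H N)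
          ≤ (k + 2).factorial * (t ^ k * PP (E * t) C (k + 1) M) := Nat.mul_le_mul_left _ h1
        _ = t ^ k * ((k + 1 + 1).factorial * PP (E * t) C (k + 1) M) := by ring
        _ ≤ t ^ k * (E * t * (M + (k + 1)) ^ (k + 1 + 1)
              + (k + 1 + 1) * (C * (M + (k + 1)) ^ (k + 1))) := Nat.mul_le_mul_left _ h3
        _ = _ := by ring
    obtain ⟨hkd, h2⟩ := numeric_core (fun N => c1 * LL (maximalIdeal R ^ N)) lam d (k + 2) E c
      (k + 1) (t ^ (k + 1)) (t ^ k * ((k + 2) * C)) hd hR' hS hE1 (by omega) hlow hup'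
    have h3 : (c1 : ℝ) * eR ≤ ((t ^ (k + 1) : ℕ) : ℝ) * eS := h2
    push_cast at h3
    have h4 : (t : ℝ) ^ (k + 2) ≤ (t : ℝ) ^ d := pow_le_pow_right₀ htR hkd
    have htnn : (0 : ℝ) ≤ (t : ℝ) := by positivity
    calc (LL a : ℝ) * eR ≤ ((t : ℝ) * (c1 : ℝ)) * eR := mul_le_mul_of_nonneg_right hlamR heR
      _ = (t : ℝ) * ((c1 : ℝ) * eR) := by ring
      _ ≤ (t : ℝ) * ((t : ℝ) ^ (k + 1) * eS) := mul_le_mul_of_nonneg_left h3 htnn
      _ = (t : ℝ) ^ (k + 2) * eS := by ring
      _ ≤ (t : ℝ) ^ d * eS := mul_le_mul_of_nonneg_right h4 heS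

end Infinite

section Transfer

variable {S S' : Type*} [CommRing S] [CommRing S'] [IsLocalRing S] [Algebra S S']

/-- Lengths do not drop along an extension in which ideals contract back to themselves. -/
lemma ilen_map_ge [IsNoetherianRing S]
    (hcomap : ∀ I : Ideal S, (I.map (algebraMap S S')).comap (algebraMap S S') = I) (c : ℕ) :
    ∀ I : Ideal S, ilen I = c → (c : ℕ∞) ≤ ilen (I.map (algebraMap S S')) := by
  induction c with
  | zero =>
    intro I _
    simp
  | succ c ih =>
    intro I hI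
    have hne : I ≠ ⊤ := by
      rintro rfl
      rw [ilen_top] at hI
      have : ((c + 1 : ℕ) : ℕ∞) = 0 := hI.symm
      norm_cast at this
    have hfin : ilen I ≠ ⊤ := by
      rw [hI]; exact ENat.natCast_ne_top _
    obtain ⟨u, hu, hmul⟩ := exists_socle hfin hne
    have hcln : cln I u = maximalIdeal S := by
      refine le_antisymm (IsLocalRing.le_maximalIdeal ?_) ?_
      · intro h
        apply hu
        have : (1 : S) ∈ cln I u := by rw [h]; trivial
        simpa using this
      · intro x hx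
        rw [mem_cln, mul_comm]
        exact hmul x hx
    have h1 := ilen_eq_add_cln I u
    rw [hcln, ilen_max, hI] at h1
    have h2 : ilen (I ⊔ Ideal.span {u}) = (c : ℕ∞) := by
      have h3 : ilen (I ⊔ Ideal.span {u}) ≠ ⊤ := ilen_ne_top_of_le le_sup_left hfin
      obtain ⟨c', hc'⟩ := ENat.ne_top_iff_exists.mp h3
      rw [← hc'] at h1 ⊢
      norm_cast at h1 ⊢
      omega
    have h3 := ih _ h2
    rw [Ideal.map_sup, Ideal.map_span, Set.image_singleton] at h3
    have h4 := ilen_eq_add_cln (I.map (algebraMap S S')) (algebraMap S S' u)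
    have h5 : 1 ≤ ilen (cln (I.map (algebraMap S S')) (algebraMap S S' u)) := by
      rw [Order.one_le_iff_ne_zero]
      intro h0
      have h6 := ilen_eq_zero_iff.mp h0
      have h7 : (1 : S') ∈ cln (I.map (algebraMap S S')) (algebraMap S S' u) := by
        rw [h6]; trivial
      rw [mem_cln, mul_one] at h7
      apply hu
      rw [← hcomap I, Ideal.mem_comap]
      exact h7
    rw [h4]
    push_cast
    exact add_le_add h3 h5

end Transfer

section Final

variable {R S : Type*} [CommRing R] [CommRing S] [Algebra R S] [Module.Flat R S]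
  [IsLocalRing R] [IsLocalRing S] [IsNoetherianRing R] [IsNoetherianRing S]
  [IsLocalHom (algebraMap R S)]

/-- The fibre bound: no condition on the residue field. -/
theorem fat_final
    (hfin1 : ilen ((maximalIdeal R).map (algebraMap R S)) ≠ ⊤)
    (d : ℕ) (hd : 2 ≤ d) {eR eS : ℝ}
    (hR : Tendsto (fun N : ℕ => ((d.factorial : ℝ) * (LL (maximalIdeal R ^ N) : ℝ)) / (N : ℝ) ^ d)
      atTop (𝓝 eR))
    (hS : Tendsto (fun N : ℕ => ((d.factorial : ℝ) * (LL (maximalIdeal S ^ N) : ℝ)) / (N : ℝ) ^ d)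
      atTop (𝓝 eS))
    (t : ℕ) (ht : maximalIdeal S ^ t ≤ (maximalIdeal R).map (algebraMap R S)) :
    (LL ((maximalIdeal R).map (algebraMap R S)) : ℝ) * eR ≤ (t : ℝ) ^ d * eS := by
  have hnoeth : IsNoetherianRing (SX S) :=
    IsLocalization.isNoetherianRing (PC S).primeCompl _ inferInstance
  have hflat1 : Module.Flat R S[X] := Module.Flat.trans R S S[X]
  have hflat : Module.Flat R (SX S) := Module.Flat.trans R S[X] (SX S)
  have hloc : IsLocalHom (algebraMap R (SX S)) := by
    constructor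
    intro x hx
    have h1 : IsUnit (algebraMap R S x) := by
      by_contra h
      have h2 : algebraMap R S x ∈ maximalIdeal S := (mem_maximalIdeal _).mpr h
      have h3 : algebraMap S (SX S) (algebraMap R S x) ∈ maximalIdeal (SX S) := by
        rw [← SX_map S]
        exact Ideal.mem_map_of_mem _ h2
      rw [← IsScalarTower.algebraMap_apply R S (SX S) x] at h3
      exact ((mem_maximalIdeal _).mp h3) hx
    exact isUnit_of_map_unit (algebraMap R S) x h1
  have hflatS : Module.Flat S (SX S) := Module.Flat.trans S S[X] (SX S)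
  have hlocS : IsLocalHom (algebraMap S (SX S)) := by
    constructor
    intro x hx
    by_contra h
    have h2 : x ∈ maximalIdeal S := (mem_maximalIdeal _).mpr h
    have h3 : algebraMap S (SX S) x ∈ maximalIdeal (SX S) := by
      rw [← SX_map S]
      exact Ideal.mem_map_of_mem _ h2
    exact ((mem_maximalIdeal _).mp h3) hx
  have hff : Module.FaithfullyFlat S (SX S) := Module.FaithfullyFlat.of_flat_of_isLocalHom
  have hcomap : ∀ I : Ideal S, (I.map (algebraMap S (SX S))).comap (algebraMap S (SX S)) = I :=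
    fun I => Ideal.comap_map_eq_self_of_faithfullyFlat I
  have hmapa : (maximalIdeal R).map (algebraMap R (SX S))
      = ((maximalIdeal R).map (algebraMap R S)).map (algebraMap S (SX S)) := by
    rw [Ideal.map_map, ← IsScalarTower.algebraMap_eq]
  have hfin1' : ilen ((maximalIdeal R).map (algebraMap R (SX S))) ≠ ⊤ := by
    rw [hmapa]
    obtain ⟨c, hc⟩ := ENat.ne_top_iff_exists.mp hfin1
    have := ilen_map_le (SX_map S) c _ hc.symm
    intro h
    rw [h, top_le_iff] at this
    exact ENat.natCast_ne_top _ this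
  have hlam : ∀ N, LL (maximalIdeal (SX S) ^ N) ≤ LL (maximalIdeal S ^ N) := by
    intro N
    have h1 : maximalIdeal (SX S) ^ N = (maximalIdeal S ^ N).map (algebraMap S (SX S)) := by
      rw [Ideal.map_pow, SX_map S]
    have h2 := ilen_map_le (SX_map S) (LL (maximalIdeal S ^ N)) _ (coe_LL (ilen_pow_ne_top N)).symm
    rw [← h1, ← coe_LL (ilen_pow_ne_top N)] at h2
    exact_mod_cast h2
  have ht' : maximalIdeal (SX S) ^ t ≤ (maximalIdeal R).map (algebraMap R (SX S)) := by
    rw [hmapa, ← SX_map S, ← Ideal.map_pow]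
    exact Ideal.map_mono ht
  have h1 := fat_inf (R := R) (S := SX S) hfin1' (fun N => LL (maximalIdeal S ^ N)) hlam d hd
    hR hS t ht'
  have heR : 0 ≤ eR := ge_of_tendsto' hR fun N => by positivity
  have hLL : LL ((maximalIdeal R).map (algebraMap R S))
      ≤ LL ((maximalIdeal R).map (algebraMap R (SX S))) := by
    rw [hmapa] at hfin1' ⊢
    have h2 := ilen_map_ge hcomap (LL ((maximalIdeal R).map (algebraMap R S))) _
      (coe_LL hfin1).symm
    rw [← coe_LL hfin1'] at h2
    exact_mod_cast h2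
  have hLLR : (LL ((maximalIdeal R).map (algebraMap R S)) : ℝ)
      ≤ (LL ((maximalIdeal R).map (algebraMap R (SX S))) : ℝ) := by
    exact_mod_cast hLL
  exact le_trans (mul_le_mul_of_nonneg_right hLLR heR) h1

end Final

end Vale.Agent.Lib.P202
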