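import Mathlib

namespace Vale.Agent.Lib.P202

open Filter Topology

lemma tendsto_ratio (s : ℕ) : Tendsto (fun M : ℕ => (((M : ℝ) + s) / M)) atTop (𝓝 1) := by
  have h1 : Tendsto (fun M : ℕ => (1 : ℝ) + (s : ℝ) / M) atTop (𝓝 (1 + 0)) :=
    tendsto_const_nhds.add (tendsto_const_div_atTop_nhds_zero_nat (s : ℝ))
  rw [add_zero] at h1
  refine h1.congr' ?_
  filter_upwards [eventually_gt_atTop 0] with M hM
  have : (M : ℝ) ≠ 0 := by positivity
  field_simp

lemma tendsto_inv_nat : Tendsto (fun M : ℕ => (1 : ℝ) / M) atTop (𝓝 0) :=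
  tendsto_const_div_atTop_nhds_zero_nat 1

/-- The main limit bound. -/
lemma limit_upper {x : ℕ → ℝ} {e A B : ℝ} (d : ℕ) (s : ℕ) (hx : Tendsto x atTop (𝓝 e))
    (h : ∀ M : ℕ, 1 ≤ M → x M ≤ A * (((M : ℝ) + s) / M) ^ d
      + B * (((M : ℝ) + s) / M) ^ (d - 1) * (1 / M)) : e ≤ A := by
  have h1 : Tendsto (fun M : ℕ => A * (((M : ℝ) + s) / M) ^ d
      + B * (((M : ℝ) + s) / M) ^ (d - 1) * ((1 : ℝ) / M)) atTop (𝓝 (A * 1 ^ d + B * 1 ^ (d - 1) * 0)) :=
    ((tendsto_ratio s).pow d |>.const_mul A).add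
      (((tendsto_ratio s).pow (d - 1) |>.const_mul B).mul tendsto_inv_nat)
  simp only [one_pow, mul_one, mul_zero, add_zero] at h1
  refine le_of_tendsto_of_tendsto hx h1 ?_
  filter_upwards [eventually_ge_atTop 1] with M hM
  exact h M hM

/-- The lower limit bound. -/
lemma limit_lower {x : ℕ → ℝ} {e A : ℝ} (d c : ℕ) (hx : Tendsto x atTop (𝓝 e))
    (h : ∀ s : ℕ, 1 ≤ c + s → A * (((s : ℝ)) / ((c + s : ℕ) : ℝ)) ^ d ≤ x (c + s)) : A ≤ e := by
  have h1 : Tendsto (fun M : ℕ => (((M : ℝ) + c) / M)) atTop (𝓝 1) := tendsto_ratio c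
  have h2 : Tendsto (fun M : ℕ => (((M : ℝ)) / ((c + M : ℕ) : ℝ))) atTop (𝓝 1) := by
    have h3 : Tendsto (fun M : ℕ => (((M : ℝ) + c) / M)⁻¹) atTop (𝓝 (1 : ℝ)⁻¹) :=
      h1.inv₀ one_ne_zero
    rw [inv_one] at h3
    refine h3.congr' ?_
    filter_upwards with M
    push_cast
    rw [inv_div, add_comm]
  have h4 : Tendsto (fun M : ℕ => A * (((M : ℝ)) / ((c + M : ℕ) : ℝ)) ^ d) atTop (𝓝 (A * 1 ^ d)) :=
    (h2.pow d).const_mul A
  simp only [one_pow, mul_one] at h4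
  have h5 : Tendsto (fun M : ℕ => x (c + M)) atTop (𝓝 e) := by
    refine hx.comp ?_
    exact tendsto_atTop_mono (fun M => by simp only [id]; omega) tendsto_id
  refine le_of_tendsto_of_tendsto h4 h5 ?_
  filter_upwards [eventually_ge_atTop 1] with M hM
  exact h M (by omega)

/-- A sequence dominated by `δ` times a divergent quantity cannot converge: here in the form
`δ ≤ x N / N` eventually, `δ > 0`. -/
lemma limit_contra {x : ℕ → ℝ} {e δ : ℝ} (hx : Tendsto x atTop (𝓝 e)) (hδ : 0 < δ)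
    (h : ∀ᶠ N : ℕ in atTop, δ ≤ x N / N) : False := by
  have h1 : Tendsto (fun N : ℕ => x N / (N : ℝ)) atTop (𝓝 0) :=
    hx.div_atTop tendsto_natCast_atTop_atTop
  have h2 : δ ≤ 0 := ge_of_tendsto h1 h
  linarith


/-- The case of small growth of the sequence `L`. -/
lemma numeric_low (L : ℕ → ℕ) (d s0 B : ℕ) (hd : 2 ≤ d) {eR : ℝ}
    (hR : Tendsto (fun N : ℕ => ((d.factorial : ℝ) * (L N : ℝ)) / (N : ℝ) ^ d) atTop (𝓝 eR))
    (h : ∀ M, 1 ≤ M → L M ≤ B * (M + s0) ^ (d - 1)) : eR ≤ 0 := by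
  have h1 : eR ≤ 0 := by
    refine limit_upper (A := 0) (B := (d.factorial : ℝ) * B) d s0 hR ?_
    intro M hM
    have hM0 : (0 : ℝ) < M := by exact_mod_cast (by omega : 0 < M)
    have h2 : (L M : ℝ) ≤ B * ((M : ℝ) + s0) ^ (d - 1) := by exact_mod_cast h M hM
    have hd0 : (M : ℝ) ^ d = (M : ℝ) ^ (d - 1) * M := by
      rw [← pow_succ]
      congr 1
      omega
    have hfac : (0 : ℝ) ≤ (d.factorial : ℝ) := by positivity
    rw [zero_mul, zero_add, div_pow, div_le_iff₀ (by positivity)]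
    calc (d.factorial : ℝ) * (L M : ℝ) ≤ (d.factorial : ℝ) * (B * ((M : ℝ) + s0) ^ (d - 1)) :=
          mul_le_mul_of_nonneg_left h2 hfac
      _ = _ := by
          rw [hd0]
          field_simp
  exact h1

/-- The final numerical step of the argument. -/
theorem numeric_core (L lam : ℕ → ℕ) (d t E c s0 f B : ℕ) (hd : 2 ≤ d) {eR eS : ℝ}
    (hR : Tendsto (fun N : ℕ => ((d.factorial : ℝ) * (L N : ℝ)) / (N : ℝ) ^ d) atTop (𝓝 eR))
    (hS : Tendsto (fun N : ℕ => ((d.factorial : ℝ) * (lam N : ℝ)) / (N : ℝ) ^ d) atTop (𝓝 eS))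
    (hE : 1 ≤ E) (ht : 1 ≤ t)
    (hlow : ∀ s, E * s ^ t ≤ t.factorial * lam (c + s))
    (hup : ∀ M, t.factorial * L M ≤ f * E * (M + s0) ^ t + B * (M + s0) ^ (t - 1)) :
    t ≤ d ∧ eR ≤ f * eS := by
  have heS : 0 ≤ eS := ge_of_tendsto' hS fun N => by positivity
  have htd : t ≤ d := by
    by_contra hlt
    have hlt' : d + 1 ≤ t := by omega
    -- the limit for `lam` cannot exist
    have hδ : (0 : ℝ) < (d.factorial : ℝ) * E / ((t.factorial : ℝ) * 2 ^ (d + 1)) := by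
      have : (0 : ℝ) < E := by exact_mod_cast (by omega : 0 < E)
      positivity
    refine limit_contra hS hδ ?_
    filter_upwards [eventually_ge_atTop (2 * c + 1)] with N hN
    obtain ⟨s, rfl⟩ : ∃ s, N = c + s := ⟨N - c, by omega⟩
    have hs1 : 1 ≤ s := by omega
    have hs2 : c + s ≤ 2 * s := by omega
    have h1 := hlow s
    have h2 : s ^ (d + 1) ≤ s ^ t := Nat.pow_le_pow_right hs1 hlt'
    have h3 : E * s ^ (d + 1) ≤ t.factorial * lam (c + s) :=
      le_trans (Nat.mul_le_mul_left _ h2) h1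
    have h4 : (E : ℝ) * (s : ℝ) ^ (d + 1) ≤ (t.factorial : ℝ) * (lam (c + s) : ℝ) := by
      exact_mod_cast h3
    have h5 : (((c + s : ℕ) : ℝ)) ^ (d + 1) ≤ 2 ^ (d + 1) * (s : ℝ) ^ (d + 1) := by
      rw [← mul_pow]
      have : ((c + s : ℕ) : ℝ) ≤ 2 * (s : ℝ) := by exact_mod_cast hs2
      gcongr
    have hN0 : (0 : ℝ) < ((c + s : ℕ) : ℝ) := by exact_mod_cast (by omega : 0 < c + s)
    have hs0 : (0 : ℝ) < (s : ℝ) := by exact_mod_cast (by omega : 0 < s)
    have hE0 : (0 : ℝ) < E := by exact_mod_cast (by omega : 0 < E)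
    have htf : (0 : ℝ) < (t.factorial : ℝ) := by exact_mod_cast Nat.factorial_pos t
    have hdf : (0 : ℝ) < (d.factorial : ℝ) := by exact_mod_cast Nat.factorial_pos d
    have h6 : ((c + s : ℕ) : ℝ) ^ d * ((c + s : ℕ) : ℝ) = ((c + s : ℕ) : ℝ) ^ (d + 1) := by ring
    rw [div_div, h6, div_le_div_iff₀ (by positivity) (by positivity)]
    calc (d.factorial : ℝ) * E * ((c + s : ℕ) : ℝ) ^ (d + 1)
        ≤ (d.factorial : ℝ) * E * (2 ^ (d + 1) * (s : ℝ) ^ (d + 1)) := by gcongr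
      _ = (d.factorial : ℝ) * 2 ^ (d + 1) * (E * (s : ℝ) ^ (d + 1)) := by ring
      _ ≤ (d.factorial : ℝ) * 2 ^ (d + 1) * ((t.factorial : ℝ) * (lam (c + s) : ℝ)) := by gcongr
      _ = _ := by ring
  refine ⟨htd, ?_⟩
  rcases Nat.lt_or_ge t d with hlt | hge
  · -- small growth
    have hR0 : eR ≤ 0 := by
      refine numeric_low L d (s0 + 1) (f * E + B) hd hR ?_
      intro M hM
      have h1 := hup M
      have hx : 1 ≤ M + s0 := by omega
      have h2 : (M + s0) ^ t ≤ (M + s0 + 1) ^ (d - 1) :=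
        le_trans (Nat.pow_le_pow_right hx (by omega)) (Nat.pow_le_pow_left (by omega) _)
      have h3 : (M + s0) ^ (t - 1) ≤ (M + s0 + 1) ^ (d - 1) :=
        le_trans (Nat.pow_le_pow_right hx (by omega)) (Nat.pow_le_pow_left (by omega) _)
      have h4 : L M ≤ t.factorial * L M := Nat.le_mul_of_pos_left _ (Nat.factorial_pos t)
      calc L M ≤ t.factorial * L M := h4
        _ ≤ f * E * (M + s0) ^ t + B * (M + s0) ^ (t - 1) := h1
        _ ≤ f * E * (M + s0 + 1) ^ (d - 1) + B * (M + s0 + 1) ^ (d - 1) := by gcongr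
        _ = (f * E + B) * (M + (s0 + 1)) ^ (d - 1) := by
          rw [add_assoc]; ring
    have : (0 : ℝ) ≤ f * eS := by positivity
    linarith
  · have htd' : t = d := le_antisymm htd hge
    subst htd'
    have h1 : eR ≤ ((f * E : ℕ) : ℝ) := by
      refine limit_upper (B := (B : ℝ)) t s0 hR ?_
      intro M hM
      have hM0 : (0 : ℝ) < M := by exact_mod_cast (by omega : 0 < M)
      have h2 : (t.factorial : ℝ) * (L M : ℝ)
          ≤ ((f * E : ℕ) : ℝ) * ((M : ℝ) + s0) ^ t + (B : ℝ) * ((M : ℝ) + s0) ^ (t - 1) := by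
        exact_mod_cast hup M
      have hd0 : (M : ℝ) ^ t = (M : ℝ) ^ (t - 1) * M := by
        rw [← pow_succ]
        congr 1
        omega
      rw [div_pow, div_pow, div_le_iff₀ (by positivity)]
      refine le_trans h2 (le_of_eq ?_)
      rw [hd0]
      field_simp
    have h2 : (E : ℝ) ≤ eS := by
      refine limit_lower (A := (E : ℝ)) t c hS ?_
      intro s hs
      have hN0 : (0 : ℝ) < ((c + s : ℕ) : ℝ) := by exact_mod_cast (by omega : 0 < c + s)
      have h3 : (E : ℝ) * (s : ℝ) ^ t ≤ (t.factorial : ℝ) * (lam (c + s) : ℝ) := by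
        exact_mod_cast hlow s
      rw [div_pow, le_div_iff₀ (by positivity)]
      refine le_trans (le_of_eq ?_) h3
      field_simp
    have h3 : ((f * E : ℕ) : ℝ) ≤ f * eS := by
      push_cast
      gcongr
    linarith

end Vale.Agent.Lib.P202
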