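import Vale.Agent.Lib.P202.Ext

/-! Bounds for Lech's problem in terms of the Loewy length of the closed fibre. -/

namespace Vale.Agent.Lib.P202

open Polynomial Module IsLocalRing Filter Topology

section Chain

variable {S : Type*} [CommRing S] [IsLocalRing S]

/-- The chain with arbitrary nilpotency orders. -/
lemma chain_nu (a : Ideal S) (D : SeqData S) (top E C : ℕ) (ν : ℕ → ℕ) (hν1 : ∀ i, 1 ≤ ν i)
    (hν : ∀ i, (D.y i) ^ ν i ∈ a ⊔ D.Y i)
    (hE : ∀ μ : ℕ, ilen (D.Y top ⊔ Ideal.span {(D.y top) ^ μ}) ≤ ((E * μ + C : ℕ) : ℕ∞)) :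
    ∀ k i : ℕ, i + k = top → ∀ N : ℕ,
      ilen (a ^ N ⊔ D.Y i) ≤
        ((∏ j ∈ Finset.Ico i (top + 1), ν j : ℕ) : ℕ∞) * (PP E C k N : ℕ∞) := by
  intro k
  induction k with
  | zero =>
    intro i hi N
    simp only [add_zero] at hi
    subst hi
    have h1 : (D.y i) ^ (ν i * N) ∈ a ^ N ⊔ D.Y i := by
      rw [pow_mul]
      exact sup_pow_le _ _ _ (Ideal.pow_mem_pow (hν i) N)
    have h2 : ilen (a ^ N ⊔ D.Y i) ≤ ilen (D.Y i ⊔ Ideal.span {(D.y i) ^ (ν i * N)}) := by
      apply ilen_anti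
      exact sup_le le_sup_right ((Ideal.span_singleton_le_iff_mem _).mpr h1)
    refine le_trans h2 (le_trans (hE _) ?_)
    rw [Nat.Ico_succ_singleton, Finset.prod_singleton]
    have h3 : E * (ν i * N) + C ≤ ν i * PP E C 0 N := by
      simp only [PP]
      have : C ≤ ν i * C := Nat.le_mul_of_pos_left _ (hν1 i)
      calc E * (ν i * N) + C ≤ E * (ν i * N) + ν i * C := by omega
        _ = ν i * (E * N + C) := by ring
    exact_mod_cast h3
  | succ k ih =>
    intro i hi N
    have h1 := nil_rec a (D.Y i) (D.y i) (ν i) (hν i) N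
    refine le_trans h1 ?_
    have hlt : i < top + 1 := by omega
    rw [Finset.prod_eq_prod_Ico_succ_bot hlt]
    push_cast
    rw [mul_assoc]
    gcongr
    change _ ≤ _ * ((∑ M ∈ Finset.range N, PP E C k (M + 1) : ℕ) : ℕ∞)
    push_cast
    rw [Finset.mul_sum]
    refine Finset.sum_le_sum fun M _ => ?_
    rw [sup_assoc, ← D.Y_succ]
    have := ih (i + 1) (by omega) (M + 1)
    push_cast at this
    exact this

lemma prod_ite_le (s r l u : ℕ) (hs : 1 ≤ s) (hlu : l ≤ u) :
    ∏ j ∈ Finset.Ico l u, (if j < r then s else 1) ≤ s ^ (min u r - l) := by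
  induction u, hlu using Nat.le_induction with
  | base =>
    simp only [Finset.Ico_self, Finset.prod_empty]
    exact Nat.one_le_pow _ _ hs
  | succ u hlu ih =>
    rw [Finset.prod_Ico_succ_top hlu]
    by_cases h : u < r
    · rw [if_pos h]
      have h1 : min (u + 1) r - l = (min u r - l) + 1 := by omega
      rw [h1, pow_succ]
      exact Nat.mul_le_mul_right _ ih
    · rw [if_neg h, mul_one]
      have h1 : min (u + 1) r - l = min u r - l := by omega
      rw [h1]
      exact ih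

/-- The closed fibre has embedding dimension at most `r`: the first `r` elements generate. -/
lemma gen_r [IsNoetherianRing S] {a : Ideal S} (hal : a ≤ maximalIdeal S) (D : SeqData S)
    (hle : ∀ i, D.Y i ≤ maximalIdeal S)
    (hav : ∀ i, a ⊔ D.Y i ⊔ maximalIdeal S ^ 2 ≠ maximalIdeal S →
        D.y i ∉ a ⊔ D.Y i ⊔ maximalIdeal S ^ 2)
    {r : ℕ} (hr : ilen (a ⊔ maximalIdeal S ^ 2) ≤ ((r + 1 : ℕ) : ℕ∞)) :
    a ⊔ D.Y r = maximalIdeal S := by
  let VV : ℕ → Ideal S := fun i => a ⊔ D.Y i ⊔ maximalIdeal S ^ 2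
  have hVsucc : ∀ i, VV (i + 1) = VV i ⊔ Ideal.span {D.y i} := by
    intro i
    simp only [VV]
    rw [D.Y_succ, sup_assoc, sup_assoc, sup_assoc, sup_comm (Ideal.span {D.y i}), sup_assoc]
  have hVle : ∀ i, VV i ≤ maximalIdeal S := fun i =>
    sup_le (sup_le hal (hle i)) (Ideal.pow_le_self (by omega))
  have hfin : ∀ i, ilen (VV i) ≠ ⊤ := fun i =>
    ilen_ne_top_of_le le_sup_right (ilen_pow_ne_top _)
  have hmono : ∀ i j, i ≤ j → VV i ≤ VV j := by
    intro i j hij
    exact sup_le_sup_right (sup_le_sup_left (Y_mono D hij) a) _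
  have hVeq : VV r = maximalIdeal S := by
    by_contra hne
    have hne' : ∀ i, i ≤ r → VV i ≠ maximalIdeal S := fun i hi h =>
      hne (le_antisymm (hVle r) (h ▸ hmono i r hi))
    have hdec : ∀ i, i ≤ r → LL (VV i) + i ≤ LL (VV 0) := by
      intro i
      induction i with
      | zero => intro _; simp
      | succ i ih =>
        intro hi
        have hi' : i ≤ r := by omega
        have h1 := ih hi'
        have hsub : VV i ≤ VV (i + 1) := hmono i (i + 1) (by omega)
        have hneq : LL (VV (i + 1)) ≠ LL (VV i) := by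
          intro heq
          have heq' : VV i = VV (i + 1) := by
            apply eq_of_le_of_ilen_eq hsub (hfin i)
            rw [← coe_LL (hfin i), ← coe_LL (hfin (i + 1)), heq]
          apply hav i (hne' i hi')
          change D.y i ∈ VV i
          rw [heq', hVsucc i]
          exact Ideal.mem_sup_right (Ideal.mem_span_singleton_self _)
        have h2 := LL_anti hsub (hfin i)
        omega
    have h1 := hdec r le_rfl
    have h0 : LL (VV 0) ≤ r + 1 := by
      have h2 : VV 0 = a ⊔ maximalIdeal S ^ 2 := by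
        simp only [VV]
        rw [D.Y_zero, sup_bot_eq]
      have h3 := coe_LL (hfin 0)
      rw [h2] at h3 ⊢
      rw [← h3] at hr
      exact_mod_cast hr
    have h2 : LL (VV r) ≤ 1 := by omega
    have h3 : ilen (VV r) = ilen (maximalIdeal S) := by
      apply le_antisymm
      · rw [ilen_max, ← coe_LL (hfin r)]
        exact_mod_cast h2
      · exact ilen_anti (hVle r)
    exact hne (eq_of_le_of_ilen_eq (hVle r) (hfin r) h3)
  have hle2 : a ⊔ D.Y r ≤ maximalIdeal S := sup_le hal (hle r)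
  refine le_antisymm hle2 ?_
  refine Submodule.le_of_le_smul_of_le_jacobson_bot (I := maximalIdeal S)
    (IsNoetherian.noetherian _) (IsLocalRing.maximalIdeal_le_jacobson _) ?_
  have : VV r = a ⊔ D.Y r ⊔ maximalIdeal S ^ 2 := rfl
  rw [this, pow_two] at hVeq
  rw [smul_eq_mul]
  exact hVeq.symm.le

/-- The last Loewy layer lies in the kernel of every element of the maximal ideal. -/
lemma layer_le {a : Ideal S} (hfin : ilen a ≠ ⊤) {s b : ℕ} (hs1 : 1 ≤ s)
    (hsn : maximalIdeal S ^ s ≤ a)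
    (hb : (b : ℕ∞) + ilen (a ⊔ maximalIdeal S ^ (s - 1)) ≤ ilen a) {y : S}
    (hy : y ∈ maximalIdeal S) : (b : ℕ∞) ≤ ilen (a ⊔ Ideal.span {y}) := by
  have h1 := ilen_eq_add_cln a y
  have h2 : a ⊔ maximalIdeal S ^ (s - 1) ≤ cln a y := by
    refine sup_le (le_cln a y) ?_
    intro u hu
    rw [mem_cln]
    apply hsn
    have : s = (s - 1) + 1 := by omega
    rw [this, pow_succ']
    exact Ideal.mul_mem_mul hy hu
  have h3 := ilen_anti h2
  have hX : ilen (a ⊔ maximalIdeal S ^ (s - 1)) ≠ ⊤ := ilen_ne_top_of_le le_sup_left hfin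
  have h4 : (b : ℕ∞) + ilen (a ⊔ maximalIdeal S ^ (s - 1))
      ≤ ilen (a ⊔ Ideal.span {y}) + ilen (a ⊔ maximalIdeal S ^ (s - 1)) := by
    refine le_trans hb ?_
    rw [h1]
    gcongr
  exact (WithTop.add_le_add_iff_right hX).mp h4

end Chain

section Numeric

/-- The numerical step. -/
lemma numeric_nu (H L lam : ℕ → ℕ) (hL : ∀ M, L M = ∑ N ∈ Finset.range M, H N)
    (d k w F E C c : ℕ) (hd : 2 ≤ d) {eR eS : ℝ}
    (hR : Tendsto (fun N : ℕ => ((d.factorial : ℝ) * (L N : ℝ)) / (N : ℝ) ^ d) atTop (𝓝 eR))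
    (hS : Tendsto (fun N : ℕ => ((d.factorial : ℝ) * (lam N : ℝ)) / (N : ℝ) ^ d) atTop (𝓝 eS))
    (hE : 1 ≤ E) (hlow : ∀ s, E * s ^ (k + 2) ≤ (k + 2).factorial * lam (c + s))
    (hb : ∀ N, w * H N ≤ F * PP E C k (N + 1)) :
    k + 2 ≤ d ∧ (w : ℝ) * eR ≤ F * eS := by
  have hR' : Tendsto (fun N : ℕ => ((d.factorial : ℝ) * ((w * L N : ℕ) : ℝ)) / (N : ℝ) ^ d) atTop
      (𝓝 ((w : ℝ) * eR)) := by
    refine (hR.const_mul (w : ℝ)).congr fun N => ?_
    push_cast
    ring
  refine numeric_core (fun N => w * L N) lam d (k + 2) E c (k + 1) F (F * (k + 2) * C) hd hR' hS hE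
    (by omega) hlow ?_
  intro M
  have h1 : w * L M ≤ F * PP E C (k + 1) M := by
    rw [hL, Finset.mul_sum]
    change _ ≤ F * ∑ N ∈ Finset.range M, PP E C k (N + 1)
    rw [Finset.mul_sum]
    exact Finset.sum_le_sum fun N _ => hb N
  have h2 := PP_bound E C (k + 1) M
  calc (k + 2).factorial * (w * L M) ≤ (k + 2).factorial * (F * PP E C (k + 1) M) :=
        Nat.mul_le_mul_left _ h1
    _ = F * ((k + 1 + 1).factorial * PP E C (k + 1) M) := by ring
    _ ≤ F * (E * (M + (k + 1)) ^ (k + 1 + 1) + (k + 1 + 1) * (C * (M + (k + 1)) ^ (k + 1))) :=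
        Nat.mul_le_mul_left _ h2
    _ = F * E * (M + (k + 1)) ^ (k + 2) + F * (k + 2) * C * (M + (k + 1)) ^ (k + 2 - 1) := by
        simp only [show k + 2 - 1 = k + 1 by omega]
        ring

end Numeric

variable {R S : Type*} [CommRing R] [CommRing S] [Algebra R S] [Module.Flat R S]
  [IsLocalRing R] [IsLocalRing S] [IsNoetherianRing R] [IsNoetherianRing S]
  [IsLocalHom (algebraMap R S)]

/-- The Loewy length theorem for an infinite residue field. -/
theorem loewy_inf [Infinite (ResidueField S)]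
    (hfin1 : ilen ((maximalIdeal R).map (algebraMap R S)) ≠ ⊤)
    (lam : ℕ → ℕ) (hlam : ∀ N, LL (maximalIdeal S ^ N) ≤ lam N) (d : ℕ) (hd : 2 ≤ d) {eR eS : ℝ}
    (hR : Tendsto (fun N : ℕ => ((d.factorial : ℝ) * (LL (maximalIdeal R ^ N) : ℝ)) / (N : ℝ) ^ d)
      atTop (𝓝 eR))
    (hS : Tendsto (fun N : ℕ => ((d.factorial : ℝ) * (lam N : ℝ)) / (N : ℝ) ^ d) atTop (𝓝 eS))
    (s r b : ℕ) (hs1 : 1 ≤ s)
    (hsn : maximalIdeal S ^ s ≤ (maximalIdeal R).map (algebraMap R S))
    (hr : ilen ((maximalIdeal R).map (algebraMap R S) ⊔ maximalIdeal S ^ 2) ≤ ((r + 1 : ℕ) : ℕ∞))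
    (hb : (b : ℕ∞) + ilen ((maximalIdeal R).map (algebraMap R S) ⊔ maximalIdeal S ^ (s - 1))
      ≤ ilen ((maximalIdeal R).map (algebraMap R S))) :
    eR ≤ ((s ^ (min r d - 2) : ℕ) : ℝ) * eS ∧ (b : ℝ) * eR ≤ ((s ^ (min r d - 1) : ℕ) : ℝ) * eS := by
  set a := (maximalIdeal R).map (algebraMap R S) with ha
  have hal : a ≤ maximalIdeal S := map_max_le
  obtain ⟨H, hH1, hH2⟩ := exists_H (R := R) (S := S) (ilen_pow_fin hfin1)
  obtain ⟨D, hle, hav, hav2, hinj⟩ := exists_seq a hal
  obtain ⟨t, htfin, hout⟩ := superficial_outcome D hle hav hinj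
  have heS : 0 ≤ eS := ge_of_tendsto' hS fun N => by positivity
  have hLsum : ∀ M, LL (maximalIdeal R ^ M) = ∑ N ∈ Finset.range M, H N := hH1
  have hY1 : D.Y 1 = Ideal.span {D.y 0} := by
    rw [D.Y_succ, D.Y_zero, bot_sup_eq]
  have hQne : ilen (a ⊔ Ideal.span {D.y 0}) ≠ 0 := by
    intro h
    have hQt := ilen_eq_zero_iff.mp h
    have : a ⊔ Ideal.span {D.y 0} ≤ maximalIdeal S :=
      sup_le hal ((Ideal.span_singleton_le_iff_mem _).mpr (D.y_mem 0))
    rw [hQt] at this
    exact (maximalIdeal.isMaximal S).ne_top (top_le_iff.mp this)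
  have hQfin : ilen (a ⊔ Ideal.span {D.y 0}) ≠ ⊤ := ilen_ne_top_of_le le_sup_left hfin1
  rcases Nat.lt_or_ge t 2 with ht | ht
  · have hfinY : ilen (D.Y 1) ≠ ⊤ :=
      ilen_ne_top_of_le (Y_mono D (by omega : t ≤ 1)) htfin
    have hbd : ∀ N, H N ≤ LL (D.Y 1) := by
      intro N
      have h1 := hH2 (D.y 0) N
      have h2 : ilen (a ^ (N + 1) ⊔ Ideal.span {D.y 0}) ≤ ilen (D.Y 1) := by
        rw [hY1]; exact ilen_anti le_sup_right
      have h3 : (H N : ℕ∞) * ilen (a ⊔ Ideal.span {D.y 0})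
          ≤ (LL (D.Y 1) : ℕ∞) * ilen (a ⊔ Ideal.span {D.y 0}) := by
        rw [coe_LL hfinY]
        refine le_trans (le_trans h1 h2) ?_
        exact le_mul_of_one_le_right zero_le (Order.one_le_iff_ne_zero.mpr hQne)
      exact cancel_aux hQne hQfin h3
    have hR0 : eR ≤ 0 := by
      refine numeric_low _ d 1 (LL (D.Y 1)) hd hR ?_
      intro M hM
      rw [hLsum]
      calc ∑ N ∈ Finset.range M, H N ≤ ∑ _N ∈ Finset.range M, LL (D.Y 1) :=
            Finset.sum_le_sum fun N _ => hbd N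
        _ = LL (D.Y 1) * M := by simp [mul_comm]
        _ ≤ LL (D.Y 1) * (M + 1) ^ (d - 1) := by
            refine Nat.mul_le_mul_left _ ?_
            calc M ≤ (M + 1) ^ 1 := by simp
              _ ≤ (M + 1) ^ (d - 1) := Nat.pow_le_pow_right (by omega) (by omega)
    constructor
    · have : (0 : ℝ) ≤ ((s ^ (min r d - 2) : ℕ) : ℝ) * eS := by positivity
      linarith
    · have h1 : (0 : ℝ) ≤ ((s ^ (min r d - 1) : ℕ) : ℝ) * eS := by positivity
      have h2 : (b : ℝ) * eR ≤ 0 := mul_nonpos_of_nonneg_of_nonpos (by positivity) hR0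
      linarith
  · obtain ⟨k, rfl⟩ : ∃ k, t = k + 2 := ⟨t - 2, by omega⟩
    obtain ⟨E, C, c, hE1, hup, hlow0⟩ := hout (k + 1) rfl
    have hlow : ∀ s, E * s ^ (k + 2) ≤ (k + 2).factorial * lam (c + s) := by
      intro s
      exact le_trans (hlow0 s) (Nat.mul_le_mul_left _ (hlam _))
    have hgen : a ⊔ D.Y r = maximalIdeal S := gen_r hal D hle hav2 hr
    obtain ⟨c1, hc1⟩ := ENat.ne_top_iff_exists.mp hQfin
    have hc10 : 1 ≤ c1 := by
      rw [Nat.one_le_iff_ne_zero]
      rintro rfl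
      apply hQne
      rw [← hc1]
      simp
    let νB : ℕ → ℕ := fun j => if j < r then s else 1
    have hνB1 : ∀ j, 1 ≤ νB j := by
      intro j
      simp only [νB]
      split_ifs <;> omega
    have hνB : ∀ j, (D.y j) ^ νB j ∈ a ⊔ D.Y j := by
      intro j
      simp only [νB]
      split_ifs with hj
      · exact Ideal.mem_sup_left (hsn (Ideal.pow_mem_pow (D.y_mem j) s))
      · rw [pow_one]
        have h1 : D.y j ∈ a ⊔ D.Y r := by rw [hgen]; exact D.y_mem j
        exact (sup_le_sup_left (Y_mono D (by omega)) a) h1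
    let νA : ℕ → ℕ := fun j => if j = 1 then c1 else νB j
    have hνA1 : ∀ j, 1 ≤ νA j := by
      intro j
      simp only [νA]
      split_ifs
      · exact hc10
      · exact hνB1 j
    have hνA : ∀ j, (D.y j) ^ νA j ∈ a ⊔ D.Y j := by
      intro j
      simp only [νA]
      split_ifs with hj
      · subst hj
        rw [hY1]
        exact pow_ilen_mem (D.y_mem 1) hc1.symm
      · exact hνB j
    have htop : ∀ N, ((H N : ℕ) : ℕ∞) * (c1 : ℕ∞) ≤ ilen (a ^ (N + 1) ⊔ D.Y 1) := by
      intro N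
      have h1 := hH2 (D.y 0) N
      rw [← hc1, ← hY1] at h1
      exact h1
    -- the first bound
    have hA : ∀ N, 1 * H N ≤ (∏ j ∈ Finset.Ico 2 (k + 2), νB j) * PP E C k (N + 1) := by
      intro N
      have h1 := chain_nu a D (k + 1) E C νA hνA1 hνA hup k 1 (by omega) (N + 1)
      have h2 := le_trans (htop N) h1
      have h3 : ∏ j ∈ Finset.Ico 1 (k + 1 + 1), νA j
          = c1 * ∏ j ∈ Finset.Ico 2 (k + 2), νB j := by
        rw [Finset.prod_eq_prod_Ico_succ_bot (by omega : 1 < k + 1 + 1)]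
        congr 1
        refine Finset.prod_congr rfl fun j hj => ?_
        have : j ≠ 1 := by
          have := (Finset.mem_Ico.mp hj).1
          omega
        simp only [νA, if_neg this]
      rw [h3] at h2
      rw [one_mul]
      have h4 : ((H N * c1 : ℕ) : ℕ∞)
          ≤ ((c1 * ∏ j ∈ Finset.Ico 2 (k + 2), νB j) * PP E C k (N + 1) : ℕ) := by
        push_cast at h2 ⊢
        exact h2
      have h5 : H N * c1 ≤ (c1 * ∏ j ∈ Finset.Ico 2 (k + 2), νB j) * PP E C k (N + 1) := by
        exact_mod_cast h4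
      have h6 : H N * c1 ≤ ((∏ j ∈ Finset.Ico 2 (k + 2), νB j) * PP E C k (N + 1)) * c1 := by
        calc H N * c1 ≤ _ := h5
          _ = _ := by ring
      exact Nat.le_of_mul_le_mul_right h6 (by omega)
    -- the second bound
    have hB : ∀ N, b * H N ≤ (∏ j ∈ Finset.Ico 1 (k + 2), νB j) * PP E C k (N + 1) := by
      intro N
      have h1 := chain_nu a D (k + 1) E C νB hνB1 hνB hup k 1 (by omega) (N + 1)
      have h2 := le_trans (htop N) h1
      have hbc : b ≤ c1 := by
        have h3 := layer_le hfin1 hs1 hsn hb (D.y_mem 0)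
        rw [← hc1] at h3
        exact_mod_cast h3
      have h4 : ((H N * c1 : ℕ) : ℕ∞)
          ≤ ((∏ j ∈ Finset.Ico 1 (k + 2), νB j) * PP E C k (N + 1) : ℕ) := by
        push_cast at h2 ⊢
        exact h2
      have h5 : H N * c1 ≤ (∏ j ∈ Finset.Ico 1 (k + 2), νB j) * PP E C k (N + 1) := by
        exact_mod_cast h4
      calc b * H N ≤ c1 * H N := Nat.mul_le_mul_right _ hbc
        _ = H N * c1 := by ring
        _ ≤ _ := h5
    have hL' : ∀ M, LL (maximalIdeal R ^ M) = ∑ N ∈ Finset.range M, H N := hLsum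
    obtain ⟨htd, h1⟩ := numeric_nu H _ lam hL' d k 1 _ E C c hd hR hS hE1 hlow hA
    obtain ⟨_, h2⟩ := numeric_nu H _ lam hL' d k b _ E C c hd hR hS hE1 hlow hB
    constructor
    · have h3 := prod_ite_le s r 2 (k + 2) hs1 (by omega)
      have h4 : s ^ (min (k + 2) r - 2) ≤ s ^ (min r d - 2) :=
        Nat.pow_le_pow_right hs1 (by omega)
      have h5 : ((∏ j ∈ Finset.Ico 2 (k + 2), νB j : ℕ) : ℝ) ≤ ((s ^ (min r d - 2) : ℕ) : ℝ) := by
        exact_mod_cast le_trans h3 h4
      rw [Nat.cast_one, one_mul] at h1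
      exact le_trans h1 (mul_le_mul_of_nonneg_right h5 heS)
    · have h3 := prod_ite_le s r 1 (k + 2) hs1 (by omega)
      have h4 : s ^ (min (k + 2) r - 1) ≤ s ^ (min r d - 1) :=
        Nat.pow_le_pow_right hs1 (by omega)
      have h5 : ((∏ j ∈ Finset.Ico 1 (k + 2), νB j : ℕ) : ℝ) ≤ ((s ^ (min r d - 1) : ℕ) : ℝ) := by
        exact_mod_cast le_trans h3 h4
      exact le_trans h2 (mul_le_mul_of_nonneg_right h5 heS)

section Transfer

/-- Faithful flatness preserves colength from below. -/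
lemma ilen_map_ge {S S' : Type*} [CommRing S] [CommRing S'] [IsLocalRing S] [IsLocalRing S']
    [Algebra S S'] [IsNoetherianRing S] [Module.FaithfullyFlat S S'] (c : ℕ) :
    ∀ I : Ideal S, ilen I = c → (c : ℕ∞) ≤ ilen (I.map (algebraMap S S')) := by
  induction c with
  | zero => intro _ _; simp
  | succ c ih =>
    intro I hI
    have hne : I ≠ ⊤ := by
      rintro rfl
      rw [ilen_top] at hI
      have : ((c + 1 : ℕ) : ℕ∞) = 0 := hI.symm
      norm_cast at this
    have hfin : ilen I ≠ ⊤ := by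
      rw [hI]; exact ENat.natCast_ne_top _
    obtain ⟨u, hu, hmul⟩ := exists_socle hfin hne
    have hcln : cln I u = maximalIdeal S := by
      refine le_antisymm (IsLocalRing.le_maximalIdeal ?_) ?_
      · intro h
        apply hu
        have : (1 : S) ∈ cln I u := by rw [h]; trivial
        simpa using this
      · intro x hx
        rw [mem_cln, mul_comm]
        exact hmul x hx
    have h1 := ilen_eq_add_cln I u
    rw [hcln, ilen_max, hI] at h1
    have h2 : ilen (I ⊔ Ideal.span {u}) = (c : ℕ∞) := by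
      have h3 : ilen (I ⊔ Ideal.span {u}) ≠ ⊤ := ilen_ne_top_of_le le_sup_left hfin
      obtain ⟨c', hc'⟩ := ENat.ne_top_iff_exists.mp h3
      rw [← hc'] at h1 ⊢
      norm_cast at h1 ⊢
      omega
    have h3 := ih _ h2
    rw [Ideal.map_sup, Ideal.map_span, Set.image_singleton] at h3
    have h4 := ilen_eq_add_cln (I.map (algebraMap S S')) (algebraMap S S' u)
    have h5 : 1 ≤ ilen (cln (I.map (algebraMap S S')) (algebraMap S S' u)) := by
      rw [Order.one_le_iff_ne_zero]
      intro h0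
      have h6 := ilen_eq_zero_iff.mp h0
      have h7 : (1 : S') ∈ cln (I.map (algebraMap S S')) (algebraMap S S' u) := by
        rw [h6]; trivial
      rw [mem_cln, mul_one] at h7
      apply hu
      have h8 := Ideal.comap_map_eq_self_of_faithfullyFlat (B := S') I
      rw [← h8, Ideal.mem_comap]
      exact h7
    rw [h4]
    push_cast
    exact add_le_add h3 h5

variable {R S S' : Type*} [CommRing R] [CommRing S] [CommRing S']
  [IsLocalRing R] [IsLocalRing S] [IsLocalRing S'] [IsNoetherianRing R] [IsNoetherianRing S]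
  [IsNoetherianRing S'] [Algebra R S] [Algebra S S'] [Algebra R S'] [IsScalarTower R S S']
  [Module.Flat R S'] [IsLocalHom (algebraMap R S')] [Module.FaithfullyFlat S S']

/-- Transfer along a local extension with infinite residue field. -/
theorem loewy_transfer [Infinite (ResidueField S')]
    (hn : (maximalIdeal S).map (algebraMap S S') = maximalIdeal S')
    (hfin1 : ilen ((maximalIdeal R).map (algebraMap R S)) ≠ ⊤)
    (d : ℕ) (hd : 2 ≤ d) {eR eS : ℝ}
    (hR : Tendsto (fun N : ℕ => ((d.factorial : ℝ) * (LL (maximalIdeal R ^ N) : ℝ)) / (N : ℝ) ^ d)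
      atTop (𝓝 eR))
    (hS : Tendsto (fun N : ℕ => ((d.factorial : ℝ) * (LL (maximalIdeal S ^ N) : ℝ)) / (N : ℝ) ^ d)
      atTop (𝓝 eS))
    (s r b : ℕ) (hs1 : 1 ≤ s)
    (hsn : maximalIdeal S ^ s ≤ (maximalIdeal R).map (algebraMap R S))
    (hr : ilen ((maximalIdeal R).map (algebraMap R S) ⊔ maximalIdeal S ^ 2) ≤ ((r + 1 : ℕ) : ℕ∞))
    (hb : (b : ℕ∞) + ilen ((maximalIdeal R).map (algebraMap R S) ⊔ maximalIdeal S ^ (s - 1))
      ≤ ilen ((maximalIdeal R).map (algebraMap R S))) :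
    eR ≤ ((s ^ (min r d - 2) : ℕ) : ℝ) * eS ∧ (b : ℝ) * eR ≤ ((s ^ (min r d - 1) : ℕ) : ℝ) * eS := by
  have hmapa : (maximalIdeal R).map (algebraMap R S')
      = ((maximalIdeal R).map (algebraMap R S)).map (algebraMap S S') := by
    rw [Ideal.map_map, ← IsScalarTower.algebraMap_eq]
  set a := (maximalIdeal R).map (algebraMap R S) with ha
  have hmapfin : ∀ I : Ideal S, ilen I ≠ ⊤ → ilen (I.map (algebraMap S S')) ≤ ilen I := by
    intro I hI
    obtain ⟨c, hc⟩ := ENat.ne_top_iff_exists.mp hI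
    rw [← hc]
    exact ilen_map_le hn c _ hc.symm
  have hfin1' : ilen ((maximalIdeal R).map (algebraMap R S')) ≠ ⊤ := by
    rw [hmapa]
    intro h
    have := hmapfin a hfin1
    rw [h, top_le_iff] at this
    exact hfin1 this
  have hlam : ∀ N, LL (maximalIdeal S' ^ N) ≤ LL (maximalIdeal S ^ N) := by
    intro N
    have h1 : maximalIdeal S' ^ N = (maximalIdeal S ^ N).map (algebraMap S S') := by
      rw [Ideal.map_pow, hn]
    have h2 := ilen_map_le hn (LL (maximalIdeal S ^ N)) _ (coe_LL (ilen_pow_ne_top N)).symm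
    rw [← h1, ← coe_LL (ilen_pow_ne_top N)] at h2
    exact_mod_cast h2
  have hpow : ∀ j, maximalIdeal S' ^ j = (maximalIdeal S ^ j).map (algebraMap S S') := by
    intro j
    rw [Ideal.map_pow, hn]
  refine loewy_inf (R := R) (S := S') hfin1' (fun N => LL (maximalIdeal S ^ N)) hlam d hd hR hS
    s r b hs1 ?_ ?_ ?_
  · rw [hmapa, hpow]
    exact Ideal.map_mono hsn
  · rw [hmapa, hpow, ← Ideal.map_sup]
    refine le_trans (hmapfin _ ?_) hr
    exact ilen_ne_top_of_le le_sup_right (ilen_pow_ne_top 2)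
  · rw [hmapa, hpow, ← Ideal.map_sup]
    have hX : ilen (a ⊔ maximalIdeal S ^ (s - 1)) ≠ ⊤ := ilen_ne_top_of_le le_sup_left hfin1
    obtain ⟨c, hc⟩ := ENat.ne_top_iff_exists.mp hfin1
    have h3 := ilen_map_ge (S' := S') c a hc.symm
    rw [← hc] at hb
    calc (b : ℕ∞) + ilen ((a ⊔ maximalIdeal S ^ (s - 1)).map (algebraMap S S'))
        ≤ (b : ℕ∞) + ilen (a ⊔ maximalIdeal S ^ (s - 1)) := by
          gcongr
          exact hmapfin _ hX
      _ ≤ c := hb
      _ ≤ _ := h3

end Transfer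

section Final

variable {R S : Type*} [CommRing R] [CommRing S] [Algebra R S] [Module.Flat R S]
  [IsLocalRing R] [IsLocalRing S] [IsNoetherianRing R] [IsNoetherianRing S]
  [IsLocalHom (algebraMap R S)]

/-- The Loewy length theorem: no condition on the residue field. -/
theorem loewy_final
    (hfin1 : ilen ((maximalIdeal R).map (algebraMap R S)) ≠ ⊤)
    (d : ℕ) (hd : 2 ≤ d) {eR eS : ℝ}
    (hR : Tendsto (fun N : ℕ => ((d.factorial : ℝ) * (LL (maximalIdeal R ^ N) : ℝ)) / (N : ℝ) ^ d)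
      atTop (𝓝 eR))
    (hS : Tendsto (fun N : ℕ => ((d.factorial : ℝ) * (LL (maximalIdeal S ^ N) : ℝ)) / (N : ℝ) ^ d)
      atTop (𝓝 eS))
    (s r b : ℕ) (hs1 : 1 ≤ s)
    (hsn : maximalIdeal S ^ s ≤ (maximalIdeal R).map (algebraMap R S))
    (hr : ilen ((maximalIdeal R).map (algebraMap R S) ⊔ maximalIdeal S ^ 2) ≤ ((r + 1 : ℕ) : ℕ∞))
    (hb : (b : ℕ∞) + ilen ((maximalIdeal R).map (algebraMap R S) ⊔ maximalIdeal S ^ (s - 1))
      ≤ ilen ((maximalIdeal R).map (algebraMap R S))) :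
    eR ≤ ((s ^ (min r d - 2) : ℕ) : ℝ) * eS ∧ (b : ℝ) * eR ≤ ((s ^ (min r d - 1) : ℕ) : ℝ) * eS := by
  have hnoeth : IsNoetherianRing (SX S) :=
    IsLocalization.isNoetherianRing (PC S).primeCompl _ inferInstance
  have hflat1 : Module.Flat R S[X] := Module.Flat.trans R S S[X]
  have hflat : Module.Flat R (SX S) := Module.Flat.trans R S[X] (SX S)
  have hflatS : Module.Flat S (SX S) := Module.Flat.trans S S[X] (SX S)
  have hlocS : IsLocalHom (algebraMap S (SX S)) := by
    constructor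
    intro x hx
    by_contra h
    have h2 : x ∈ maximalIdeal S := (mem_maximalIdeal _).mpr h
    have h3 : algebraMap S (SX S) x ∈ maximalIdeal (SX S) := by
      rw [← SX_map S]
      exact Ideal.mem_map_of_mem _ h2
    exact ((mem_maximalIdeal _).mp h3) hx
  have hFF : Module.FaithfullyFlat S (SX S) := Module.FaithfullyFlat.of_flat_of_isLocalHom
  have hloc : IsLocalHom (algebraMap R (SX S)) := by
    constructor
    intro x hx
    have h1 : IsUnit (algebraMap R S x) := by
      rw [IsScalarTower.algebraMap_apply R S (SX S) x] at hx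
      exact isUnit_of_map_unit (algebraMap S (SX S)) _ hx
    exact isUnit_of_map_unit (algebraMap R S) x h1
  exact loewy_transfer (R := R) (S := S) (S' := SX S) (SX_map S) hfin1 d hd hR hS s r b hs1 hsn hr hb

end Final

end Vale.Agent.Lib.P202
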