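import Vale.Agent.Lib.P202.Bounds
import Vale.Agent.Lib.P202.Avoid
import Vale.Agent.Lib.P202.Limits

namespace Vale.Agent.Lib.P202

open Module IsLocalRing Filter Topology

section Numeric

/-- Summation of the general bound. -/
lemma sum_general (H : ℕ → ℕ) (k E C : ℕ) (hH : ∀ N, H N ≤ (N + 1) ^ k * (E * (N + 1) + C)) (M : ℕ) :
    (k + 2).factorial * ∑ N ∈ Finset.range M, H N
      ≤ (k + 1).factorial * E * (M + 1) ^ (k + 2) + ((k + 2).factorial * C) * (M + 1) ^ (k + 1) := by
  have h1 : ∑ N ∈ Finset.range M, H N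
      ≤ E * ∑ N ∈ Finset.range M, (N + 1) ^ (k + 1) + C * ∑ N ∈ Finset.range M, (N + 1) ^ k := by
    rw [Finset.mul_sum, Finset.mul_sum, ← Finset.sum_add_distrib]
    refine Finset.sum_le_sum fun N _ => ?_
    refine le_trans (hH N) (le_of_eq ?_)
    ring
  have h2 := sum_pow_le (k + 1) 1 M
  have h3 := sum_pow_le k 1 M
  have h4 : ∑ N ∈ Finset.range M, (N + 1) ^ k ≤ (M + 1) ^ (k + 1) := by
    refine le_trans ?_ h3
    exact Nat.le_mul_of_pos_left _ (by omega)
  have h5 : (k + 2).factorial = (k + 2) * (k + 1).factorial := Nat.factorial_succ (k + 1)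
  calc (k + 2).factorial * ∑ N ∈ Finset.range M, H N
      ≤ (k + 2).factorial * (E * ∑ N ∈ Finset.range M, (N + 1) ^ (k + 1)
          + C * ∑ N ∈ Finset.range M, (N + 1) ^ k) := Nat.mul_le_mul_left _ h1
    _ = (k + 1).factorial * E * ((k + 1 + 1) * ∑ N ∈ Finset.range M, (N + 1) ^ (k + 1))
          + ((k + 2).factorial * C) * ∑ N ∈ Finset.range M, (N + 1) ^ k := by
        rw [mul_add, h5]; ring
    _ ≤ (k + 1).factorial * E * (M + 1) ^ (k + 1 + 1)
          + ((k + 2).factorial * C) * (M + 1) ^ (k + 1) := by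
        gcongr

end Numeric

variable {R S : Type*} [CommRing R] [CommRing S] [Algebra R S] [Module.Flat R S]
  [IsLocalRing R] [IsLocalRing S] [IsNoetherianRing R] [IsNoetherianRing S]
  [IsLocalHom (algebraMap R S)]

omit [IsNoetherianRing R] [IsNoetherianRing S] [Module.Flat R S] in
lemma map_max_le : (maximalIdeal R).map (algebraMap R S) ≤ maximalIdeal S := by
  rw [Ideal.map_le_iff_le_comap]
  intro x hx
  rw [Ideal.mem_comap, mem_maximalIdeal, mem_nonunits_iff]
  intro hu
  exact (mem_nonunits_iff.mp ((mem_maximalIdeal x).mp hx))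
    (isUnit_of_map_unit (algebraMap R S) x hu)

omit [IsLocalRing R] [IsNoetherianRing R] [Module.Flat R S] [IsLocalHom (algebraMap R S)] in
/-- Finite colength of an ideal passes to its powers. -/
lemma ilen_pow_fin {a : Ideal S} (ha : ilen a ≠ ⊤) (N : ℕ) : ilen (a ^ N) ≠ ⊤ := by
  obtain ⟨c, hc⟩ := ENat.ne_top_iff_exists.mp ha
  have h1 : maximalIdeal S ≤ a.radical := by
    intro x hx
    exact ⟨c, pow_ilen_mem hx hc.symm⟩
  obtain ⟨k, hk⟩ := Ideal.exists_pow_le_of_le_radical_of_fg h1 (IsNoetherian.noetherian _)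
  have h2 : maximalIdeal S ^ (k * N) ≤ a ^ N := by
    rw [pow_mul]
    exact Ideal.pow_right_mono hk N
  exact ilen_ne_top_of_le h2 (ilen_pow_ne_top _)

omit [IsNoetherianRing R] [IsNoetherianRing S] [Module.Flat R S] [IsLocalHom (algebraMap R S)]
  [IsLocalRing R] [Algebra R S] in
/-- The exchange argument. -/
lemma exchange {V : Ideal S} (hV : maximalIdeal S ^ 2 ≤ V) {q y : S} (hq : q ∈ maximalIdeal S)
    (hy : y ∈ V ⊔ Ideal.span {q}) (hyV : y ∉ V) : q ∈ V ⊔ Ideal.span {y} := by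
  obtain ⟨v, hv, w, hw, rfl⟩ := Submodule.mem_sup.mp hy
  obtain ⟨γ, rfl⟩ := Ideal.mem_span_singleton'.mp hw
  by_cases hγ : γ ∈ maximalIdeal S
  · exfalso
    apply hyV
    refine V.add_mem hv (hV ?_)
    rw [pow_two]
    exact Ideal.mul_mem_mul hγ hq
  · have hu : IsUnit γ := by
      by_contra h
      exact hγ ((mem_maximalIdeal γ).mpr h)
    obtain ⟨u, rfl⟩ := hu
    have h3 : (↑u⁻¹ : S) * ((v + ↑u * q) - v) = q := by
      have h1 : (↑u⁻¹ : S) * ↑u = 1 := by simp
      calc (↑u⁻¹ : S) * ((v + ↑u * q) - v) = ((↑u⁻¹ : S) * ↑u) * q := by ring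
        _ = q := by rw [h1, one_mul]
    have h2 : (↑u⁻¹ : S) * ((v + ↑u * q) - v) ∈ V ⊔ Ideal.span {v + ↑u * q} := by
      refine Ideal.mul_mem_left _ _ ?_
      exact Ideal.sub_mem _ (Ideal.mem_sup_right (Ideal.mem_span_singleton_self _))
        (Ideal.mem_sup_left hv)
    rwa [h3] at h2

omit [IsNoetherianRing R] [IsNoetherianRing S] [Module.Flat R S] [IsLocalHom (algebraMap R S)]
  [IsLocalRing R] [Algebra R S] in
/-- Two steps of exchange: if the maximal ideal is `V` plus two elements, two elements outside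
the successive ideals generate the rest. -/
lemma exchange_two {V V1 V2 : Ideal S} {p q y0 y1 : S}
    (hV : maximalIdeal S ^ 2 ≤ V)
    (hgen : maximalIdeal S = V ⊔ Ideal.span {p, q})
    (hy0 : y0 ∈ maximalIdeal S) (hy1 : y1 ∈ maximalIdeal S)
    (hV1 : V1 = V ⊔ Ideal.span {y0}) (hV2 : V2 = V1 ⊔ Ideal.span {y1})
    (h0 : y0 ∉ V) (h1 : y1 ∉ V1) : maximalIdeal S ≤ V2 := by
  have hpn : p ∈ maximalIdeal S := by
    rw [hgen]; exact Ideal.mem_sup_right (Ideal.subset_span (by simp))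
  have hqn : q ∈ maximalIdeal S := by
    rw [hgen]; exact Ideal.mem_sup_right (Ideal.subset_span (by simp))
  have hspan : Ideal.span {p, q} = Ideal.span {p} ⊔ Ideal.span {q} := by
    rw [← Ideal.span_union]; rfl
  have hV1le : V ≤ V1 := by rw [hV1]; exact le_sup_left
  have hV12 : V1 ≤ V2 := by rw [hV2]; exact le_sup_left
  -- reduce to one extra generator `r`
  have hr : ∃ r, r ∈ maximalIdeal S ∧ maximalIdeal S ≤ V1 ⊔ Ideal.span {r} := by
    by_cases hc : y0 ∈ V ⊔ Ideal.span {q}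
    · refine ⟨p, hpn, ?_⟩
      have h2 : q ∈ V1 := by
        rw [hV1]; exact exchange hV hqn hc h0
      rw [hgen, hspan, ← sup_assoc]
      refine sup_le (sup_le ?_ ?_) ?_
      · exact le_trans hV1le le_sup_left
      · exact le_sup_right
      · rw [Ideal.span_singleton_le_iff_mem]
        exact Ideal.mem_sup_left h2
    · refine ⟨q, hqn, ?_⟩
      have h2 : y0 ∈ (V ⊔ Ideal.span {q}) ⊔ Ideal.span {p} := by
        have : y0 ∈ maximalIdeal S := hy0
        rw [hgen, hspan] at this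
        have h3 : V ⊔ (Ideal.span {p} ⊔ Ideal.span {q}) = (V ⊔ Ideal.span {q}) ⊔ Ideal.span {p} := by
          rw [sup_assoc, sup_comm (Ideal.span {p})]
        rwa [h3] at this
      have hV' : maximalIdeal S ^ 2 ≤ V ⊔ Ideal.span {q} := le_trans hV le_sup_left
      have h3 := exchange hV' hpn h2 hc
      have h4 : V ⊔ Ideal.span {q} ⊔ Ideal.span {y0} = V1 ⊔ Ideal.span {q} := by
        rw [hV1, sup_assoc, sup_comm (Ideal.span {q}), ← sup_assoc]
      rw [h4] at h3
      rw [hgen, hspan, ← sup_assoc]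
      refine sup_le (sup_le ?_ ?_) ?_
      · exact le_trans hV1le le_sup_left
      · rwa [Ideal.span_singleton_le_iff_mem]
      · exact le_sup_right
  obtain ⟨r, hrn, hrle⟩ := hr
  have h2 : y1 ∈ V1 ⊔ Ideal.span {r} := hrle hy1
  have hV1' : maximalIdeal S ^ 2 ≤ V1 := le_trans hV hV1le
  have h3 := exchange hV1' hrn h2 h1
  rw [← hV2] at h3
  refine le_trans hrle (sup_le hV12 ?_)
  rwa [Ideal.span_singleton_le_iff_mem]

omit [IsNoetherianRing R] [Module.Flat R S] [IsLocalHom (algebraMap R S)]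
  [IsLocalRing R] [Algebra R S] in
/-- Embedding dimension at most two gives that `a` and two elements generate. -/
lemma gen_two {a : Ideal S} (hal : a ≤ maximalIdeal S) (D : SeqData S)
    (hle : ∀ i, D.Y i ≤ maximalIdeal S)
    (hav : ∀ i, a ⊔ D.Y i ⊔ maximalIdeal S ^ 2 ≠ maximalIdeal S →
        D.y i ∉ a ⊔ D.Y i ⊔ maximalIdeal S ^ 2)
    (hgen : ∃ p q : S, maximalIdeal S = a ⊔ Ideal.span {p, q}) :
    a ⊔ D.Y 2 = maximalIdeal S := by
  obtain ⟨p, q, hpq⟩ := hgen
  let VV : ℕ → Ideal S := fun i => a ⊔ D.Y i ⊔ maximalIdeal S ^ 2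
  have hVsucc : ∀ i, VV (i + 1) = VV i ⊔ Ideal.span {D.y i} := by
    intro i
    simp only [VV]
    rw [D.Y_succ, sup_assoc, sup_assoc, sup_assoc, sup_comm (Ideal.span {D.y i}), sup_assoc]
  have hVle : ∀ i, VV i ≤ maximalIdeal S := fun i =>
    sup_le (sup_le hal (hle i)) (Ideal.pow_le_self (by omega))
  have hV0 : maximalIdeal S ^ 2 ≤ VV 0 := le_sup_right
  have hmono : VV 0 ≤ VV 1 := by rw [hVsucc 0]; exact le_sup_left
  have hmono2 : VV 1 ≤ VV 2 := by rw [hVsucc 1]; exact le_sup_left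
  have hVeq : VV 2 = maximalIdeal S := by
    by_contra hne
    have hne1 : VV 1 ≠ maximalIdeal S := fun h =>
      hne (le_antisymm (hVle 2) (h ▸ hmono2))
    have hne0 : VV 0 ≠ maximalIdeal S := fun h =>
      hne1 (le_antisymm (hVle 1) (h ▸ hmono))
    have hgen' : maximalIdeal S = VV 0 ⊔ Ideal.span {p, q} := by
      refine le_antisymm ?_ (sup_le (hVle 0) ?_)
      · conv_lhs => rw [hpq]
        exact sup_le_sup_right (le_trans le_sup_left le_sup_left) _
      · rw [hpq]; exact le_sup_right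
    exact hne (le_antisymm (hVle 2) (exchange_two hV0 hgen' (D.y_mem 0) (D.y_mem 1)
      (hVsucc 0) (hVsucc 1) (hav 0 hne0) (hav 1 hne1)))
  -- Nakayama
  have hle2 : a ⊔ D.Y 2 ≤ maximalIdeal S := sup_le hal (hle 2)
  refine le_antisymm hle2 ?_
  refine Submodule.le_of_le_smul_of_le_jacobson_bot (I := maximalIdeal S)
    (IsNoetherian.noetherian _) (IsLocalRing.maximalIdeal_le_jacobson _) ?_
  have : VV 2 = a ⊔ D.Y 2 ⊔ maximalIdeal S ^ 2 := rfl
  rw [this, pow_two] at hVeq
  rw [smul_eq_mul]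
  exact hVeq.symm.le

/-- The main theorem for an infinite residue field. -/
theorem main_inf [Infinite (ResidueField S)]
    (hfin1 : ilen ((maximalIdeal R).map (algebraMap R S)) ≠ ⊤)
    (lam : ℕ → ℕ) (hlam : ∀ N, LL (maximalIdeal S ^ N) ≤ lam N) (d : ℕ) (hd : 2 ≤ d) {eR eS : ℝ}
    (hR : Tendsto (fun N : ℕ => ((d.factorial : ℝ) * (LL (maximalIdeal R ^ N) : ℝ)) / (N : ℝ) ^ d)
      atTop (𝓝 eR))
    (hS : Tendsto (fun N : ℕ => ((d.factorial : ℝ) * (lam N : ℝ)) / (N : ℝ) ^ d) atTop (𝓝 eS)) :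
    eR ≤ ((d - 1).factorial : ℝ) * eS ∧
      ((∃ p q : S, maximalIdeal S = (maximalIdeal R).map (algebraMap R S) ⊔ Ideal.span {p, q}) →
        eR ≤ eS) := by
  set a := (maximalIdeal R).map (algebraMap R S) with ha
  have hal : a ≤ maximalIdeal S := map_max_le
  obtain ⟨H, hH1, hH2⟩ := exists_H (R := R) (S := S) (ilen_pow_fin hfin1)
  obtain ⟨D, hle, hav, hav2, hinj⟩ := exists_seq a hal
  obtain ⟨t, htfin, hout⟩ := superficial_outcome D hle hav hinj
  have heS : 0 ≤ eS := ge_of_tendsto' hS fun N => by positivity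
  have hdf : (0 : ℝ) ≤ ((d - 1).factorial : ℝ) := by positivity
  have hLsum : ∀ M, LL (maximalIdeal R ^ M) = ∑ N ∈ Finset.range M, H N := hH1
  rcases Nat.lt_or_ge t 2 with ht | ht
  · -- very small growth
    have hfinY : ilen (D.Y 1) ≠ ⊤ :=
      ilen_ne_top_of_le (Y_mono D (by omega : t ≤ 1)) htfin
    have hY1 : D.Y 1 = Ideal.span {D.y 0} := by
      rw [D.Y_succ, D.Y_zero, bot_sup_eq]
    have hb : ∀ N, H N ≤ LL (D.Y 1) := by
      intro N
      have h1 := hH2 (D.y 0) N
      have h2 : ilen (a ^ (N + 1) ⊔ Ideal.span {D.y 0}) ≤ ilen (D.Y 1) := by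
        rw [hY1]; exact ilen_anti le_sup_right
      have hQne : ilen (a ⊔ Ideal.span {D.y 0}) ≠ 0 := by
        intro h
        have hQt := ilen_eq_zero_iff.mp h
        have : a ⊔ Ideal.span {D.y 0} ≤ maximalIdeal S :=
          sup_le hal ((Ideal.span_singleton_le_iff_mem _).mpr (D.y_mem 0))
        rw [hQt] at this
        exact (maximalIdeal.isMaximal S).ne_top (top_le_iff.mp this)
      have hQfin : ilen (a ⊔ Ideal.span {D.y 0}) ≠ ⊤ := ilen_ne_top_of_le le_sup_left hfin1
      have h3 : (H N : ℕ∞) * ilen (a ⊔ Ideal.span {D.y 0}) ≤ (LL (D.Y 1) : ℕ∞) * ilen (a ⊔ Ideal.span {D.y 0}) := by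
        rw [coe_LL hfinY]
        refine le_trans (le_trans h1 h2) ?_
        exact le_mul_of_one_le_right zero_le (Order.one_le_iff_ne_zero.mpr hQne)
      exact cancel_aux hQne hQfin h3
    have hR0 : eR ≤ 0 := by
      refine numeric_low _ d 1 (LL (D.Y 1)) hd hR ?_
      intro M hM
      rw [hLsum]
      calc ∑ N ∈ Finset.range M, H N ≤ ∑ _N ∈ Finset.range M, LL (D.Y 1) :=
            Finset.sum_le_sum fun N _ => hb N
        _ = LL (D.Y 1) * M := by simp [mul_comm]
        _ ≤ LL (D.Y 1) * (M + 1) ^ (d - 1) := by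
            refine Nat.mul_le_mul_left _ ?_
            calc M ≤ (M + 1) ^ 1 := by simp
              _ ≤ (M + 1) ^ (d - 1) := Nat.pow_le_pow_right (by omega) (by omega)
    constructor
    · have : (0 : ℝ) ≤ ((d - 1).factorial : ℝ) * eS := mul_nonneg hdf heS
      linarith
    · intro _
      linarith
  · obtain ⟨k, rfl⟩ : ∃ k, t = k + 2 := ⟨t - 2, by omega⟩
    obtain ⟨E, C, c, hE1, hup, hlow0⟩ := hout (k + 1) rfl
    have hlow : ∀ s, E * s ^ (k + 2) ≤ (k + 2).factorial * lam (c + s) := by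
      intro s
      exact le_trans (hlow0 s) (Nat.mul_le_mul_left _ (hlam _))
    constructor
    · have hb : ∀ N, H N ≤ (N + 1) ^ k * (E * (N + 1) + C) := fun N =>
        bound_general hal hH2 hfin1 D k E C hup N
      obtain ⟨h1, h2⟩ := numeric_core _ lam d (k + 2) E c 1 (k + 1).factorial
        ((k + 2).factorial * C) hd hR hS hE1 (by omega) hlow (by
          intro M
          rw [hLsum]
          exact sum_general H k E C hb M)
      have h3 : ((k + 1).factorial : ℝ) ≤ ((d - 1).factorial : ℝ) := by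
        exact_mod_cast Nat.factorial_le (by omega)
      calc eR ≤ ((k + 1).factorial : ℝ) * eS := h2
        _ ≤ ((d - 1).factorial : ℝ) * eS := by gcongr
    · intro hgen
      have hgen2 : a ⊔ D.Y 2 = maximalIdeal S := gen_two hal D hle hav2 hgen
      have hb : ∀ N, H N ≤ PP E C k (N + 1) := fun N =>
        bound_two hal hfin1 hH2 D k E C hgen2 hup N
      obtain ⟨_, h2⟩ := numeric_core _ lam d (k + 2) E c (k + 1) 1
        ((k + 2) * C) hd hR hS hE1 (by omega) hlow (by
          intro M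
          rw [hLsum, one_mul]
          have h3 : ∑ N ∈ Finset.range M, H N ≤ PP E C (k + 1) M :=
            Finset.sum_le_sum fun N _ => hb N
          have h4 := PP_bound E C (k + 1) M
          calc (k + 2).factorial * ∑ N ∈ Finset.range M, H N
              ≤ (k + 2).factorial * PP E C (k + 1) M := Nat.mul_le_mul_left _ h3
            _ ≤ E * (M + (k + 1)) ^ (k + 1 + 1) + (k + 1 + 1) * (C * (M + (k + 1)) ^ (k + 1)) := h4
            _ = E * (M + (k + 1)) ^ (k + 2) + (k + 2) * C * (M + (k + 1)) ^ (k + 2 - 1) := by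
                simp only [show k + 2 - 1 = k + 1 by omega]
                ring)
      simpa using h2

end Vale.Agent.Lib.P202
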