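import Vale.Agent.Lib.P202.Seq

namespace Vale.Agent.Lib.P202

open Module IsLocalRing

lemma pow_succ_le (s l : ℕ) : (s + 1) ^ (l + 1) ≤ s ^ (l + 1) + (l + 1) * (s + 1) ^ l := by
  induction l with
  | zero => simp
  | succ l ih =>
    have h1 : s ^ (l + 1) ≤ (s + 1) ^ (l + 1) := Nat.pow_le_pow_left (by omega) _
    calc (s + 1) ^ (l + 1 + 1) = (s + 1) * (s + 1) ^ (l + 1) := by ring
      _ ≤ (s + 1) * (s ^ (l + 1) + (l + 1) * (s + 1) ^ l) := Nat.mul_le_mul_left _ ih
      _ = s ^ (l + 1 + 1) + (s ^ (l + 1) + (l + 1) * (s + 1) ^ (l + 1)) := by ring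
      _ ≤ s ^ (l + 1 + 1) + ((s + 1) ^ (l + 1) + (l + 1) * (s + 1) ^ (l + 1)) := by omega
      _ = s ^ (l + 1 + 1) + (l + 1 + 1) * (s + 1) ^ (l + 1) := by ring

lemma growth {a b : ℕ → ℕ} {c l E : ℕ} (h : ∀ j, c ≤ j → a (j + 1) = a j + b (j + 1))
    (hb : ∀ s, E * s ^ l ≤ l.factorial * b (c + s)) :
    ∀ s, E * s ^ (l + 1) ≤ (l + 1).factorial * a (c + s) := by
  intro s
  induction s with
  | zero => simp
  | succ s ih =>
    have h1 := h (c + s) (by omega)
    have h2 := hb (s + 1)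
    have h3 := pow_succ_le s l
    rw [show c + (s + 1) = c + s + 1 from rfl] at h2 ⊢
    rw [h1, Nat.factorial_succ]
    calc E * (s + 1) ^ (l + 1) ≤ E * (s ^ (l + 1) + (l + 1) * (s + 1) ^ l) :=
          Nat.mul_le_mul_left _ h3
      _ = E * s ^ (l + 1) + (l + 1) * (E * (s + 1) ^ l) := by ring
      _ ≤ (l + 1).factorial * a (c + s) + (l + 1) * (l.factorial * b (c + s + 1)) := by
          exact Nat.add_le_add ih (Nat.mul_le_mul_left _ h2)
      _ = (l + 1) * l.factorial * (a (c + s) + b (c + s + 1)) := by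
          rw [Nat.factorial_succ]; ring

lemma shift_bound {b : ℕ → ℕ} {c c' l E : ℕ} (hc : c ≤ c')
    (hb : ∀ s, E * s ^ l ≤ l.factorial * b (c + s)) :
    ∀ s, E * s ^ l ≤ l.factorial * b (c' + s) := by
  intro s
  obtain ⟨d, rfl⟩ := Nat.exists_eq_add_of_le hc
  have h1 := hb (d + s)
  have h2 : s ^ l ≤ (d + s) ^ l := Nat.pow_le_pow_left (by omega) _
  rw [show c + d + s = c + (d + s) by ring]
  exact le_trans (Nat.mul_le_mul_left _ h2) h1

variable {S : Type*} [CommRing S] [IsLocalRing S] [IsNoetherianRing S]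

/-- The Hilbert function data of a superficial sequence. -/
theorem superficial_outcome (D : SeqData S) (hle : ∀ i, D.Y i ≤ maximalIdeal S)
    (hav : ∀ i, D.Y i ⊔ maximalIdeal S ^ 2 ≠ maximalIdeal S → D.y i ∉ D.Y i ⊔ maximalIdeal S ^ 2)
    (hinj : ∀ i, ∃ c : ℕ, ∀ j, c ≤ j → ∀ u ∈ maximalIdeal S ^ j,
        D.y i * u ∈ AA (D.Y i) (j + 1) → u ∈ AA (D.Y i) j) :
    ∃ t : ℕ, ilen (D.Y t) ≠ ⊤ ∧ ∀ top, t = top + 1 → ∃ E C c : ℕ, 1 ≤ E ∧
      (∀ μ : ℕ, ilen (D.Y top ⊔ Ideal.span {(D.y top) ^ μ}) ≤ ((E * μ + C : ℕ) : ℕ∞)) ∧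
      ∀ s : ℕ, E * s ^ t ≤ t.factorial * LL (maximalIdeal S ^ (c + s)) := by
  classical
  -- the recurrences
  have hrec : ∀ i, ∃ c : ℕ, ∀ j, c ≤ j →
      GG (D.Y i) (j + 1) = GG (D.Y i) j + GG (D.Y (i + 1)) (j + 1) := by
    intro i
    obtain ⟨c, hc⟩ := hinj i
    refine ⟨c, fun j hj => ?_⟩
    rw [D.Y_succ]
    exact GG_succ (hle i) (D.y_mem i) (hc j hj)
  -- termination
  let Done : ℕ → Prop := fun i => ∃ c : ℕ, ∀ j, c ≤ j → GG (D.Y i) j = 0
  have hterm : ∃ i, D.Y i ⊔ maximalIdeal S ^ 2 = maximalIdeal S := by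
    by_contra hcon
    push Not at hcon
    have hfin : ∀ i, ilen (D.Y i ⊔ maximalIdeal S ^ 2) ≠ ⊤ := fun i =>
      ilen_ne_top_of_le le_sup_right (ilen_pow_ne_top _)
    have hdec : ∀ i, LL (D.Y i ⊔ maximalIdeal S ^ 2) + i ≤ LL (D.Y 0 ⊔ maximalIdeal S ^ 2) := by
      intro i
      induction i with
      | zero => simp
      | succ i ih =>
        have hsub : D.Y i ⊔ maximalIdeal S ^ 2 ≤ D.Y (i + 1) ⊔ maximalIdeal S ^ 2 := by
          rw [D.Y_succ]
          exact sup_le_sup_right le_sup_left _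
        have hne : LL (D.Y (i + 1) ⊔ maximalIdeal S ^ 2) ≠ LL (D.Y i ⊔ maximalIdeal S ^ 2) := by
          intro heq
          have heq' : D.Y i ⊔ maximalIdeal S ^ 2 = D.Y (i + 1) ⊔ maximalIdeal S ^ 2 := by
            apply eq_of_le_of_ilen_eq hsub (hfin i)
            rw [← coe_LL (hfin i), ← coe_LL (hfin (i + 1)), heq]
          apply hav i (hcon i)
          rw [heq', D.Y_succ]
          exact Ideal.mem_sup_left (Ideal.mem_sup_right (Ideal.mem_span_singleton_self _))
        have hle' := LL_anti hsub (hfin i)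
        omega
    have := hdec (LL (D.Y 0 ⊔ maximalIdeal S ^ 2) + 1)
    omega
  have hex : ∃ i, Done i := by
    obtain ⟨i, hi⟩ := hterm
    exact ⟨i, 1, fun j hj => AA_eq_of_sup_eq hi (hle i) hj⟩
  refine ⟨Nat.find hex, ?_, ?_⟩
  · obtain ⟨c, hc⟩ := Nat.find_spec hex
    have h1 := pow_le_of_GG_eq_zero (hle _) (hc c le_rfl)
    have h2 : maximalIdeal S ^ c ≤ D.Y (Nat.find hex) := le_trans h1 Ideal.mul_le_left
    exact ilen_ne_top_of_le h2 (ilen_pow_ne_top _)
  · intro top htop
    have hmin : ¬ Done top := Nat.find_min hex (by omega)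
    have hdone : Done (top + 1) := by
      rw [← htop]
      exact Nat.find_spec hex
    rw [htop]
    obtain ⟨c1, hc1⟩ := hdone
    obtain ⟨c2, hc2⟩ := hrec top
    let c0 := max (max c1 c2) 1
    have hc01 : c1 ≤ c0 := le_trans (le_max_left _ _) (le_max_left _ _)
    have hc02 : c2 ≤ c0 := le_trans (le_max_right _ _) (le_max_left _ _)
    have hc03 : 1 ≤ c0 := le_max_right _ _
    let E := GG (D.Y top) c0
    have hconst : ∀ s, GG (D.Y top) (c0 + s) = E := by
      intro s
      induction s with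
      | zero => rfl
      | succ s ih =>
        rw [← add_assoc, hc2 (c0 + s) (by omega), ih, hc1 (c0 + s + 1) (by omega)]
        rfl
    have hE1 : 1 ≤ E := by
      rw [Nat.one_le_iff_ne_zero]
      intro h0
      apply hmin
      refine ⟨c0, fun j hj => ?_⟩
      obtain ⟨s, rfl⟩ := Nat.exists_eq_add_of_le hj
      rw [hconst, h0]
    -- the upper bound
    have hup : ∀ μ : ℕ, ilen (D.Y top ⊔ Ideal.span {(D.y top) ^ μ})
        ≤ ((E * μ + ∑ j ∈ Finset.range c0, GG (D.Y top) j : ℕ) : ℕ∞) := by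
      intro μ
      -- `n^(c0 + μ)` lies in the ideal
      have hsub : maximalIdeal S ^ (c0 + μ) ≤ D.Y top ⊔ Ideal.span {(D.y top) ^ μ} := by
        induction μ with
        | zero =>
          have : Ideal.span {(D.y top) ^ 0} = (⊤ : Ideal S) := by simp
          rw [this]
          simp
        | succ μ ih =>
          have h1 := pow_le_of_GG_eq_zero (Y := D.Y (top + 1)) (j := c0 + μ + 1) (hle _)
            (hc1 _ (by omega))
          simp only [Nat.add_sub_cancel] at h1
          intro u hu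
          have hu' := h1 hu
          rw [D.Y_succ, Ideal.sup_mul, Submodule.mem_sup] at hu'
          obtain ⟨i, hi, t, ht, rfl⟩ := hu'
          refine Submodule.add_mem _ (Ideal.mem_sup_left (Ideal.mul_le_left hi)) ?_
          obtain ⟨v, hv, rfl⟩ := Ideal.mem_span_singleton_mul.mp ht
          obtain ⟨i', hi', t', ht', rfl⟩ := Submodule.mem_sup.mp (ih hv)
          obtain ⟨r, rfl⟩ := Ideal.mem_span_singleton'.mp ht'
          rw [mul_add]
          refine Submodule.add_mem _ (Ideal.mem_sup_left (Ideal.mul_mem_left _ _ hi')) ?_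
          refine Ideal.mem_sup_right (Ideal.mem_span_singleton'.mpr ⟨r, ?_⟩)
          ring
      have h2 : ilen (D.Y top ⊔ Ideal.span {(D.y top) ^ μ})
          ≤ ilen (D.Y top ⊔ maximalIdeal S ^ (c0 + μ)) := ilen_anti (sup_le le_sup_left hsub)
      refine le_trans h2 ?_
      have hfin : ilen (D.Y top ⊔ maximalIdeal S ^ (c0 + μ)) ≠ ⊤ :=
        ilen_ne_top_of_le le_sup_right (ilen_pow_ne_top _)
      rw [← coe_LL hfin]
      norm_cast
      refine le_trans (LL_sup_le_sum (hle top) (c0 + μ)) ?_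
      rw [Finset.sum_range_add]
      have : ∑ x ∈ Finset.range μ, GG (D.Y top) (c0 + x) = E * μ := by
        rw [Finset.sum_congr rfl (fun x _ => hconst x)]
        simp [mul_comm]
      rw [this, add_comm]
    -- the lower bound on the Hilbert functions
    have hlow : ∀ l i, i + l = top → ∃ c : ℕ, ∀ s, E * s ^ l ≤ l.factorial * GG (D.Y i) (c + s) := by
      intro l
      induction l with
      | zero =>
        intro i hi
        simp only [add_zero] at hi
        subst hi
        refine ⟨c0, fun s => ?_⟩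
        simp [hconst]
      | succ l ih =>
        intro i hi
        obtain ⟨c, hc⟩ := ih (i + 1) (by omega)
        obtain ⟨c', hc'⟩ := hrec i
        let c'' := max c c'
        refine ⟨c'', ?_⟩
        exact growth (a := GG (D.Y i)) (b := GG (D.Y (i + 1)))
          (fun j hj => hc' j (le_trans (le_max_right _ _) hj))
          (shift_bound (le_max_left _ _) hc)
    obtain ⟨c, hc⟩ := hlow top 0 (by omega)
    rw [D.Y_zero] at hc
    refine ⟨E, ∑ j ∈ Finset.range c0, GG (D.Y top) j, c + 1, hE1, hup, ?_⟩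
    have hA : ∀ j, c + 1 ≤ j → LL (maximalIdeal S ^ (j + 1)) = LL (maximalIdeal S ^ j)
        + (fun j => GG (⊥ : Ideal S) (j - 1)) (j + 1) := by
      intro j _
      simp only [Nat.add_sub_cancel]
      rw [GG_bot_sum, GG_bot_sum, Finset.sum_range_succ]
    exact growth (a := fun j => LL (maximalIdeal S ^ j)) (b := fun j => GG (⊥ : Ideal S) (j - 1))
      hA (fun s => by
        change E * s ^ top ≤ top.factorial * GG (⊥ : Ideal S) (c + 1 + s - 1)
        have : c + 1 + s - 1 = c + s := by omega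
        rw [this]
        exact hc s)

end Vale.Agent.Lib.P202
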