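import Vale.Agent.Lib.P202.Basic

namespace Vale.Agent.Lib.P202

open Module IsLocalRing

variable {S : Type*} [CommRing S]

lemma sup_mul_sup_le (A B Y : Ideal S) : (A ⊔ Y) * (B ⊔ Y) ≤ A * B ⊔ Y := by
  rw [Ideal.mul_le]
  intro r hr s hs
  obtain ⟨r1, hr1, r2, hr2, rfl⟩ := Submodule.mem_sup.mp hr
  obtain ⟨s1, hs1, s2, hs2, rfl⟩ := Submodule.mem_sup.mp hs
  have h : (r1 + r2) * (s1 + s2) = r1 * s1 + (r1 * s2 + r2 * (s1 + s2)) := by ring
  rw [h]
  refine Submodule.add_mem _ (Ideal.mem_sup_left (Ideal.mul_mem_mul hr1 hs1)) ?_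
  refine Ideal.mem_sup_right (Y.add_mem (Y.mul_mem_left _ hs2) (Y.mul_mem_right _ hr2))

lemma sup_pow_le (a Y : Ideal S) (N : ℕ) : (a ⊔ Y) ^ N ≤ a ^ N ⊔ Y := by
  induction N with
  | zero => simp
  | succ N ih =>
    rw [pow_succ, pow_succ]
    calc (a ⊔ Y) ^ N * (a ⊔ Y) ≤ (a ^ N ⊔ Y) * (a ⊔ Y) := Ideal.mul_mono_left ih
      _ ≤ a ^ N * a ⊔ Y := sup_mul_sup_le _ _ _

/-- One step of the nilpotent recursion. -/
lemma nil_step (a Y : Ideal S) (y : S) (ν N : ℕ) (hy : y ^ ν ∈ a ⊔ Y) :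
    ilen (a ^ (N + 1) ⊔ Y) ≤ (ν : ℕ∞) * ilen (a ^ (N + 1) ⊔ Y ⊔ Ideal.span {y}) + ilen (a ^ N ⊔ Y) := by
  have h1 := ilen_le_nsmul_add (a ^ (N + 1) ⊔ Y) y ν
  rw [nsmul_eq_mul] at h1
  refine le_trans h1 ?_
  gcongr
  apply ilen_anti
  intro u hu
  rw [mem_cln]
  have h2 : y ^ ν * u ∈ (a ⊔ Y) * (a ^ N ⊔ Y) := Ideal.mul_mem_mul hy hu
  have h3 : (a ⊔ Y) * (a ^ N ⊔ Y) ≤ a ^ (N + 1) ⊔ Y := by
    rw [pow_succ']
    exact sup_mul_sup_le _ _ _
  exact h3 h2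

/-- The nilpotent recursion. -/
lemma nil_rec (a Y : Ideal S) (y : S) (ν : ℕ) (hy : y ^ ν ∈ a ⊔ Y) (N : ℕ) :
    ilen (a ^ N ⊔ Y) ≤ (ν : ℕ∞) * ∑ M ∈ Finset.range N, ilen (a ^ (M + 1) ⊔ Y ⊔ Ideal.span {y}) := by
  induction N with
  | zero => simp [ilen_top]
  | succ N ih =>
    rw [Finset.sum_range_succ, mul_add]
    calc ilen (a ^ (N + 1) ⊔ Y)
        ≤ (ν : ℕ∞) * ilen (a ^ (N + 1) ⊔ Y ⊔ Ideal.span {y}) + ilen (a ^ N ⊔ Y) :=
          nil_step a Y y ν N hy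
      _ ≤ (ν : ℕ∞) * ilen (a ^ (N + 1) ⊔ Y ⊔ Ideal.span {y})
            + (ν : ℕ∞) * ∑ M ∈ Finset.range N, ilen (a ^ (M + 1) ⊔ Y ⊔ Ideal.span {y}) := by
          gcongr
      _ = _ := add_comm _ _

lemma pow_mul_mem_of_mem_cln_pow (Q : Ideal S) (z : S) (N : ℕ) {u : S}
    (hu : u ∈ (cln Q z) ^ N) : z ^ N * u ∈ Q ^ N := by
  induction N generalizing u with
  | zero => simp
  | succ N ih =>
    rw [pow_succ] at hu
    refine Submodule.mul_induction_on hu ?_ ?_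
    · intro m hm n hn
      have h1 := ih hm
      have h2 : z * n ∈ Q := hn
      have : z ^ (N + 1) * (m * n) = (z ^ N * m) * (z * n) := by ring
      rw [this, pow_succ]
      exact Ideal.mul_mem_mul h1 h2
    · intro p q hp hq
      rw [mul_add]
      exact Ideal.add_mem _ hp hq

/-- One step of the box recursion. -/
lemma box_aux (Q Y : Ideal S) (y : S) (N J : ℕ) (hJ : y ^ J ∈ Q) :
    ilen (Q ^ N ⊔ Y) ≤ (N : ℕ∞) * ∑ j ∈ Finset.range J, ilen ((cln Q (y ^ j)) ^ N ⊔ Y ⊔ Ideal.span {y}) := by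
  let W : ℕ → Ideal S := fun j => cln (Q ^ N ⊔ Y) (y ^ (N * j))
  have hW0 : W 0 = Q ^ N ⊔ Y := by simp [W, cln_one]
  have hWJ : W J = ⊤ := by
    apply cln_eq_top_of_mem
    have : y ^ (N * J) = (y ^ J) ^ N := by rw [← pow_mul, mul_comm]
    rw [this]
    exact Ideal.mem_sup_left (Ideal.pow_mem_pow hJ N)
  have hstep : ∀ j, ilen (W j) ≤ (N : ℕ∞) * ilen ((cln Q (y ^ j)) ^ N ⊔ Y ⊔ Ideal.span {y}) + ilen (W (j + 1)) := by
    intro j
    have h1 := ilen_le_nsmul_add (W j) y N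
    rw [nsmul_eq_mul] at h1
    have h2 : cln (W j) (y ^ N) = W (j + 1) := by
      simp only [W]
      rw [cln_cln, ← pow_add, mul_add, mul_one]
    rw [h2] at h1
    refine le_trans h1 ?_
    gcongr
    apply ilen_anti
    refine sup_le_sup_right (sup_le ?_ ?_) _
    · intro u hu
      rw [mem_cln]
      have := pow_mul_mem_of_mem_cln_pow Q (y ^ j) N hu
      rw [← pow_mul, mul_comm j N] at this
      exact Ideal.mem_sup_left this
    · intro u hu
      rw [mem_cln]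
      exact Ideal.mem_sup_right (Y.mul_mem_left _ hu)
  have hmain : ∀ K, ilen (W 0) ≤ (N : ℕ∞) * ∑ j ∈ Finset.range K, ilen ((cln Q (y ^ j)) ^ N ⊔ Y ⊔ Ideal.span {y}) + ilen (W K) := by
    intro K
    induction K with
    | zero => simp
    | succ K ih =>
      rw [Finset.sum_range_succ, mul_add, add_assoc]
      exact le_trans ih (by gcongr; exact hstep K)
  have := hmain J
  rw [hWJ, ilen_top, add_zero, hW0] at this
  exact this

/-- The exact decomposition of the length along powers of `y`. -/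
lemma ilen_sum_cln (Q : Ideal S) (y : S) (J : ℕ) :
    ∑ j ∈ Finset.range J, ilen (cln Q (y ^ j) ⊔ Ideal.span {y}) + ilen (cln Q (y ^ J)) = ilen Q := by
  induction J with
  | zero => simp [cln_one]
  | succ J ih =>
    rw [Finset.sum_range_succ, add_assoc, ← ih]
    congr 1
    rw [ilen_eq_add_cln (cln Q (y ^ J)) y, cln_cln, pow_succ]

/-- Data of a sequence of elements and the ideals they generate. -/
structure SeqData (S : Type*) [CommRing S] [IsLocalRing S] where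
  y : ℕ → S
  Y : ℕ → Ideal S
  Y_zero : Y 0 = ⊥
  Y_succ : ∀ i, Y (i + 1) = Y i ⊔ Ideal.span {y i}
  y_mem : ∀ i, y i ∈ maximalIdeal S

/-- The box bound (Lech's inequality, exact form). -/
lemma box_bound [IsLocalRing S] (D : SeqData S) (top E C : ℕ)
    (hE : ∀ μ : ℕ, ilen (D.Y top ⊔ Ideal.span {(D.y top) ^ μ}) ≤ ((E * μ + C : ℕ) : ℕ∞)) :
    ∀ k i : ℕ, i + k = top → ∀ Q : Ideal S, D.Y i ≤ Q → ilen Q ≠ ⊤ → ∀ N : ℕ, 1 ≤ N →
      ilen (Q ^ N ⊔ D.Y i) ≤ ((N ^ k * (E * N + C) : ℕ) : ℕ∞) * ilen Q := by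
  intro k
  induction k with
  | zero =>
    intro i hi Q hQ hfin N hN
    simp only [add_zero] at hi
    subst hi
    obtain ⟨c, hc⟩ := ENat.ne_top_iff_exists.mp hfin
    rw [← hc]
    by_cases hc0 : c = 0
    · subst hc0
      have hQt : Q = ⊤ := ilen_eq_zero_iff.mp (by rw [← hc]; simp)
      subst hQt
      have : ((⊤ : Ideal S) ^ N ⊔ D.Y i) = ⊤ := by
        rw [Ideal.top_pow]; simp
      rw [this, ilen_top]
      simp
    · have h1 : (D.y i) ^ c ∈ Q := pow_ilen_mem (D.y_mem i) hc.symm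
      have h2 : (D.y i) ^ (c * N) ∈ Q ^ N := by
        rw [pow_mul]; exact Ideal.pow_mem_pow h1 N
      have h3 : ilen (Q ^ N ⊔ D.Y i) ≤ ilen (D.Y i ⊔ Ideal.span {(D.y i) ^ (c * N)}) := by
        apply ilen_anti
        refine sup_le le_sup_right ?_
        rw [Ideal.span_singleton_le_iff_mem]
        exact Ideal.mem_sup_left h2
      refine le_trans h3 (le_trans (hE _) ?_)
      have hc1 : 1 ≤ c := Nat.one_le_iff_ne_zero.mpr hc0
      have : E * (c * N) + C ≤ N ^ 0 * (E * N + C) * c := by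
        have : C ≤ C * c := Nat.le_mul_of_pos_right _ hc1
        calc E * (c * N) + C ≤ E * (c * N) + C * c := by omega
          _ = N ^ 0 * (E * N + C) * c := by ring
      calc ((E * (c * N) + C : ℕ) : ℕ∞) ≤ ((N ^ 0 * (E * N + C) * c : ℕ) : ℕ∞) := by exact_mod_cast this
        _ = _ := by push_cast; ring
  | succ k ih =>
    intro i hi Q hQ hfin N hN
    obtain ⟨c, hc⟩ := ENat.ne_top_iff_exists.mp hfin
    have h1 : (D.y i) ^ c ∈ Q := pow_ilen_mem (D.y_mem i) hc.symm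
    have h2 := box_aux Q (D.Y i) (D.y i) N c h1
    refine le_trans h2 ?_
    have h3 : ∀ j ∈ Finset.range c, ilen ((cln Q ((D.y i) ^ j)) ^ N ⊔ D.Y i ⊔ Ideal.span {D.y i})
        ≤ ((N ^ k * (E * N + C) : ℕ) : ℕ∞) * ilen (cln Q ((D.y i) ^ j) ⊔ Ideal.span {D.y i}) := by
      intro j _
      have hQj : D.Y (i + 1) ≤ cln Q ((D.y i) ^ j) ⊔ Ideal.span {D.y i} := by
        rw [D.Y_succ]
        exact sup_le_sup_right (le_trans hQ (le_cln _ _)) _
      have hfin' : ilen (cln Q ((D.y i) ^ j) ⊔ Ideal.span {D.y i}) ≠ ⊤ := by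
        intro h
        have : ilen (cln Q ((D.y i) ^ j) ⊔ Ideal.span {D.y i}) ≤ ilen Q :=
          ilen_anti (le_trans (le_cln _ _) le_sup_left)
        rw [h, top_le_iff] at this
        exact hfin this
      have h4 := ih (i + 1) (by omega) _ hQj hfin' N hN
      refine le_trans (ilen_anti ?_) h4
      rw [D.Y_succ]
      intro w hw
      obtain ⟨w1, hw1, w2, hw2, rfl⟩ := Submodule.mem_sup.mp hw
      obtain ⟨w3, hw3, w4, hw4, rfl⟩ := Submodule.mem_sup.mp (sup_pow_le _ _ _ hw1)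
      obtain ⟨w5, hw5, w6, hw6, rfl⟩ := Submodule.mem_sup.mp hw2
      have hA : w3 + w5 ∈ (cln Q ((D.y i) ^ j)) ^ N ⊔ D.Y i :=
        Submodule.add_mem _ (Ideal.mem_sup_left hw3) (Ideal.mem_sup_right hw5)
      have hB : w4 + w6 ∈ Ideal.span {D.y i} := Submodule.add_mem _ hw4 hw6
      have : w3 + w4 + (w5 + w6) = (w3 + w5) + (w4 + w6) := by ring
      rw [this]
      exact Submodule.add_mem _ (Ideal.mem_sup_left hA) (Ideal.mem_sup_right hB)
    have h5 : ∑ j ∈ Finset.range c, ilen ((cln Q ((D.y i) ^ j)) ^ N ⊔ D.Y i ⊔ Ideal.span {D.y i})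
        ≤ ((N ^ k * (E * N + C) : ℕ) : ℕ∞) * ilen Q := by
      refine le_trans (Finset.sum_le_sum h3) ?_
      rw [← Finset.mul_sum]
      gcongr
      rw [← ilen_sum_cln Q (D.y i) c]
      exact le_self_add
    calc (N : ℕ∞) * ∑ j ∈ Finset.range c, ilen ((cln Q ((D.y i) ^ j)) ^ N ⊔ D.Y i ⊔ Ideal.span {D.y i})
        ≤ (N : ℕ∞) * (((N ^ k * (E * N + C) : ℕ) : ℕ∞) * ilen Q) := by gcongr
      _ = ((N ^ (k + 1) * (E * N + C) : ℕ) : ℕ∞) * ilen Q := by
        push_cast; ring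

end Vale.Agent.Lib.P202
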