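import Vale.Agent.Lib.P202.Avoid

namespace Vale.Agent.Lib.P202

open Module IsLocalRing Polynomial

variable {S : Type*} [CommRing S] [IsLocalRing S]

/-- The degree `j` part `n^(j+1) + Y n^(j-1)` of the ideal of the Rees algebra
defining the associated graded ring modulo `Y`. -/
def AA (Y : Ideal S) (j : ℕ) : Ideal S :=
  maximalIdeal S ^ (j + 1) ⊔ Y * maximalIdeal S ^ (j - 1)

lemma AA_mul (Y : Ideal S) {j l : ℕ} {u b : S} (hu : u ∈ AA Y j)
    (hb : b ∈ maximalIdeal S ^ l) : u * b ∈ AA Y (j + l) := by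
  unfold AA at hu ⊢
  obtain ⟨u1, hu1, u2, hu2, rfl⟩ := Submodule.mem_sup.mp hu
  rw [add_mul]
  refine Submodule.add_mem _ (Ideal.mem_sup_left ?_) (Ideal.mem_sup_right ?_)
  · have := Ideal.mul_mem_mul hu1 hb
    rw [← pow_add] at this
    have h : j + 1 + l = j + l + 1 := by ring
    rwa [h] at this
  · have h1 : u2 * b ∈ Y * maximalIdeal S ^ (j - 1) * maximalIdeal S ^ l := Ideal.mul_mem_mul hu2 hb
    rw [mul_assoc, ← pow_add] at h1
    exact Ideal.mul_mono_right (Ideal.pow_le_pow_right (by omega)) h1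

lemma AA_le (Y : Ideal S) (hY : Y ≤ maximalIdeal S) (j : ℕ) : AA Y j ≤ maximalIdeal S ^ j := by
  unfold AA
  refine sup_le (Ideal.pow_le_pow_right (by omega)) ?_
  rcases j with _ | j
  · simp
  · simp only [Nat.add_sub_cancel]
    rw [pow_succ']
    exact Ideal.mul_mono_left hY

lemma le_AA (Y : Ideal S) (j : ℕ) : maximalIdeal S ^ (j + 1) ≤ AA Y j := le_sup_left

/-- The torsion part in degree `j`. -/
def ZJ (Y : Ideal S) (j : ℕ) : Ideal S where
  carrier := {a | a ∈ maximalIdeal S ^ j ∧ ∃ r, ∀ b ∈ maximalIdeal S ^ r, a * b ∈ AA Y (j + r)}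
  add_mem' := by
    rintro a b ⟨ha, r, hr⟩ ⟨hb, s, hs⟩
    refine ⟨Ideal.add_mem _ ha hb, r + s, ?_⟩
    intro c hc
    rw [add_mul]
    refine Ideal.add_mem _ ?_ ?_
    · have hc' : c ∈ maximalIdeal S ^ r * maximalIdeal S ^ s := by rwa [← pow_add]
      refine Submodule.mul_induction_on hc' ?_ ?_
      · intro x hx z hz
        have h1 := AA_mul Y (hr x hx) hz
        rw [← mul_assoc]
        have : j + (r + s) = j + r + s := by ring
        rwa [this]
      · intro x z hx hz
        rw [mul_add]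
        exact Ideal.add_mem _ hx hz
    · have hc' : c ∈ maximalIdeal S ^ s * maximalIdeal S ^ r := by rwa [← pow_add, add_comm]
      refine Submodule.mul_induction_on hc' ?_ ?_
      · intro x hx z hz
        have h1 := AA_mul Y (hs x hx) hz
        rw [← mul_assoc]
        have : j + (r + s) = j + s + r := by ring
        rwa [this]
      · intro x z hx hz
        rw [mul_add]
        exact Ideal.add_mem _ hx hz
  zero_mem' := ⟨Ideal.zero_mem _, 0, fun b _ => by simp⟩
  smul_mem' := by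
    rintro s a ⟨ha, r, hr⟩
    refine ⟨Ideal.mul_mem_left _ s ha, r, fun b hb => ?_⟩
    rw [smul_eq_mul, mul_assoc]
    exact Ideal.mul_mem_left _ s (hr b hb)

lemma mem_ZJ {Y : Ideal S} {j : ℕ} {a : S} :
    a ∈ ZJ Y j ↔ a ∈ maximalIdeal S ^ j ∧ ∃ r, ∀ b ∈ maximalIdeal S ^ r, a * b ∈ AA Y (j + r) :=
  Iff.rfl

lemma ZJ_up {Y : Ideal S} {j r r' : ℕ} {a : S}
    (h : ∀ b ∈ maximalIdeal S ^ r, a * b ∈ AA Y (j + r)) (hr : r ≤ r') :
    ∀ b ∈ maximalIdeal S ^ r', a * b ∈ AA Y (j + r') := by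
  intro c hc
  obtain ⟨s, rfl⟩ := Nat.exists_eq_add_of_le hr
  have hc' : c ∈ maximalIdeal S ^ r * maximalIdeal S ^ s := by rwa [← pow_add]
  refine Submodule.mul_induction_on hc' ?_ ?_
  · intro x hx z hz
    have h1 := AA_mul Y (h x hx) hz
    rw [← mul_assoc]
    have : j + (r + s) = j + r + s := by ring
    rwa [this]
  · intro x z hx hz
    rw [mul_add]
    exact Ideal.add_mem _ hx hz

lemma ZJ_mul {Y : Ideal S} {j l : ℕ} {a b : S} (ha : a ∈ ZJ Y j) (hb : b ∈ maximalIdeal S ^ l) :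
    a * b ∈ ZJ Y (j + l) := by
  obtain ⟨ha1, r, hr⟩ := ha
  refine ⟨?_, r, ?_⟩
  · rw [pow_add]; exact Ideal.mul_mem_mul ha1 hb
  · intro c hc
    have h1 := ZJ_up hr (by omega : r ≤ l + r) (b * c) (by rw [pow_add]; exact Ideal.mul_mem_mul hb hc)
    rw [mul_assoc]
    have : j + l + r = j + (l + r) := by ring
    rwa [this]

/-- The Rees algebra of the maximal ideal. -/
abbrev RR (S : Type*) [CommRing S] [IsLocalRing S] := ↥(reesAlgebra (maximalIdeal S))

lemma coeff_mem_RR (p : RR S) (j : ℕ) : p.1.coeff j ∈ maximalIdeal S ^ j :=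
  (mem_reesAlgebra_iff _ _).mp p.2 j

/-- The homogeneous ideal of the Rees algebra whose pieces are the `ZJ`. -/
def ZI (Y : Ideal S) : Ideal (RR S) where
  carrier := {p | ∀ j, p.1.coeff j ∈ ZJ Y j}
  add_mem' := by
    intro a b ha hb j
    have : (a + b).1.coeff j = a.1.coeff j + b.1.coeff j := by
      rw [Subalgebra.coe_add, coeff_add]
    rw [this]
    exact Ideal.add_mem _ (ha j) (hb j)
  zero_mem' := by
    intro j
    simp
  smul_mem' := by
    intro c p hp j
    have : (c • p).1.coeff j = ∑ x ∈ Finset.HasAntidiagonal.antidiagonal j, c.1.coeff x.1 * p.1.coeff x.2 := by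
      rw [smul_eq_mul, Subalgebra.coe_mul, coeff_mul]
    rw [this]
    refine Ideal.sum_mem _ fun x hx => ?_
    have hx' := Finset.HasAntidiagonal.mem_antidiagonal.mp hx
    rw [← hx', add_comm, mul_comm]
    exact ZJ_mul (hp _) (coeff_mem_RR c _)

lemma mem_ZI {Y : Ideal S} {p : RR S} : p ∈ ZI Y ↔ ∀ j, p.1.coeff j ∈ ZJ Y j := Iff.rfl

/-- A monomial in the Rees algebra. -/
noncomputable def mono (j : ℕ) (a : S) (ha : a ∈ maximalIdeal S ^ j) : RR S :=
  ⟨Polynomial.monomial j a, reesAlgebra.monomial_mem.mpr ha⟩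

lemma mono_coeff (j : ℕ) (a : S) (ha : a ∈ maximalIdeal S ^ j) (i : ℕ) :
    (mono j a ha).1.coeff i = if j = i then a else 0 := by
  simp [mono, coeff_monomial]

lemma mono_mem_ZI {Y : Ideal S} {j : ℕ} {a : S} (ha : a ∈ maximalIdeal S ^ j) :
    mono j a ha ∈ ZI Y ↔ a ∈ ZJ Y j := by
  constructor
  · intro h
    have := h j
    rwa [mono_coeff, if_pos rfl] at this
  · intro h i
    rw [mono_coeff]
    split_ifs with hij
    · subst hij; exact h
    · exact Ideal.zero_mem _

/-- Degree one monomials. -/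
noncomputable def mono1 (b : S) (hb : b ∈ maximalIdeal S) : RR S :=
  mono 1 b (by simpa using hb)

lemma mono1_mul_coeff (b : S) (hb : b ∈ maximalIdeal S) (q : RR S) (j : ℕ) :
    (mono1 b hb * q).1.coeff (j + 1) = b * q.1.coeff j := by
  change ((Polynomial.monomial 1 b) * q.1).coeff (j + 1) = _
  rw [coeff_monomial_mul]

/-- If `n q ⊆ Z` in every degree then `q ∈ Z`. -/
lemma mem_ZI_of_mono1_mul (Y : Ideal S) [IsNoetherianRing S] (q : RR S)
    (h : ∀ (b : S) (hb : b ∈ maximalIdeal S), mono1 b hb * q ∈ ZI Y) : q ∈ ZI Y := by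
  intro j
  refine ⟨coeff_mem_RR q j, ?_⟩
  obtain ⟨s, g, hg⟩ := Submodule.fg_iff_exists_fin_generating_family.mp
    (IsNoetherian.noetherian (maximalIdeal S))
  have hgmem : ∀ l, g l ∈ maximalIdeal S := fun l => by
    rw [← hg]; exact Submodule.subset_span ⟨l, rfl⟩
  have h1 : ∀ l, ∃ r, ∀ b ∈ maximalIdeal S ^ r,
      g l * q.1.coeff j * b ∈ AA Y (j + 1 + r) := by
    intro l
    have := h (g l) (hgmem l) (j + 1)
    rw [mono1_mul_coeff] at this
    exact this.2
  choose r hr using h1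
  let R := ∑ l, r l
  have hR : ∀ l, r l ≤ R := fun l => Finset.single_le_sum (fun _ _ => Nat.zero_le _) (Finset.mem_univ l)
  refine ⟨R + 1, ?_⟩
  intro c hc
  have hc' : c ∈ maximalIdeal S * maximalIdeal S ^ R := by
    rwa [← pow_succ']
  refine Submodule.mul_induction_on hc' ?_ ?_
  · intro x hx z hz
    have hx' : x ∈ Submodule.span S (Set.range g) := by rw [hg]; exact hx
    refine Submodule.span_induction (p := fun x _ => q.1.coeff j * (x * z) ∈ AA Y (j + (R + 1)))
      ?_ ?_ ?_ ?_ hx'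
    · rintro _ ⟨l, rfl⟩
      have h2 := ZJ_up (hr l) (hR l) z hz
      have h3 : j + 1 + R = j + (R + 1) := by ring
      rw [h3] at h2
      have h4 : q.1.coeff j * (g l * z) = g l * q.1.coeff j * z := by ring
      rw [h4]
      exact h2
    · simp
    · intro a b _ _ ha hb
      rw [add_mul, mul_add]
      exact Ideal.add_mem _ ha hb
    · intro t a _ ha
      have : q.1.coeff j * (t • a * z) = t * (q.1.coeff j * (a * z)) := by
        rw [smul_eq_mul]; ring
      rw [this]
      exact Ideal.mul_mem_left _ t ha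
  · intro x z hx hz
    rw [mul_add]
    exact Ideal.add_mem _ hx hz

/-- The ideal of elements `b ∈ n` whose degree one monomial lies in `P`. -/
def WP (P : Ideal (RR S)) : Ideal S where
  carrier := {b | ∃ hb : b ∈ maximalIdeal S, mono1 b hb ∈ P}
  add_mem' := by
    rintro a b ⟨ha, hPa⟩ ⟨hb, hPb⟩
    refine ⟨Ideal.add_mem _ ha hb, ?_⟩
    have : mono1 (a + b) (Ideal.add_mem _ ha hb) = mono1 a ha + mono1 b hb := by
      apply Subtype.ext
      simp [mono1, mono]
    rw [this]
    exact Ideal.add_mem _ hPa hPb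
  zero_mem' := by
    refine ⟨Ideal.zero_mem _, ?_⟩
    have : mono1 (0 : S) (Ideal.zero_mem _) = 0 := by
      apply Subtype.ext
      simp [mono1, mono]
    rw [this]
    exact Ideal.zero_mem _
  smul_mem' := by
    rintro s b ⟨hb, hP⟩
    refine ⟨Ideal.mul_mem_left _ s hb, ?_⟩
    have : mono1 (s • b) (Ideal.mul_mem_left _ s hb) = algebraMap S (RR S) s * mono1 b hb := by
      apply Subtype.ext
      simp [mono1, mono, Polynomial.C_mul_monomial]
    rw [this]
    exact Ideal.mul_mem_left _ _ hP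

lemma mem_WP {P : Ideal (RR S)} {b : S} : b ∈ WP P ↔ ∃ hb : b ∈ maximalIdeal S, mono1 b hb ∈ P :=
  Iff.rfl

lemma WP_le (P : Ideal (RR S)) : WP P ≤ maximalIdeal S := fun _ h => h.1

lemma C_mem_ZI (Y : Ideal S) {b : S} (hb : b ∈ maximalIdeal S) :
    algebraMap S (RR S) b ∈ ZI Y := by
  intro j
  rcases j with _ | j
  · have h0 : (algebraMap S (RR S) b).1.coeff 0 = b := by
      change (Polynomial.C b).coeff 0 = b
      simp
    rw [h0]
    refine ⟨by simp, 0, ?_⟩
    intro c _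
    have : b * c ∈ maximalIdeal S := Ideal.mul_mem_right _ _ hb
    apply le_AA Y 0
    simpa using this
  · have h0 : (algebraMap S (RR S) b).1.coeff (j + 1) = 0 := by
      change (Polynomial.C b).coeff (j + 1) = 0
      simp
    rw [h0]
    exact Ideal.zero_mem _

lemma sq_le_WP (Y : Ideal S) {P : Ideal (RR S)} (hP : ZI Y ≤ P) :
    maximalIdeal S ^ 2 ≤ WP P := by
  rw [pow_two, Ideal.mul_le]
  intro a ha b hb
  have hab : a * b ∈ maximalIdeal S := Ideal.mul_mem_left _ _ hb
  refine ⟨hab, ?_⟩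
  have : mono1 (a * b) hab = algebraMap S (RR S) a * mono1 b hb := by
    apply Subtype.ext
    simp [mono1, mono, Polynomial.C_mul_monomial]
  rw [this]
  exact Ideal.mul_mem_right _ _ (hP (C_mem_ZI Y ha))

/-- Properties of an associated prime of `RR / Z`. -/
lemma assoc_props [IsNoetherianRing S] (Y : Ideal S) {P : Ideal (RR S)}
    [IsNoetherianRing (RR S)]
    (hP : P ∈ associatedPrimes (RR S) (RR S ⧸ ZI Y)) :
    ZI Y ≤ P ∧ WP P ≠ maximalIdeal S := by
  have h1 : IsAssociatedPrime P (RR S ⧸ ZI Y) := hP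
  obtain ⟨hprime, x, hx⟩ := (Submodule.isAssociatedPrime_iff (R := RR S)).mp h1
  obtain ⟨q, rfl⟩ := Submodule.Quotient.mk_surjective _ x
  have hcolon : ∀ r : RR S, r ∈ P ↔ r * q ∈ ZI Y := by
    intro r
    rw [hx, Submodule.mem_colon_singleton, Submodule.mem_bot, ← Submodule.Quotient.mk_smul,
      Submodule.Quotient.mk_eq_zero, smul_eq_mul]
  constructor
  · intro z hz
    rw [hcolon]
    exact Ideal.mul_mem_right _ _ hz
  · intro hW
    apply hprime.ne_top
    rw [Ideal.eq_top_iff_one, hcolon, one_mul]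
    apply mem_ZI_of_mono1_mul
    intro b hb
    have : b ∈ WP P := by rw [hW]; exact hb
    obtain ⟨_, h2⟩ := this
    exact (hcolon _).mp h2

set_option synthInstance.maxHeartbeats 200000 in
/-- The key choice: a superficial-type element modulo `Y`. -/
theorem step [IsNoetherianRing S] [Infinite (ResidueField S)]
    (Y : Ideal S) (W : Finset (Ideal S))
    (hW : ∀ w ∈ W, maximalIdeal S ^ 2 ≤ w ∧ w ≠ maximalIdeal S ∧ w ≤ maximalIdeal S) :
    ∃ y ∈ maximalIdeal S, (∀ w ∈ W, y ∉ w) ∧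
      ∃ c : ℕ, ∀ j, c ≤ j → ∀ u ∈ maximalIdeal S ^ j, y * u ∈ AA Y (j + 1) → u ∈ AA Y j := by
  classical
  have instFT : Algebra.FiniteType S (RR S) :=
    (Subalgebra.fg_iff_finiteType _).mp (reesAlgebra.fg (IsNoetherian.noetherian _))
  have instNoeth : IsNoetherianRing (RR S) := Algebra.FiniteType.isNoetherianRing S (RR S)
  have hfin := associatedPrimes.finite (RR S) (RR S ⧸ ZI Y)
  let F : Finset (Ideal S) := hfin.toFinset.image WP ∪ W
  have hF : ∀ w ∈ F, maximalIdeal S ^ 2 ≤ w ∧ w ≠ maximalIdeal S ∧ w ≤ maximalIdeal S := by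
    intro w hw
    rcases Finset.mem_union.mp hw with h | h
    · obtain ⟨P, hP, rfl⟩ := Finset.mem_image.mp h
      have hP' := hfin.mem_toFinset.mp hP
      obtain ⟨h1, h2⟩ := assoc_props Y hP'
      exact ⟨sq_le_WP Y h1, h2, WP_le P⟩
    · exact hW w h
  obtain ⟨y, hy, hyF⟩ := exists_avoid F hF
  refine ⟨y, hy, fun w hw => hyF w (Finset.mem_union_right _ hw), ?_⟩
  -- multiplication by `y X` is injective modulo `Z`
  have hinj : ∀ p : RR S, mono1 y hy * p ∈ ZI Y → p ∈ ZI Y := by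
    intro p hp
    by_contra hpZ
    have hx : (Submodule.Quotient.mk p : RR S ⧸ ZI Y) ≠ 0 := by
      rwa [Ne, Submodule.Quotient.mk_eq_zero]
    obtain ⟨P, hP, hle⟩ := exists_le_isAssociatedPrime_of_isNoetherianRing (RR S) _ hx
    have hmem : mono1 y hy ∈ (⊥ : Submodule (RR S) (RR S ⧸ ZI Y)).colon
        {(Submodule.Quotient.mk p : RR S ⧸ ZI Y)} := by
      rw [Submodule.mem_colon_singleton, Submodule.mem_bot, ← Submodule.Quotient.mk_smul,
        Submodule.Quotient.mk_eq_zero, smul_eq_mul]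
      exact hp
    have hyP : y ∈ WP P := ⟨hy, hle hmem⟩
    exact hyF (WP P) (Finset.mem_union_left _
      (Finset.mem_image_of_mem _ (hfin.mem_toFinset.mpr hP))) hyP
  -- homogeneous generators of `Z`
  let Gen : Set (RR S) := {p | ∃ (j : ℕ) (a : S) (ha : a ∈ maximalIdeal S ^ j), a ∈ ZJ Y j ∧ p = mono j a ha}
  have hspan : (ZI Y : Ideal (RR S)) = Submodule.span (RR S) Gen := by
    apply le_antisymm
    · intro p hp
      have hsum : p = ∑ j ∈ p.1.support, mono j (p.1.coeff j) (coeff_mem_RR p j) := by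
        apply Subtype.ext
        rw [AddSubmonoidClass.coe_finsetSum]
        exact (Polynomial.sum_monomial_eq p.1).symm.trans (by
          simp [Polynomial.sum_def, mono])
      rw [hsum]
      refine Submodule.sum_mem _ fun j _ => Submodule.subset_span ?_
      exact ⟨j, _, _, hp j, rfl⟩
    · rw [Submodule.span_le]
      rintro p ⟨j, a, ha, haZ, rfl⟩
      exact (mono_mem_ZI ha).mpr haZ
  have hfg : (Submodule.span (RR S) Gen).FG := IsNoetherian.noetherian _
  obtain ⟨s', hs', hs'span⟩ := (Submodule.fg_span_iff_fg_span_finset_subset Gen).mp hfg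
  -- bounds on the generators
  have hbound : ∃ c : ℕ, ∀ g ∈ s', ∃ (j : ℕ) (a : S) (ha : a ∈ maximalIdeal S ^ j) (r : ℕ),
      g = mono j a ha ∧ j + r ≤ c ∧ ∀ b ∈ maximalIdeal S ^ r, a * b ∈ AA Y (j + r) := by
    have hgen : ∀ g : RR S, g ∈ s' → ∃ n : ℕ, ∃ (j : ℕ) (a : S) (ha : a ∈ maximalIdeal S ^ j) (r : ℕ),
        g = mono j a ha ∧ j + r = n ∧ ∀ b ∈ maximalIdeal S ^ r, a * b ∈ AA Y (j + r) := by
      intro g hg
      obtain ⟨j, a, ha, ⟨_, r, hr⟩, rfl⟩ := hs' hg
      exact ⟨j + r, j, a, ha, r, rfl, rfl, hr⟩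
    choose! n hn using hgen
    refine ⟨s'.sup n, fun g hg => ?_⟩
    obtain ⟨j, a, ha, r, h1, h2, h3⟩ := hn g hg
    exact ⟨j, a, ha, r, h1, by rw [h2]; exact Finset.le_sup (f := n) hg, h3⟩
  obtain ⟨c, hc⟩ := hbound
  refine ⟨c, ?_⟩
  -- elements of `Z` have coefficients in `AA` in high degree
  have hZA : ∀ p ∈ ZI Y, ∀ j, c ≤ j → p.1.coeff j ∈ AA Y j := by
    intro p hp j hj
    rw [hspan, hs'span] at hp
    obtain ⟨f, -, rfl⟩ := Submodule.mem_span_finset.mp hp
    rw [AddSubmonoidClass.coe_finsetSum, Polynomial.finsetSum_coeff]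
    refine Ideal.sum_mem _ fun g hg => ?_
    obtain ⟨i, a, ha, r, rfl, h2, h3⟩ := hc g hg
    have hcoe : ((f (mono i a ha) • mono i a ha : RR S) : S[X])
        = (f (mono i a ha)).1 * Polynomial.monomial i a := by
      rw [smul_eq_mul, Subalgebra.coe_mul]
      rfl
    rw [hcoe]
    by_cases hij : i ≤ j
    · obtain ⟨l, rfl⟩ := Nat.exists_eq_add_of_le hij
      have : l + i = i + l := add_comm _ _
      rw [← this, coeff_mul_monomial, this, mul_comm]
      have h4 : r ≤ l := by omega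
      exact ZJ_up h3 h4 _ (coeff_mem_RR _ _)
    · rw [← Polynomial.C_mul_X_pow_eq_monomial, ← mul_assoc, Polynomial.coeff_mul_X_pow', if_neg hij]
      exact Ideal.zero_mem _
  intro j hj u hu hyu
  have h1 : mono (j + 1) (y * u) (by
      rw [pow_succ']; exact Ideal.mul_mem_mul hy hu) ∈ ZI Y := by
    rw [mono_mem_ZI]
    refine ⟨by rw [pow_succ']; exact Ideal.mul_mem_mul hy hu, 0, fun b _ => ?_⟩
    simpa using (Ideal.mul_mem_right b _ hyu)
  have h2 : mono1 y hy * mono j u hu = mono (j + 1) (y * u) (by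
      rw [pow_succ']; exact Ideal.mul_mem_mul hy hu) := by
    apply Subtype.ext
    change (Polynomial.monomial 1 y) * (Polynomial.monomial j u) = Polynomial.monomial (j + 1) (y * u)
    rw [Polynomial.monomial_mul_monomial, add_comm]
  have h3 := hinj _ (by rw [h2]; exact h1)
  have h4 := hZA _ h3 j hj
  rwa [mono_coeff, if_pos rfl] at h4

end Vale.Agent.Lib.P202
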