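import Vale.Agent.Lib.P202.Rees

namespace Vale.Agent.Lib.P202

open Module IsLocalRing

variable {S : Type*} [CommRing S] [IsLocalRing S]

section Finite

lemma ilen_ne_top_of_le {I J : Ideal S} (h : I ≤ J) (hI : ilen I ≠ ⊤) : ilen J ≠ ⊤ := by
  intro hJ
  have := ilen_anti h
  rw [hJ, top_le_iff] at this
  exact hI this

variable [IsNoetherianRing S]

lemma ilen_pow_ne_top (j : ℕ) : ilen (maximalIdeal S ^ j) ≠ ⊤ := by
  induction j with
  | zero => simp [ilen_top]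
  | succ j ih =>
    obtain ⟨H, _, _, _, h⟩ := exists_indep (U := maximalIdeal S ^ j) (V := maximalIdeal S ^ (j + 1))
      (Ideal.pow_le_pow_right (by omega)) (by rw [pow_succ'])
    rw [h]
    exact WithTop.add_ne_top.mpr ⟨ENat.natCast_ne_top _, ih⟩

end Finite

/-- Equal finite colength and inclusion give equality. -/
lemma eq_of_le_of_ilen_eq {I J : Ideal S} (h : I ≤ J) (hI : ilen I ≠ ⊤) (hIJ : ilen I = ilen J) :
    I = J := by
  have h1 := ilen_eq_length_add (V := I) (U := J) h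
  have hJ : ilen J ≠ ⊤ := ilen_ne_top_of_le h hI
  have h2 : Module.length S ((↥J) ⧸ (Submodule.comap J.subtype I)) = 0 := by
    rw [hIJ] at h1
    have h3 : 0 + ilen J = Module.length S ((↥J) ⧸ (Submodule.comap J.subtype I)) + ilen J := by
      rw [zero_add]; exact h1
    exact ((WithTop.add_right_inj hJ).mp h3).symm
  rw [Module.length_eq_zero_iff] at h2
  refine le_antisymm h ?_
  intro u hu
  have h3 : (Submodule.Quotient.mk ⟨u, hu⟩ : (↥J) ⧸ (Submodule.comap J.subtype I)) = 0 :=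
    Subsingleton.elim _ _
  rw [Submodule.Quotient.mk_eq_zero] at h3
  exact h3

/-- Natural number valued colength. -/
noncomputable def LL (I : Ideal S) : ℕ := (ilen I).toNat

lemma coe_LL {I : Ideal S} (h : ilen I ≠ ⊤) : ((LL I : ℕ) : ℕ∞) = ilen I := ENat.natCast_toNat h

lemma LL_anti {I J : Ideal S} (h : I ≤ J) (hI : ilen I ≠ ⊤) : LL J ≤ LL I :=
  ENat.toNat_le_toNat (ilen_anti h) hI

/-- The Hilbert function of the associated graded ring modulo `Y`. -/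
noncomputable def GG (Y : Ideal S) (j : ℕ) : ℕ := LL (AA Y j) - LL (maximalIdeal S ^ j)

variable [IsNoetherianRing S]

lemma ilen_AA_ne_top (Y : Ideal S) (j : ℕ) : ilen (AA Y j) ≠ ⊤ :=
  ilen_ne_top_of_le (le_AA Y j) (ilen_pow_ne_top _)

lemma LL_pow_le_LL_AA {Y : Ideal S} (hY : Y ≤ maximalIdeal S) (j : ℕ) :
    LL (maximalIdeal S ^ j) ≤ LL (AA Y j) :=
  LL_anti (AA_le Y hY j) (ilen_AA_ne_top Y j)

lemma AA_sup_span_eq (Y : Ideal S) (y : S) (j : ℕ) (w : S) :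
    w ∈ AA (Y ⊔ Ideal.span {y}) (j + 1) ↔
      ∃ i ∈ AA Y (j + 1), ∃ u ∈ maximalIdeal S ^ j, w = i + y * u := by
  unfold AA
  simp only [Nat.add_sub_cancel]
  rw [Ideal.sup_mul, ← sup_assoc, Submodule.mem_sup]
  constructor
  · rintro ⟨i, hi, t, ht, rfl⟩
    obtain ⟨u, hu, rfl⟩ := Ideal.mem_span_singleton_mul.mp ht
    exact ⟨i, hi, u, hu, rfl⟩
  · rintro ⟨i, hi, u, hu, rfl⟩
    exact ⟨i, hi, y * u, Ideal.mem_span_singleton_mul.mpr ⟨u, hu, rfl⟩, rfl⟩

/-- The recurrence for the Hilbert function. -/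
lemma GG_succ {Y : Ideal S} {y : S} (hY : Y ≤ maximalIdeal S) (hy : y ∈ maximalIdeal S) {j : ℕ}
    (hinj : ∀ u ∈ maximalIdeal S ^ j, y * u ∈ AA Y (j + 1) → u ∈ AA Y j) :
    GG Y (j + 1) = GG Y j + GG (Y ⊔ Ideal.span {y}) (j + 1) := by
  have hY' : Y ⊔ Ideal.span {y} ≤ maximalIdeal S :=
    sup_le hY ((Ideal.span_singleton_le_iff_mem _).mpr hy)
  have hy1 : y ∈ maximalIdeal S ^ 1 := by simpa using hy
  have hmain := ilen_add_eq_add (P := AA Y j) (U := maximalIdeal S ^ j) (I := AA Y (j + 1))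
    (I' := AA (Y ⊔ Ideal.span {y}) (j + 1)) y (AA_le Y hY j)
    (by
      intro u hu
      constructor
      · intro h
        rw [mul_comm]
        exact AA_mul Y h hy1
      · exact hinj u hu)
    (by
      intro w hw
      exact (AA_sup_span_eq Y y j w).mpr ⟨w, hw, 0, Ideal.zero_mem _, by simp⟩)
    (AA_sup_span_eq Y y j)
  rw [← coe_LL (ilen_AA_ne_top Y j), ← coe_LL (ilen_AA_ne_top _ (j + 1)),
    ← coe_LL (ilen_pow_ne_top j), ← coe_LL (ilen_AA_ne_top Y (j + 1))] at hmain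
  norm_cast at hmain
  have h1 := LL_pow_le_LL_AA hY j
  have h2 := LL_pow_le_LL_AA hY (j + 1)
  have h3 := LL_pow_le_LL_AA hY' (j + 1)
  unfold GG
  omega

lemma AA_bot (j : ℕ) : AA (⊥ : Ideal S) j = maximalIdeal S ^ (j + 1) := by
  unfold AA
  simp

lemma GG_bot_sum (N : ℕ) : LL (maximalIdeal S ^ N) = ∑ j ∈ Finset.range N, GG (⊥ : Ideal S) j := by
  induction N with
  | zero => simp [LL, ilen_top]
  | succ N ih =>
    rw [Finset.sum_range_succ, ← ih]
    unfold GG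
    rw [AA_bot]
    have := LL_anti (Ideal.pow_le_pow_right (by omega : N ≤ N + 1)) (ilen_pow_ne_top (S := S) (N + 1))
    omega

/-- Finished in degree `j ≥ 1` when `Y + n^2 = n`. -/
lemma AA_eq_of_sup_eq {Y : Ideal S} (h : Y ⊔ maximalIdeal S ^ 2 = maximalIdeal S) (hY : Y ≤ maximalIdeal S) {j : ℕ}
    (hj : 1 ≤ j) : GG Y j = 0 := by
  obtain ⟨j, rfl⟩ := Nat.exists_eq_add_of_le' hj
  have : AA Y (j + 1) = maximalIdeal S ^ (j + 1) := by
    refine le_antisymm (AA_le Y hY _) ?_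
    unfold AA
    simp only [Nat.add_sub_cancel]
    have h2 : maximalIdeal S ^ (j + 1) = (Y ⊔ maximalIdeal S ^ 2) * maximalIdeal S ^ j := by
      rw [h, pow_succ']
    rw [h2, Ideal.sup_mul, sup_comm]
    refine sup_le_sup_right ?_ _
    rw [← pow_add]
    exact Ideal.pow_le_pow_right (by omega)
  unfold GG
  rw [this]
  omega

/-- The length of `S/(Y + n^(j+1))` grows by at most the Hilbert function. -/
lemma LL_sup_succ {Y : Ideal S} (j : ℕ) (hY : Y ≤ maximalIdeal S) :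
    LL (Y ⊔ maximalIdeal S ^ (j + 1)) ≤ LL (Y ⊔ maximalIdeal S ^ j) + GG Y j := by
  have hP : AA Y j ≤ Y ⊔ maximalIdeal S ^ (j + 1) := by
    unfold AA
    have h1 : Y * maximalIdeal S ^ (j - 1) ≤ Y := Ideal.mul_le_left
    exact sup_le le_sup_right (h1.trans le_sup_left)
  have h := ilen_add_le_add (P := AA Y j) (U := maximalIdeal S ^ j)
    (I := Y ⊔ maximalIdeal S ^ (j + 1)) (AA_le Y hY j) hP
  have h2 : (Y ⊔ maximalIdeal S ^ (j + 1)) ⊔ maximalIdeal S ^ j = Y ⊔ maximalIdeal S ^ j := by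
    have h3 : maximalIdeal S ^ (j + 1) ⊔ maximalIdeal S ^ j = maximalIdeal S ^ j :=
      sup_eq_right.mpr (Ideal.pow_le_pow_right (Nat.le_succ j))
    rw [sup_assoc, h3]
  rw [h2] at h
  have hf1 : ilen (Y ⊔ maximalIdeal S ^ (j + 1)) ≠ ⊤ :=
    ilen_ne_top_of_le le_sup_right (ilen_pow_ne_top _)
  have hf2 : ilen (Y ⊔ maximalIdeal S ^ j) ≠ ⊤ :=
    ilen_ne_top_of_le le_sup_right (ilen_pow_ne_top _)
  rw [← coe_LL hf1, ← coe_LL hf2, ← coe_LL (ilen_AA_ne_top Y j), ← coe_LL (ilen_pow_ne_top j)] at h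
  norm_cast at h
  unfold GG
  omega

lemma LL_sup_le_sum {Y : Ideal S} (hY : Y ≤ maximalIdeal S) (N : ℕ) :
    LL (Y ⊔ maximalIdeal S ^ N) ≤ ∑ j ∈ Finset.range N, GG Y j := by
  induction N with
  | zero => simp [LL, ilen_top]
  | succ N ih =>
    rw [Finset.sum_range_succ]
    exact le_trans (LL_sup_succ N hY) (by omega)

/-- Nakayama: `GG Y j = 0`, `j ≥ 1`, gives `n^j ≤ Y n^(j-1)`. -/
lemma pow_le_of_GG_eq_zero {Y : Ideal S} (hY : Y ≤ maximalIdeal S) {j : ℕ} (h : GG Y j = 0) :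
    maximalIdeal S ^ j ≤ Y * maximalIdeal S ^ (j - 1) := by
  have h1 : LL (AA Y j) = LL (maximalIdeal S ^ j) := by
    have := LL_pow_le_LL_AA hY j
    unfold GG at h
    omega
  have h2 : AA Y j = maximalIdeal S ^ j := by
    apply eq_of_le_of_ilen_eq (AA_le Y hY j) (ilen_AA_ne_top Y j)
    rw [← coe_LL (ilen_AA_ne_top Y j), ← coe_LL (ilen_pow_ne_top j), h1]
  have h3 : maximalIdeal S ^ j ≤ Y * maximalIdeal S ^ (j - 1) ⊔ (maximalIdeal S) • maximalIdeal S ^ j := by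
    nth_rewrite 1 [← h2]
    unfold AA
    rw [sup_comm, smul_eq_mul, pow_succ']
  exact Submodule.le_of_le_smul_of_le_jacobson_bot (IsNoetherian.noetherian _)
    (IsLocalRing.maximalIdeal_le_jacobson _) h3

/-- A sequence of elements adapted to `a`, with all the required properties. -/
theorem exists_seq [Infinite (ResidueField S)] (a : Ideal S) (ha : a ≤ maximalIdeal S) :
    ∃ D : SeqData S, (∀ i, D.Y i ≤ maximalIdeal S) ∧
      (∀ i, D.Y i ⊔ maximalIdeal S ^ 2 ≠ maximalIdeal S → D.y i ∉ D.Y i ⊔ maximalIdeal S ^ 2) ∧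
      (∀ i, a ⊔ D.Y i ⊔ maximalIdeal S ^ 2 ≠ maximalIdeal S →
        D.y i ∉ a ⊔ D.Y i ⊔ maximalIdeal S ^ 2) ∧
      (∀ i, ∃ c : ℕ, ∀ j, c ≤ j → ∀ u ∈ maximalIdeal S ^ j,
        D.y i * u ∈ AA (D.Y i) (j + 1) → u ∈ AA (D.Y i) j) := by
  classical
  have hsq : maximalIdeal S ^ 2 ≤ maximalIdeal S := Ideal.pow_le_self (by norm_num)
  -- the avoid list
  let W : Ideal S → Finset (Ideal S) := fun Y =>
    (if Y ⊔ maximalIdeal S ^ 2 ≠ maximalIdeal S then {Y ⊔ maximalIdeal S ^ 2} else ∅) ∪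
    (if a ⊔ Y ⊔ maximalIdeal S ^ 2 ≠ maximalIdeal S then {a ⊔ Y ⊔ maximalIdeal S ^ 2} else ∅)
  have hW : ∀ Y : Ideal S, Y ≤ maximalIdeal S → ∀ w ∈ W Y,
      maximalIdeal S ^ 2 ≤ w ∧ w ≠ maximalIdeal S ∧ w ≤ maximalIdeal S := by
    intro Y hY w hw
    rcases Finset.mem_union.mp hw with h | h
    · split_ifs at h with h0
      · rw [Finset.mem_singleton] at h
        subst h
        exact ⟨le_sup_right, h0, sup_le hY hsq⟩
      · simp at h
    · split_ifs at h with h0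
      · rw [Finset.mem_singleton] at h
        subst h
        exact ⟨le_sup_right, h0, sup_le (sup_le ha hY) hsq⟩
      · simp at h
  have hstep : ∀ Y : {Y : Ideal S // Y ≤ maximalIdeal S}, ∃ y ∈ maximalIdeal S,
      (∀ w ∈ W Y.1, y ∉ w) ∧ ∃ c : ℕ, ∀ j, c ≤ j → ∀ u ∈ maximalIdeal S ^ j,
        y * u ∈ AA Y.1 (j + 1) → u ∈ AA Y.1 j := fun Y => step Y.1 (W Y.1) (hW Y.1 Y.2)
  choose f hf1 hf2 hf3 using hstep
  let Ys : ℕ → {Y : Ideal S // Y ≤ maximalIdeal S} := fun n => Nat.rec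
    ⟨⊥, bot_le⟩ (fun _ Y => ⟨Y.1 ⊔ Ideal.span {f Y}, sup_le Y.2
      ((Ideal.span_singleton_le_iff_mem _).mpr (hf1 Y))⟩) n
  refine ⟨⟨fun i => f (Ys i), fun i => (Ys i).1, rfl, fun i => rfl, fun i => hf1 _⟩,
    fun i => (Ys i).2, ?_, ?_, fun i => hf3 (Ys i)⟩
  · intro i hi
    apply hf2 (Ys i)
    exact Finset.mem_union_left _ (by rw [if_pos hi]; exact Finset.mem_singleton_self _)
  · intro i hi
    apply hf2 (Ys i)
    exact Finset.mem_union_right _ (by rw [if_pos hi]; exact Finset.mem_singleton_self _)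

end Vale.Agent.Lib.P202
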