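import Vale.Agent.Lib.P202.Recursion

namespace Vale.Agent.Lib.P202

open Module IsLocalRing

section Indep

variable {R : Type*} [CommRing R] [IsLocalRing R] [IsNoetherianRing R]

omit [IsLocalRing R] [IsNoetherianRing R] in
/-- Lengths of `U / V` in terms of `ℓ(R/V)` and `ℓ(R/U)`. -/
lemma ilen_eq_length_add {U V : Ideal R} (hVU : V ≤ U) :
    ilen V = Module.length R ((↥U) ⧸ (Submodule.comap U.subtype V)) + ilen U := by
  unfold ilen
  refine Module.length_eq_add_of_exact
    (Submodule.mapQ (Submodule.comap U.subtype V) V U.subtype le_rfl)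
    (Submodule.factor hVU) ?_ (Submodule.factor_surjective _) ?_
  · rw [← LinearMap.ker_eq_bot, LinearMap.ker_eq_bot']
    intro a ha
    obtain ⟨u, rfl⟩ := Submodule.Quotient.mk_surjective _ a
    change Submodule.Quotient.mk (u.1) = 0 at ha
    rw [Submodule.Quotient.mk_eq_zero] at ha
    exact (Submodule.Quotient.mk_eq_zero _).mpr ha
  · intro z
    obtain ⟨w, rfl⟩ := Submodule.Quotient.mk_surjective _ z
    constructor
    · intro h
      change Submodule.Quotient.mk w = 0 at h
      rw [Submodule.Quotient.mk_eq_zero] at h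
      exact ⟨Submodule.Quotient.mk ⟨w, h⟩, rfl⟩
    · rintro ⟨r, hr⟩
      obtain ⟨r, rfl⟩ := Submodule.Quotient.mk_surjective _ r
      change Submodule.Quotient.mk (r.1) = _ at hr
      rw [← hr]
      change Submodule.Quotient.mk (r.1) = 0
      rw [Submodule.Quotient.mk_eq_zero]
      exact r.2

/-- A family independent modulo `V`, of size the length of `U / V`, when `m U ≤ V`. -/
lemma exists_indep {U V : Ideal R} (hVU : V ≤ U) (hm : maximalIdeal R * U ≤ V) :
    ∃ (H : ℕ) (b : Fin H → R), (∀ i, b i ∈ U) ∧
      (∀ c : Fin H → R, ∑ i, c i * b i ∈ V → ∀ i, c i ∈ maximalIdeal R) ∧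
      ilen V = (H : ℕ∞) + ilen U := by
  let W := (↥U) ⧸ (Submodule.comap U.subtype V)
  have tors : Module.IsTorsionBySet R W (maximalIdeal R : Set R) := by
    intro x a
    obtain ⟨u, rfl⟩ := Submodule.Quotient.mk_surjective _ x
    change Submodule.Quotient.mk (a.1 • u) = 0
    rw [Submodule.Quotient.mk_eq_zero]
    exact hm (Ideal.mul_mem_mul a.2 u.2)
  let instField : Field (R ⧸ maximalIdeal R) := Ideal.Quotient.field (maximalIdeal R)
  let instMod : Module (R ⧸ maximalIdeal R) W := tors.module
  have instTower : IsScalarTower R (R ⧸ maximalIdeal R) W := tors.isScalarTower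
  have instFinR : Module.Finite R W := inferInstance
  have instFin : Module.Finite (R ⧸ maximalIdeal R) W :=
    Module.Finite.of_restrictScalars_finite R (R ⧸ maximalIdeal R) W
  let B := Module.finBasis (R ⧸ maximalIdeal R) W
  have hsurj : ∀ i, ∃ u : ↥U, (Submodule.Quotient.mk u : W) = B i :=
    fun i => Submodule.Quotient.mk_surjective _ (B i)
  choose v hv using hsurj
  refine ⟨Module.finrank (R ⧸ maximalIdeal R) W, fun i => (v i).1, fun i => (v i).2, ?_, ?_⟩
  · intro c hc
    have h0 : ∑ i, (Ideal.Quotient.mk (maximalIdeal R) (c i)) • B i = 0 := by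
      have h1 : ∀ i, (Ideal.Quotient.mk (maximalIdeal R) (c i)) • B i = c i • B i := by
        intro i
        have : (Ideal.Quotient.mk (maximalIdeal R) (c i)) = c i • (1 : R ⧸ maximalIdeal R) := by
          rw [Algebra.smul_def]
          simp
        rw [this, smul_assoc, one_smul]
      simp_rw [h1]
      have h2 : ∑ i, c i • B i = (Submodule.Quotient.mk (∑ i, c i • v i) : W) := by
        rw [← Submodule.mkQ_apply, map_sum]
        refine Finset.sum_congr rfl fun i _ => ?_
        rw [map_smul, Submodule.mkQ_apply, hv]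
      rw [h2, Submodule.Quotient.mk_eq_zero]
      change ((∑ i, c i • v i : ↥U) : R) ∈ V
      simpa using hc
    have h3 := (Fintype.linearIndependent_iff.mp B.linearIndependent) _ h0
    intro i
    exact Ideal.Quotient.eq_zero_iff_mem.mp (h3 i)
  · rw [ilen_eq_length_add hVU]
    congr 1
    exact (Module.length_eq_of_surjective (S := R) (R := R ⧸ maximalIdeal R) (M := W)
      Ideal.Quotient.mk_surjective).trans (Module.length_eq_finrank (R ⧸ maximalIdeal R) W)

end Indep

section Flat

variable {R S : Type*} [CommRing R] [CommRing S] [Algebra R S] [Module.Flat R S]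

/-- The flatness input: independence modulo `V` is preserved, in the form of an ideal membership. -/
lemma flat_indep [IsNoetherianRing R] {m V : Ideal R} {H : ℕ} {b : Fin H → R}
    (hb : ∀ c : Fin H → R, ∑ i, c i * b i ∈ V → ∀ i, c i ∈ m)
    (u : Fin H → S) (hu : ∑ i, algebraMap R S (b i) * u i ∈ V.map (algebraMap R S)) :
    ∀ i, u i ∈ m.map (algebraMap R S) := by
  obtain ⟨s, g, hg⟩ := Submodule.fg_iff_exists_fin_generating_family.mp
    (IsNoetherian.noetherian V)
  have hV : V.map (algebraMap R S) = Ideal.span (Set.range (fun j => algebraMap R S (g j))) := by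
    have hV' : V = Ideal.span (Set.range g) := hg.symm
    rw [hV', Ideal.map_span, ← Set.range_comp]
    rfl
  rw [hV, Ideal.mem_span_range_iff_exists_fun] at hu
  obtain ⟨v, hv⟩ := hu
  let f : Fin H ⊕ Fin s → R := Sum.elim b (fun j => - g j)
  let x : Fin H ⊕ Fin s → S := Sum.elim u v
  have hrel : ∑ k, f k • x k = 0 := by
    rw [Fintype.sum_sum_type]
    simp only [f, x, Sum.elim_inl, Sum.elim_inr, Algebra.smul_def, map_neg]
    have h1 : ∑ j, - (algebraMap R S (g j)) * v j = - ∑ j, v j * algebraMap R S (g j) := by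
      rw [← Finset.sum_neg_distrib]
      refine Finset.sum_congr rfl fun j _ => ?_
      ring
    rw [h1, hv]
    ring
  obtain ⟨k, α, w, hx, hα⟩ := Module.Flat.isTrivialRelation_of_sum_smul_eq_zero (R := R) (M := S) (f := f) (x := x) hrel
  intro i
  have hui : u i = ∑ j, α (Sum.inl i) j • w j := by
    have := hx (Sum.inl i)
    simpa [x] using this
  rw [hui]
  refine Ideal.sum_mem _ fun j _ => ?_
  have hcol : ∑ l, α (Sum.inl l) j * b l ∈ V := by
    have h2 := hα j
    rw [Fintype.sum_sum_type] at h2
    simp only [f, Sum.elim_inl, Sum.elim_inr] at h2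
    have h3 : ∑ l, α (Sum.inl l) j * b l = ∑ l, α (Sum.inr l) j * g l := by
      have h4 : ∑ l, - g l * α (Sum.inr l) j = - ∑ l, α (Sum.inr l) j * g l := by
        rw [← Finset.sum_neg_distrib]
        refine Finset.sum_congr rfl fun l _ => ?_
        ring
      rw [h4] at h2
      have h5 : ∑ l, b l * α (Sum.inl l) j = ∑ l, α (Sum.inl l) j * b l :=
        Finset.sum_congr rfl fun l _ => mul_comm _ _
      rw [h5] at h2
      linear_combination h2
    rw [h3]
    exact Ideal.sum_mem _ fun l _ => V.mul_mem_left _ (by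
      rw [← hg]; exact Submodule.subset_span ⟨l, rfl⟩)
  have hmem := hb (fun l => α (Sum.inl l) j) hcol i
  rw [Algebra.smul_def]
  exact Ideal.mul_mem_right _ _ (Ideal.mem_map_of_mem _ hmem)

end Flat

section Kq

variable {S : Type*} [CommRing S]

/-- The module `(I : y) / I`, the kernel of `y` on `S / I`. -/
abbrev Kq (I : Ideal S) (y : S) := (↥(cln I y)) ⧸ (Submodule.comap (cln I y).subtype I)

lemma ilen_eq_Kq (I : Ideal S) (y : S) :
    ilen I = Module.length S (Kq I y) + ilen (cln I y) := by
  unfold ilen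
  refine Module.length_eq_add_of_exact
    (Submodule.mapQ (Submodule.comap (cln I y).subtype I) I (cln I y).subtype le_rfl)
    (Submodule.factor (le_cln I y)) ?_ (Submodule.factor_surjective _) ?_
  · rw [← LinearMap.ker_eq_bot, LinearMap.ker_eq_bot']
    intro a ha
    obtain ⟨u, rfl⟩ := Submodule.Quotient.mk_surjective _ a
    change Submodule.Quotient.mk (u.1) = 0 at ha
    rw [Submodule.Quotient.mk_eq_zero] at ha
    exact (Submodule.Quotient.mk_eq_zero _).mpr ha
  · intro z
    obtain ⟨w, rfl⟩ := Submodule.Quotient.mk_surjective _ z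
    constructor
    · intro h
      change Submodule.Quotient.mk w = 0 at h
      rw [Submodule.Quotient.mk_eq_zero] at h
      exact ⟨Submodule.Quotient.mk ⟨w, h⟩, rfl⟩
    · rintro ⟨r, hr⟩
      obtain ⟨r, rfl⟩ := Submodule.Quotient.mk_surjective _ r
      change Submodule.Quotient.mk (r.1) = _ at hr
      rw [← hr]
      change Submodule.Quotient.mk (r.1) = 0
      rw [Submodule.Quotient.mk_eq_zero]
      exact r.2

/-- Kernel and cokernel of `y` on `S / I` have the same length. -/
lemma length_Kq_eq {I : Ideal S} (y : S) (hI : ilen I ≠ ⊤) :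
    Module.length S (Kq I y) = ilen (I ⊔ Ideal.span {y}) := by
  have h1 := ilen_eq_Kq I y
  have h2 := ilen_eq_add_cln I y
  have hc : ilen (cln I y) ≠ ⊤ := by
    intro h
    rw [h, add_top] at h1
    exact hI h1
  rw [h1] at h2
  exact (WithTop.add_right_inj hc).mp h2

end Kq

section Main

variable {R S : Type*} [CommRing R] [CommRing S] [Algebra R S] [Module.Flat R S]
  [IsNoetherianRing R]

/-- The top layer inequality. -/
lemma top_layer_aux (m U V : Ideal R) (hUm : U * m ≤ V) (y : S)
    {H : ℕ} {b : Fin H → R} (hbU : ∀ i, b i ∈ U)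
    (hb : ∀ c : Fin H → R, ∑ i, c i * b i ∈ V → ∀ i, c i ∈ m)
    (hfin1 : ilen (m.map (algebraMap R S)) ≠ ⊤) (hfin2 : ilen (V.map (algebraMap R S)) ≠ ⊤) :
    (H : ℕ∞) * ilen (m.map (algebraMap R S) ⊔ Ideal.span {y})
      ≤ ilen (V.map (algebraMap R S) ⊔ Ideal.span {y}) := by
  set a := m.map (algebraMap R S) with ha
  set A := V.map (algebraMap R S) with hA
  have hmulmem : ∀ i, ∀ u ∈ a, algebraMap R S (b i) * u ∈ A := by
    intro i u hu
    have h1 : U.map (algebraMap R S) * a ≤ A := by
      rw [ha, hA, ← Ideal.map_mul]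
      exact Ideal.map_mono hUm
    exact h1 (Ideal.mul_mem_mul (Ideal.mem_map_of_mem _ (hbU i)) hu)
  -- the component maps
  let res : Fin H → (↥(cln a y)) →ₗ[S] (↥(cln A y)) := fun i =>
    LinearMap.codRestrict (cln A y)
      ((LinearMap.mulLeft S (algebraMap R S (b i))) ∘ₗ (cln a y).subtype)
      (by
        intro u
        have hu : y * u.1 ∈ a := u.2
        have : y * (algebraMap R S (b i) * u.1) = algebraMap R S (b i) * (y * u.1) := by ring
        change y * (algebraMap R S (b i) * u.1) ∈ A
        rw [this]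
        exact hmulmem i _ hu)
  let comp : Fin H → (Kq a y) →ₗ[S] (Kq A y) := fun i =>
    Submodule.mapQ _ _ (res i) (by
      intro u hu
      exact hmulmem i u.1 hu)
  let Φ : (Fin H → Kq a y) →ₗ[S] (Kq A y) := LinearMap.lsum S (fun _ => Kq a y) S comp
  have hinj : Function.Injective Φ := by
    rw [← LinearMap.ker_eq_bot, LinearMap.ker_eq_bot']
    intro v hv
    have hsurj : ∀ i, ∃ u : ↥(cln a y), (Submodule.Quotient.mk u : Kq a y) = v i :=
      fun i => Submodule.Quotient.mk_surjective _ (v i)
    choose u hu using hsurj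
    have hv' : Φ v = Submodule.Quotient.mk (∑ i, res i (u i)) := by
      simp only [Φ, LinearMap.lsum_apply, LinearMap.sum_apply, LinearMap.comp_apply,
        LinearMap.proj_apply]
      rw [← Submodule.mkQ_apply, map_sum]
      refine Finset.sum_congr rfl fun i _ => ?_
      rw [← hu i]
      rfl
    rw [hv', Submodule.Quotient.mk_eq_zero] at hv
    have hmem : ∑ i, algebraMap R S (b i) * (u i).1 ∈ A := by
      have : ((∑ i, res i (u i) : ↥(cln A y)) : S) = ∑ i, algebraMap R S (b i) * (u i).1 := by
        rw [AddSubmonoidClass.coe_finsetSum]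
        rfl
      rw [← this]
      exact hv
    have hfl := flat_indep hb (fun i => (u i).1) hmem
    funext i
    rw [← hu i]
    exact (Submodule.Quotient.mk_eq_zero _).mpr (hfl i)
  have h1 := Module.length_le_of_injective Φ hinj
  rw [Module.length_pi, length_Kq_eq y hfin1, length_Kq_eq y hfin2] at h1
  simpa using h1

end Main

end Vale.Agent.Lib.P202
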